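import Vale.Agent.P329.RunSF

namespace Vale.Agent.P329

variable {α : Type} [DecidableEq α] {p : ℕ} [Fact p.Prime] {pi : α → ZMod p} {x : α}
  {τ : Bool → Bool → Bool}

theorem alive_step (v : List α) (y : α) (w : List α) (s : ZMod p × Bool)
    (h : run pi x τ s (v ++ y :: w) ≠ none) :
    ∃ s1, run pi x τ s v = some s1 ∧ cut pi x τ s1 y = false ∧
      run pi x τ (stp pi x s1 y) w ≠ none := by
  rw [run_append] at h
  cases h1 : run pi x τ s v with
  | none => rw [h1] at h; exact absurd rfl h
  | some s1 =>
    rw [h1] at h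
    simp only [Option.bind_some, run] at h
    split_ifs at h with hc
    · exact absurd rfl h
    · exact ⟨s1, rfl, by simpa using hc, h⟩

theorem sum_rep (u : List α) (n : ℕ) : (((List.replicate n u).flatten).map pi).sum =
    (n : ZMod p) * (u.map pi).sum := by
  induction n with
  | zero => simp
  | succ n ih =>
    rw [List.replicate_succ, List.flatten_cons, List.map_append, List.sum_append, ih]
    push_cast
    ring

theorem rep_split (u : List α) (n m : ℕ) : (List.replicate (n + 1 + m) u).flatten =
    (List.replicate n u).flatten ++ (u ++ (List.replicate m u).flatten) := by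
  rw [add_assoc, List.replicate_add, List.flatten_append, add_comm 1 m, List.replicate_succ,
    List.flatten_cons]

theorem fv (u a c : List α) (y : α) (hu : u = a ++ y :: c) (hs : (u.map pi).sum ≠ 0)
    (d : List α) (s : ZMod p × Bool) (N : ℕ) (hN : p ≤ N)
    (h : run pi x τ s (d ++ (List.replicate N u).flatten) ≠ none) :
    ∃ s1, ∃ n < p, run pi x τ s (d ++ (List.replicate n u).flatten ++ a) = some s1 ∧
      s1.1 + pi y = 0 ∧ cut pi x τ s1 y = false ∧
      run pi x τ (stp pi x s1 y) (c ++ (List.replicate (N - 1 - n) u).flatten) ≠ none := by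
  set σ := (u.map pi).sum with hσ
  set t : ZMod p := -(s.1 + (d.map pi).sum + (a.map pi).sum + pi y) with ht
  have hn : (((t / σ).val : ℕ) : ZMod p) * σ = t := by
    rw [ZMod.natCast_zmod_val]
    exact div_mul_cancel₀ t hs
  have hlt : (t / σ).val < p := ZMod.val_lt _
  generalize (t / σ).val = n at hn hlt
  obtain ⟨m, rfl⟩ : ∃ m, N = n + 1 + m := ⟨N - 1 - n, by omega⟩
  have e : d ++ (List.replicate (n + 1 + m) u).flatten =
      (d ++ (List.replicate n u).flatten ++ a) ++ y :: (c ++ (List.replicate m u).flatten) := by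
    rw [rep_split]
    conv_lhs => rw [show (u ++ (List.replicate m u).flatten) =
      (a ++ y :: c) ++ (List.replicate m u).flatten by rw [← hu]]
    simp
  rw [e] at h
  obtain ⟨s1, h1, h2, h3⟩ := alive_step _ _ _ _ h
  refine ⟨s1, n, hlt, h1, ?_, h2, ?_⟩
  · rw [run_fst _ _ _ h1]
    simp only [List.map_append, List.sum_append]
    rw [sum_rep, ← hσ, hn, ht]
    ring
  · have : n + 1 + m - 1 - n = m := by omega
    rw [this]; exact h3

theorem inv_e (e : Bool) (w : List α) : ∀ s s' : ZMod p × Bool,
    (∀ y ∈ w, decide (y = x) = !e) → (s.1 = 0 ∨ s.2 = !e) → run pi x τ s w = some s' →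
    (s'.1 = 0 ∨ s'.2 = !e) := by
  induction w with
  | nil =>
    intro s s' _ h h2
    simp only [run, Option.some.injEq] at h2
    rw [← h2]; exact h
  | cons y w ih =>
    intro s s' hw h h2
    simp only [run] at h2
    split_ifs at h2
    refine ih _ _ (fun z hz => hw z (by simp [hz])) ?_ h2
    right
    simp only [stp]
    split_ifs with h0
    · exact hw y (by simp)
    · exact h.resolve_left h0

theorem inv_n (hx : pi x = 0) (w : List α) : ∀ s s' : ZMod p × Bool,
    (s.1 = 0 ∨ s.2 = false) → run pi x τ s w = some s' → (s'.1 = 0 ∨ s'.2 = false) := by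
  induction w with
  | nil =>
    intro s s' h h2
    simp only [run, Option.some.injEq] at h2
    rw [← h2]; exact h
  | cons y w ih =>
    intro s s' h h2
    simp only [run] at h2
    split_ifs at h2
    refine ih _ _ ?_ h2
    simp only [stp]
    by_cases h0 : s.1 = 0
    · by_cases hy : y = x
      · left; rw [h0, hy, hx, add_zero]
      · right; simp [h0, hy]
    · right; simp [h0, h.resolve_left h0]

theorem cut_false {s1 : ZMod p × Bool} {y : α} (h0 : s1.1 + pi y = 0)
    (h : cut pi x τ s1 y = false) : τ (stp pi x s1 y).2 (decide (y = x)) = false := by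
  simpa [cut, h0] using h

theorem stp_fst {s1 : ZMod p × Bool} {y : α} : (stp pi x s1 y).1 = s1.1 + pi y := rfl

theorem dead_e (e : Bool) (hτ : ∀ b l, τ b l = false → b = e ∧ l = !e) : Dead pi x τ := by
  intro u hu
  refine ⟨2 * p, fun s => ?_⟩
  by_contra hne
  have h0 : run pi x τ s ([] ++ (List.replicate (2 * p) u).flatten) ≠ none := by simpa using hne
  have hall : ∀ y ∈ u, decide (y = x) = !e := by
    intro y hy
    obtain ⟨a, c, hac⟩ := List.append_of_mem hy
    obtain ⟨s1, n, _, _, h3, h4, _⟩ := fv u a c y hac hu [] s (2 * p) (by omega) h0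
    exact (hτ _ _ (cut_false h3 h4)).2
  have hp : 0 < p := (Fact.out : p.Prime).pos
  cases hu' : u with
  | nil => rw [hu'] at hu; simp at hu
  | cons y c =>
    obtain ⟨s1, n, hn, _, h3, _, h5⟩ := fv u [] c y hu' hu [] s (2 * p) (by omega) h0
    obtain ⟨s1', n', _, h2', h3', h4', _⟩ := fv u [] c y hu' hu c (stp pi x s1 y)
      (2 * p - 1 - n) (by omega) h5
    have hm : ∀ z ∈ c ++ (List.replicate n' u).flatten ++ [], decide (z = x) = !e := by
      intro z hz
      rw [List.append_nil] at hz
      rcases List.mem_append.1 hz with hz | hz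
      · exact hall z (by rw [hu']; simp [hz])
      · obtain ⟨l, hl, hz⟩ := List.mem_flatten.1 hz
        rw [List.eq_of_mem_replicate hl] at hz
        exact hall z hz
    have hi := inv_e (τ := τ) e _ _ _ hm (Or.inl (by rw [stp_fst, h3])) h2'
    have hf := (hτ _ _ (cut_false h3' h4')).1
    have hyx : decide (y = x) = !e := hall y (by rw [hu']; simp)
    simp only [stp] at hf
    split_ifs at hf with h00
    · rw [hyx] at hf; cases e <;> simp at hf
    · rw [hi.resolve_left h00] at hf; cases e <;> simp at hf

theorem dead_n (hx : pi x = 0) (hτ : ∀ b l, τ b l = false → b = true) : Dead pi x τ := by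
  intro u hu
  refine ⟨2 * p, fun s => ?_⟩
  by_contra hne
  have h0 : run pi x τ s ([] ++ (List.replicate (2 * p) u).flatten) ≠ none := by simpa using hne
  have hp : 0 < p := (Fact.out : p.Prime).pos
  cases hu' : u with
  | nil => rw [hu'] at hu; simp at hu
  | cons y c =>
    obtain ⟨s1, n, hn, _, h3, _, h5⟩ := fv u [] c y hu' hu [] s (2 * p) (by omega) h0
    have hall : ∀ z ∈ u, pi z = 0 := by
      intro z hz
      obtain ⟨a', c', hac⟩ := List.append_of_mem hz
      obtain ⟨s1', n', _, h2', h3', h4', _⟩ := fv u a' c' z hac hu c (stp pi x s1 y)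
        (2 * p - 1 - n) (by omega) h5
      have hi := inv_n (τ := τ) hx _ _ _ (Or.inl (by rw [stp_fst, h3])) h2'
      have hf := hτ _ _ (cut_false h3' h4')
      simp only [stp] at hf
      split_ifs at hf with h00
      · have : z = x := by simpa using hf
        rw [this, hx]
      · rw [hi.resolve_left h00] at hf; simp at hf
    apply hu
    apply List.sum_eq_zero
    intro z hz
    obtain ⟨z', hz', rfl⟩ := List.mem_map.1 hz
    exact hall z' hz'

theorem dead_all (hτ : ∀ b l, τ b l = true) : Dead pi x τ := by
  intro u hu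
  refine ⟨p, fun s => ?_⟩
  by_contra hne
  have h0 : run pi x τ s ([] ++ (List.replicate p u).flatten) ≠ none := by simpa using hne
  cases hu' : u with
  | nil => rw [hu'] at hu; simp at hu
  | cons y c =>
    obtain ⟨s1, n, hn, _, h3, h4, _⟩ := fv u [] c y hu' hu [] s p le_rfl h0
    have := cut_false h3 h4
    rw [hτ] at this
    exact absurd this (by simp)

theorem run_height_alpha [Finite α] (s s2 : ZMod p × Bool) :
    HasHeight 0 ({w | run pi x (fun b l => !(b && !l)) s w = some s2} : Language α) :=
  (run_sf (dead_e true (by decide)) s s2).hasHeight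

theorem run_height_beta [Finite α] (s s2 : ZMod p × Bool) :
    HasHeight 0 ({w | run pi x (fun b l => !(!b && l)) s w = some s2} : Language α) :=
  (run_sf (dead_e false (by decide)) s s2).hasHeight

theorem run_height_nu [Finite α] (hx : pi x = 0) (s s2 : ZMod p × Bool) :
    HasHeight 0 ({w | run pi x (fun b _ => !b) s w = some s2} : Language α) :=
  (run_sf (dead_n hx (by decide)) s s2).hasHeight

theorem run_height_all [Finite α] (s s2 : ZMod p × Bool) :
    HasHeight 0 ({w | run pi x (fun _ _ => true) s w = some s2} : Language α) :=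
  (run_sf (dead_all (by decide)) s s2).hasHeight

end Vale.Agent.P329
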