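import Vale.Agent.P329.Defs

/-! # P329: the group-theoretic part, all letters -/

namespace Vale.Agent.P329

/-- Number of occurrences of `x` at state `s`; a letter `c` adds `pi c` to the state. -/
def cnts {α : Type} [DecidableEq α] {k : ℕ} (pi : α → ZMod k) (x : α) (s : ZMod k) :
    ZMod k → List α → ℕ
  | _, [] => 0
  | t, c :: w => (if c = x ∧ t = s then 1 else 0) + cnts pi x s (t + pi c) w

theorem group_all {G α : Type} [Group G] [Finite G] (N : Subgroup G) [N.Normal]
    (hN : ∀ x ∈ N, ∀ y ∈ N, x * y = y * x) [Fintype α] [DecidableEq α] (φ : α → G)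
    (k : ℕ) [NeZero k] (h : G) (pi : α → ZMod k) (hk : h ^ k ∈ N)
    (hφ : ∀ a, φ a * (h ^ (pi a).val)⁻¹ ∈ N) (w w2 : List α)
    (hb : (w.map pi).sum = (w2.map pi).sum)
    (hc : ∀ a, ∀ s : ZMod k, cnts pi a s 0 w % Nat.card G = cnts pi a s 0 w2 % Nat.card G) :
    (w.map φ).prod = (w2.map φ).prod := by
  classical
  letI : CommGroup N := { (inferInstance : Group N) with
    mul_comm := fun x y => Subtype.ext (hN x x.2 y y.2) }
  -- modulo `N`
  have hQk : ((h : G ⧸ N)) ^ k = 1 := by
    have : ((h ^ k : G) : G ⧸ N) = 1 := (QuotientGroup.eq_one_iff _).mpr hk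
    simpa using this
  have hQφ : ∀ a, ((φ a : G) : G ⧸ N) = (h : G ⧸ N) ^ (pi a).val := by
    intro a
    have h1 : ((φ a * (h ^ (pi a).val)⁻¹ : G) : G ⧸ N) = 1 :=
      (QuotientGroup.eq_one_iff _).mpr (hφ a)
    rw [QuotientGroup.mk_mul, QuotientGroup.mk_inv, QuotientGroup.mk_pow,
      mul_inv_eq_one] at h1
    exact h1
  have hmem : ∀ (s : ZMod k) (a : α), h ^ s.val * φ a * (h ^ (s + pi a).val)⁻¹ ∈ N := by
    intro s a
    rw [← QuotientGroup.eq_one_iff]
    rw [QuotientGroup.mk_mul, QuotientGroup.mk_mul, QuotientGroup.mk_inv, QuotientGroup.mk_pow,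
      QuotientGroup.mk_pow, hQφ, ← pow_add, mul_inv_eq_one, ZMod.val_add,
      ← pow_eq_pow_mod _ hQk]
  let c : ZMod k → α → N := fun s a =>
    ⟨h ^ s.val * φ a * (h ^ (s + pi a).val)⁻¹, hmem s a⟩
  let W : ZMod k → List α → N := fun t w => ∏ a : α, ∏ s : ZMod k, c s a ^ cnts pi a s t w
  have hWa : ∀ t x w, W t (x :: w) = c t x * W (t + pi x) w := by
    intro t x w
    have e1 : ∀ (a : α) (s : ZMod k), c s a ^ cnts pi a s t (x :: w) =
        (c s a ^ (if x = a ∧ t = s then 1 else 0)) * c s a ^ cnts pi a s (t + pi x) w := by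
      intro a s
      simp only [cnts, pow_add]
    show (∏ a : α, ∏ s : ZMod k, c s a ^ cnts pi a s t (x :: w)) = _
    simp only [e1, Finset.prod_mul_distrib]
    congr 1
    rw [Finset.prod_eq_single x]
    · rw [Finset.prod_eq_single t]
      · simp
      · intro s _ hs
        have : ¬ (t = s) := fun h0 => hs h0.symm
        simp [this]
      · intro h0
        exact absurd (Finset.mem_univ _) h0
    · intro a _ ha
      refine Finset.prod_eq_one fun s _ => ?_
      have : ¬ (x = a ∧ t = s) := fun h0 => ha h0.1.symm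
      rw [if_neg this, pow_zero]
    · intro h0
      exact absurd (Finset.mem_univ _) h0
  have key : ∀ (w : List α) (t : ZMod k), h ^ t.val * (w.map φ).prod =
      (W t w : G) * h ^ (t + (w.map pi).sum).val := by
    intro w
    induction w with
    | nil =>
      intro t
      have : W t [] = 1 := by
        refine Finset.prod_eq_one fun a _ => Finset.prod_eq_one fun s _ => ?_
        simp [cnts]
      simp [this]
    | cons x w ih =>
      intro t
      rw [List.map_cons, List.prod_cons, hWa t x w, List.map_cons, List.sum_cons]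
      have e2 : ((c t x : N) : G) = h ^ t.val * φ x * (h ^ (t + pi x).val)⁻¹ := rfl
      have e3 : t + (pi x + (w.map pi).sum) = t + pi x + (w.map pi).sum := by ring
      rw [Subgroup.coe_mul, e2, e3, mul_assoc (h ^ t.val * φ x * (h ^ (t + pi x).val)⁻¹),
        ← ih (t + pi x)]
      group
  have hW : W 0 w = W 0 w2 := by
    refine Finset.prod_congr rfl fun a _ => Finset.prod_congr rfl fun s _ => ?_
    have hcard : (c s a) ^ Nat.card G = 1 := by
      apply Subtype.ext
      rw [Subgroup.coe_pow]
      exact pow_card_eq_one'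
    rw [pow_eq_pow_mod _ hcard, hc a, ← pow_eq_pow_mod _ hcard]
  have k1 := key w 0
  have k2 := key w2 0
  rw [ZMod.val_zero, pow_zero, one_mul] at k1 k2
  rw [k1, k2, hW, hb]

end Vale.Agent.P329
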