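import Vale.Agent.P329.Seg
import Vale.Agent.P329.GroupAll

/-!
# P329: counting identities
-/

namespace Vale.Agent.P329

variable {α : Type} [DecidableEq α] {k : ℕ}

/-- Pending segment starting with `x`. -/
def Phi (s : ZMod k × Bool) : ℕ := if s.1 ≠ 0 ∧ s.2 = true then 1 else 0

theorem ident_one (pi : α → ZMod k) (x : α) : ∀ (w : List α) (q : ZMod k) (b : Bool),
    cnts pi x 0 q w + Phi (q, b) + seg pi x (fun b l => !(b && !l)) (q, b) w =
      seg pi x (fun b l => !(!b && l)) (q, b) w + cnts pi x 0 (q + pi x) w +
        Phi (w.foldl (stp pi x) (q, b)) := by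
  intro w
  induction w with
  | nil =>
    intro q b
    simp [cnts, seg]
  | cons y w ih =>
    intro q b
    have h := ih (q + pi y) (if q = 0 then decide (y = x) else b)
    have hs : stp pi x (q, b) y = (q + pi y, if q = 0 then decide (y = x) else b) := rfl
    have hcomm : q + pi x + pi y = q + pi y + pi x := by ring
    rw [List.foldl_cons, hs]
    have hloc : (if y = x ∧ q = 0 then 1 else 0) + Phi (q, b) +
        (if (decide (q + pi y = 0) && !((if q = 0 then decide (y = x) else b) &&
          !decide (y = x))) = true then 1 else 0) =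
        (if (decide (q + pi y = 0) && !(!(if q = 0 then decide (y = x) else b) &&
          decide (y = x))) = true then 1 else 0) + (if y = x ∧ q + pi x = 0 then 1 else 0) +
        Phi (q + pi y, if q = 0 then decide (y = x) else b) := by
      by_cases hyx : y = x
      · subst hyx
        by_cases hq : q = 0
        · by_cases hq' : q + pi y = 0
          · simp [Phi, hq, hq'] <;> simp_all
          · simp [Phi, hq, hq'] <;> simp_all
        · by_cases hq' : q + pi y = 0
          · cases b <;> simp [Phi, hq, hq']
          · cases b <;> simp [Phi, hq, hq']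
      · by_cases hq : q = 0
        · by_cases hq' : q + pi y = 0
          · simp [Phi, hq, hq', hyx] <;> simp_all
          · simp [Phi, hq, hq', hyx] <;> simp_all
        · by_cases hq' : q + pi y = 0
          · cases b <;> simp [Phi, hq, hq', hyx]
          · cases b <;> simp [Phi, hq, hq', hyx]
    simp only [cnts, seg, cut, hs, hcomm]
    omega

theorem ident_two (pi : α → ZMod k) (x : α) (hx : pi x = 0) : ∀ (w : List α) (q : ZMod k)
    (b : Bool), (q = 0 ∨ b = false) →
    seg pi x (fun _ _ => true) (q, b) w =
      seg pi x (fun b _ => !b) (q, b) w + cnts pi x 0 q w := by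
  intro w
  induction w with
  | nil =>
    intro q b _
    simp [cnts, seg]
  | cons y w ih =>
    intro q b hqb
    have hs : stp pi x (q, b) y = (q + pi y, if q = 0 then decide (y = x) else b) := rfl
    have hinv : (q + pi y = 0) ∨ (if q = 0 then decide (y = x) else b) = false := by
      by_cases hq : q = 0
      · by_cases hyx : y = x
        · left
          rw [hq, hyx, hx, add_zero]
        · right
          simp [hq, hyx]
      · right
        rw [if_neg hq]
        exact hqb.resolve_left hq
    have h := ih (q + pi y) (if q = 0 then decide (y = x) else b) hinv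
    simp only [cnts, seg, cut, hs]
    rw [h]
    by_cases hyx : y = x
    · subst hyx
      by_cases hq : q = 0
      · simp [hq, hx]
        omega
      · have hb := hqb.resolve_left hq
        subst hb
        simp [hq, hx]
    · by_cases hq : q = 0
      · simp [hq, hyx]
        omega
      · have hb := hqb.resolve_left hq
        subst hb
        simp [hq, hyx]
        omega

theorem sum_cnts [NeZero k] (pi : α → ZMod k) (x : α) (w : List α) :
    ∑ q : ZMod k, cnts pi x 0 q w = w.count x := by
  induction w with
  | nil => simp [cnts]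
  | cons y w ih =>
    simp only [cnts]
    rw [Finset.sum_add_distrib]
    have h1 : ∑ q : ZMod k, cnts pi x 0 (q + pi y) w = ∑ q : ZMod k, cnts pi x 0 q w :=
      Equiv.sum_comp (Equiv.addRight (pi y)) (fun q => cnts pi x 0 q w)
    rw [h1, ih]
    by_cases hyx : y = x
    · subst hyx
      simp [List.count_cons_self, add_comm]
    · rw [List.count_cons_of_ne (by simpa using hyx)]
      simp [hyx]

theorem cnts_shift (pi : α → ZMod k) (x : α) (s : ZMod k) : ∀ (w : List α) (t : ZMod k),
    cnts pi x s t w = cnts pi x 0 (t - s) w := by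
  intro w
  induction w with
  | nil => intro t; rfl
  | cons y w ih =>
    intro t
    simp only [cnts]
    rw [ih]
    have h1 : t + pi y - s = t - s + pi y := by ring
    rw [h1]
    simp only [sub_eq_zero]

theorem det_ne {p : ℕ} [Fact p.Prime] (pi : α → ZMod p) (x : α) (hx : pi x ≠ 0) (N : ℕ)
    (w w2 : List α)
    (hα : ∀ q, seg pi x (fun b l => !(b && !l)) (q, false) w % (N * p) =
      seg pi x (fun b l => !(b && !l)) (q, false) w2 % (N * p))
    (hβ : ∀ q, seg pi x (fun b l => !(!b && l)) (q, false) w % (N * p) =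
      seg pi x (fun b l => !(!b && l)) (q, false) w2 % (N * p))
    (hΦ : ∀ q, Phi (w.foldl (stp pi x) (q, false)) = Phi (w2.foldl (stp pi x) (q, false)))
    (hc : w.count x % (N * p) = w2.count x % (N * p)) (q : ZMod p) :
    cnts pi x 0 q w % N = cnts pi x 0 q w2 % N := by
  have hp : p.Prime := Fact.out
  -- integer differences
  obtain ⟨u, hu⟩ : ∃ u : ZMod p → ℤ, ∀ q, u q = (cnts pi x 0 q w : ℤ) - cnts pi x 0 q w2 :=
    ⟨_, fun _ => rfl⟩
  have hstep : ∀ q, ((N * p : ℕ) : ℤ) ∣ u q - u (q + pi x) := by
    intro q
    have e1 := ident_one pi x w q false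
    have e2 := ident_one pi x w2 q false
    rw [hΦ q] at e1
    have a1 : ((N * p : ℕ) : ℤ) ∣ (seg pi x (fun b l => !(b && !l)) (q, false) w : ℤ) -
        seg pi x (fun b l => !(b && !l)) (q, false) w2 :=
      (Nat.modEq_iff_dvd.mp (show _ ≡ _ [MOD N * p] from (hα q).symm))
    have a2 : ((N * p : ℕ) : ℤ) ∣ (seg pi x (fun b l => !(!b && l)) (q, false) w : ℤ) -
        seg pi x (fun b l => !(!b && l)) (q, false) w2 :=
      (Nat.modEq_iff_dvd.mp (show _ ≡ _ [MOD N * p] from (hβ q).symm))
    have a3 := dvd_sub a2 a1
    have e3 : u q - u (q + pi x) =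
        ((seg pi x (fun b l => !(!b && l)) (q, false) w : ℤ) -
        seg pi x (fun b l => !(!b && l)) (q, false) w2) -
        ((seg pi x (fun b l => !(b && !l)) (q, false) w : ℤ) -
        seg pi x (fun b l => !(b && !l)) (q, false) w2) := by
      rw [hu, hu]
      omega
    rw [e3]
    exact a3
  have hiter : ∀ (n : ℕ) q, ((N * p : ℕ) : ℤ) ∣ u q - u (q + n * pi x) := by
    intro n
    induction n with
    | zero => intro q; simp
    | succ n ih =>
      intro q
      have h1 := ih q
      have h2 := hstep (q + n * pi x)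
      have h3 := dvd_add h1 h2
      have h4 : q + n * pi x + pi x = q + ((n + 1 : ℕ) : ZMod p) * pi x := by
        push_cast
        ring
      rw [h4] at h3
      have h5 : u q - u (q + n * pi x) + (u (q + n * pi x) - u (q + ((n + 1 : ℕ) : ZMod p) *
          pi x)) = u q - u (q + ((n + 1 : ℕ) : ZMod p) * pi x) := by ring
      rw [h5] at h3
      exact h3
  have hall : ∀ r, ((N * p : ℕ) : ℤ) ∣ u q - u r := by
    intro r
    have h1 := hiter ((r - q) * (pi x)⁻¹).val q
    rw [ZMod.natCast_zmod_val, mul_assoc, inv_mul_cancel₀ hx, mul_one] at h1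
    have h2 : q + (r - q) = r := by ring
    rw [h2] at h1
    exact h1
  have hsum : ((N * p : ℕ) : ℤ) ∣ ∑ r : ZMod p, u r := by
    have h1 : ∑ r : ZMod p, u r = (w.count x : ℤ) - w2.count x := by
      rw [← sum_cnts pi x w, ← sum_cnts pi x w2]
      push_cast
      rw [← Finset.sum_sub_distrib]
      exact Finset.sum_congr rfl fun r _ => hu r
    rw [h1]
    exact (Nat.modEq_iff_dvd.mp (show _ ≡ _ [MOD N * p] from hc.symm))
  have hsum2 : ((N * p : ℕ) : ℤ) ∣ ∑ r : ZMod p, (u q - u r) :=
    Finset.dvd_sum fun r _ => hall r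
  have hpu : ((N * p : ℕ) : ℤ) ∣ (p : ℤ) * u q := by
    have h1 : (p : ℤ) * u q = ∑ r : ZMod p, (u q - u r) + ∑ r : ZMod p, u r := by
      rw [← Finset.sum_add_distrib]
      simp [ZMod.card]
    rw [h1]
    exact dvd_add hsum2 hsum
  have hN : (N : ℤ) ∣ u q := by
    have hp0 : (p : ℤ) ≠ 0 := by exact_mod_cast hp.ne_zero
    have h1 : (p : ℤ) * N ∣ (p : ℤ) * u q := by
      have : ((N * p : ℕ) : ℤ) = (p : ℤ) * N := by push_cast; ring
      rw [← this]
      exact hpu
    exact (mul_dvd_mul_iff_left hp0).mp h1
  rw [hu] at hN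
  exact (Nat.modEq_iff_dvd.mpr hN).symm

theorem det_zero (pi : α → ZMod k) (x : α) (hx : pi x = 0) (N : ℕ)
    (w w2 : List α)
    (hα : ∀ q, seg pi x (fun _ _ => true) (q, false) w % N =
      seg pi x (fun _ _ => true) (q, false) w2 % N)
    (hβ : ∀ q, seg pi x (fun b _ => !b) (q, false) w % N =
      seg pi x (fun b _ => !b) (q, false) w2 % N) (q : ZMod k) :
    cnts pi x 0 q w % N = cnts pi x 0 q w2 % N := by
  have e1 := ident_two pi x hx w q false (Or.inr rfl)
  have e2 := ident_two pi x hx w2 q false (Or.inr rfl)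
  have a1 := hα q
  have a2 := hβ q
  rw [e1, e2] at a1
  exact Nat.ModEq.add_left_cancel (show _ ≡ _ [MOD N] from a2) (show _ ≡ _ [MOD N] from a1)

end Vale.Agent.P329
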