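import Vale.Agent.P329.Count2

namespace Vale.Agent.P329

variable {α : Type} [DecidableEq α] {k : ℕ} [NeZero k]

omit [DecidableEq α] in
theorem meas (f : List α → ℕ) (m : ℕ) (hm : 0 < m)
    (h : ∀ r, HasHeight 1 ({w | f w % m = r} : Language α)) (g : ℕ → ℕ) (r : ℕ) :
    HasHeight 1 ({w | g (f w % m) = r} : Language α) := by
  refine (HasHeight.iUnion ((Finset.range m).filter (fun x => g x = r))
    (fun x => ({w | f w % m = x} : Language α)) (fun x _ => h x)).congr (fun w => ?_)
  change g (f w % m) = r ↔ ∃ x ∈ (Finset.range m).filter (fun x => g x = r), f w % m = x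
  constructor
  · intro hw
    exact ⟨f w % m, Finset.mem_filter.2 ⟨Finset.mem_range.2 (Nat.mod_lt _ hm), hw⟩, rfl⟩
  · rintro ⟨x, hx, hw⟩
    rw [hw]
    exact (Finset.mem_filter.1 hx).2

theorem itm_neg_height (hk : 2 ≤ k) (b a : α) (hab : a ≠ b) (m : ℕ) (hm : 0 < m) (s : ℕ)
    (hs : s < k) (r : ℕ) :
    HasHeight 1 ({w | itm b a (-(s : ZMod k)) w % m = r} : Language α) := by
  induction s generalizing r with
  | zero =>
    simp only [Nat.cast_zero, neg_zero]
    exact itm_zero_height hk b a hab m r hm
  | succ s ih =>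
    have h1 : HasHeight 1 (levQ (fun v => (if (-((s + 1 : ℕ) : ZMod k)) + 1 = 0 then 1 else 0) +
        itm b a ((-((s + 1 : ℕ) : ZMod k)) + 1) v) (fun x => x % m = r)) := by
      rw [neg_succ_add]
      refine (meas (itm b a (-(s : ZMod k))) m hm (fun r => ih (by omega) r)
        (fun x => ((if (-(s : ZMod k)) = 0 then 1 else 0) + x) % m) r).congr (fun w => ?_)
      rw [mem_levQ]
      change _ ↔ ((if (-(s : ZMod k)) = 0 then 1 else 0) + itm b a (-(s : ZMod k)) w % m) % m = r
      rw [Nat.add_mod_mod]
    have h2 : HasHeight 1 ({w | w ∈ avoid {b} ∧ 0 % m = r} : Language α) := by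
      by_cases hr : 0 % m = r
      · refine ((avoid_height {b}).mono zero_le_one).congr (fun w => ?_)
        change (w ∈ avoid {b} ∧ 0 % m = r) ↔ w ∈ avoid {b}
        exact and_iff_left hr
      · refine HasHeight.zero.congr (fun w => ?_)
        change (w ∈ avoid {b} ∧ 0 % m = r) ↔ w ∈ (0 : Language α)
        constructor
        · rintro ⟨_, h⟩; exact absurd h hr
        · intro h; exact absurd h (Language.notMem_zero w)
    refine (h2.add (((blk_height b).mono zero_le_one).mul h1)).congr (fun w => ?_)
    exact state_skip b a _ (neg_ne_zero' (by omega) hs) (fun x => x % m = r) w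

theorem itm_height (hk : 2 ≤ k) (b a : α) (hab : a ≠ b) (m : ℕ) (hm : 0 < m) (t : ZMod k)
    (r : ℕ) : HasHeight 1 ({w | itm b a t w % m = r} : Language α) := by
  have h := itm_neg_height hk b a hab m hm ((-t).val) (ZMod.val_lt _) r
  rw [ZMod.natCast_zmod_val, neg_neg] at h
  exact h

theorem lang_part (hk : 2 ≤ k) (a b : α) (hab : a ≠ b) (t : ZMod k) (m r : ℕ) (hm : 0 < m) :
    HasHeight 1 ({w | cnt b a t w % m = r} : Language α) := by
  have hk0 : 0 < k := by omega
  by_cases hr : r < m
  · refine (HasHeight.iUnion (((Finset.range m) ×ˢ (Finset.range (k * m))).filter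
      (fun p => (r + (t.val + p.2) / k) % m = p.1))
      (fun p => ({w | w ∈ ({w | itm b a t w % m = p.1} : Language α) ∧
        w ∈ ({w | w.count b % (k * m) = p.2} : Language α)} : Language α))
      (fun p _ => (itm_height hk b a hab m hm t p.1).inter
        (count_part b (k * m) p.2 (by positivity)))).congr (fun w => ?_)
    change cnt b a t w % m = r ↔ ∃ p ∈ ((Finset.range m) ×ˢ (Finset.range (k * m))).filter
      (fun p => (r + (t.val + p.2) / k) % m = p.1),
        itm b a t w % m = p.1 ∧ w.count b % (k * m) = p.2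
    have hB : ((t.val + w.count b) / k) % m = ((t.val + w.count b % (k * m)) / k) % m := by
      have e : t.val + w.count b = (t.val + w.count b % (k * m)) + k * (m * (w.count b / (k * m))) := by
        have := Nat.mod_add_div (w.count b) (k * m)
        nlinarith
      conv_lhs => rw [e]
      rw [Nat.add_mul_div_left _ _ hk0, Nat.add_mul_mod_self_left]
    have hI : itm b a t w % m = (cnt b a t w + (t.val + w.count b % (k * m)) / k) % m := by
      rw [itm_eq, Nat.add_mod, hB, ← Nat.add_mod]
    constructor
    · intro h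
      refine ⟨(itm b a t w % m, w.count b % (k * m)), ?_, rfl, rfl⟩
      rw [Finset.mem_filter, Finset.mem_product]
      refine ⟨⟨Finset.mem_range.2 (Nat.mod_lt _ hm), Finset.mem_range.2
        (Nat.mod_lt _ (by positivity))⟩, ?_⟩
      simp only
      rw [hI, ← h, Nat.mod_add_mod]
    · rintro ⟨p, hp, h1, h2⟩
      rw [Finset.mem_filter] at hp
      have h3 := hp.2
      rw [← h1, ← h2, hI] at h3
      have h4 : (r + (t.val + w.count b % (k * m)) / k) ≡
        (cnt b a t w + (t.val + w.count b % (k * m)) / k) [MOD m] := h3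
      have h5 : r ≡ cnt b a t w [MOD m] := Nat.ModEq.add_right_cancel' _ h4
      have h6 : r % m = cnt b a t w % m := h5
      rw [Nat.mod_eq_of_lt hr] at h6
      exact h6.symm
  · refine HasHeight.zero.congr (fun w => ?_)
    change cnt b a t w % m = r ↔ w ∈ (0 : Language α)
    constructor
    · intro h
      exact absurd (h ▸ Nat.mod_lt _ hm) hr
    · intro h
      exact absurd h (Language.notMem_zero w)

end Vale.Agent.P329
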