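import Vale.Agent.P329.Seg
import Vale.Agent.P329.Count3

namespace Vale.Agent.P329

variable {α : Type} [DecidableEq α] {k : ℕ}

theorem seg_flag (pi : α → ZMod k) (x : α) (τ : Bool → Bool → Bool) (b : Bool) (w : List α) :
    seg pi x τ (0, b) w = seg pi x τ (0, false) w := by
  cases w with
  | nil => rfl
  | cons y w =>
    have e : stp pi x (0, b) y = stp pi x (0, false) y := by simp [stp]
    have e2 : cut pi x τ (0, b) y = cut pi x τ (0, false) y := by simp [cut, e]
    simp only [seg, e, e2]

theorem seg_zero (pi : α → ZMod k) (x : α) (τ : Bool → Bool → Bool) (w : List α) :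
    ∀ s, seg pi x τ s w = 0 ↔ ∃ s2, run pi x τ s w = some s2 := by
  induction w with
  | nil => intro s; simp [seg, run]
  | cons y w ih =>
    intro s
    by_cases h : cut pi x τ s y = true
    · simp [seg, run, h]
    · simp only [seg, run, if_neg h, zero_add]
      exact ih _

/-- Words leading from `s` to the first cut. -/
def Xs (pi : α → ZMod k) (x : α) (τ : Bool → Bool → Bool) (s : ZMod k × Bool) : Language α :=
  {v | ∃ u s2 y, v = u ++ [y] ∧ run pi x τ s u = some s2 ∧ cut pi x τ s2 y = true}

theorem mem_Xs_mul (pi : α → ZMod k) (x : α) (τ : Bool → Bool → Bool) (s : ZMod k × Bool)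
    (L : Language α) (w : List α) : w ∈ Xs pi x τ s * L ↔
      ∃ u s2 y v, w = u ++ y :: v ∧ run pi x τ s u = some s2 ∧ cut pi x τ s2 y = true ∧ v ∈ L := by
  rw [Language.mem_mul]
  constructor
  · rintro ⟨a, ⟨u, s2, y, rfl, h1, h2⟩, v, hv, rfl⟩
    exact ⟨u, s2, y, v, by simp, h1, h2, hv⟩
  · rintro ⟨u, s2, y, v, rfl, h1, h2, hv⟩
    exact ⟨u ++ [y], ⟨u, s2, y, rfl, h1, h2⟩, v, hv, by simp⟩

theorem cut_stp (pi : α → ZMod k) (x : α) (τ : Bool → Bool → Bool) (s : ZMod k × Bool) (y : α)
    (h : cut pi x τ s y = true) : stp pi x s y = (0, (stp pi x s y).2) := by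
  unfold cut at h
  rw [Bool.and_eq_true] at h
  have h1 := of_decide_eq_true h.1
  ext
  · exact h1
  · rfl

theorem seg_succ (pi : α → ZMod k) (x : α) (τ : Bool → Bool → Bool) (j : ℕ) (w : List α) :
    ∀ s, seg pi x τ s w = j + 1 ↔ w ∈ Xs pi x τ s * lev (seg pi x τ (0, false)) j := by
  induction w with
  | nil =>
    intro s
    rw [mem_Xs_mul]
    simp [seg]
  | cons z w ih =>
    intro s
    rw [mem_Xs_mul]
    by_cases h : cut pi x τ s z = true
    · simp only [seg, if_pos h]
      rw [cut_stp pi x τ s z h, seg_flag]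
      constructor
      · intro h1
        exact ⟨[], s, z, w, rfl, rfl, h, by rw [mem_lev]; omega⟩
      · rintro ⟨u, s2, y, v, hw, h1, h2, hv⟩
        cases u with
        | nil =>
          rw [List.nil_append, List.cons.injEq] at hw
          obtain ⟨rfl, rfl⟩ := hw
          rw [mem_lev] at hv
          omega
        | cons a u =>
          rw [List.cons_append, List.cons.injEq] at hw
          obtain ⟨rfl, rfl⟩ := hw
          simp [run, h] at h1
    · simp only [seg, if_neg h, zero_add]
      rw [ih, mem_Xs_mul]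
      constructor
      · rintro ⟨u, s2, y, v, rfl, h1, h2, hv⟩
        refine ⟨z :: u, s2, y, v, rfl, ?_, h2, hv⟩
        simp only [run, if_neg h]
        exact h1
      · rintro ⟨u, s2, y, v, hw, h1, h2, hv⟩
        cases u with
        | nil =>
          rw [List.nil_append, List.cons.injEq] at hw
          obtain ⟨rfl, rfl⟩ := hw
          simp only [run, Option.some.injEq] at h1
          subst h1
          exact absurd h2 h
        | cons a u =>
          rw [List.cons_append, List.cons.injEq] at hw
          obtain ⟨rfl, rfl⟩ := hw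
          simp only [run, if_neg h] at h1
          exact ⟨u, s2, y, v, rfl, h1, h2, hv⟩

/-- The language of runs from `s` to `s2` without cut. -/
def runL (pi : α → ZMod k) (x : α) (τ : Bool → Bool → Bool) (s s2 : ZMod k × Bool) :
    Language α := {w | run pi x τ s w = some s2}

theorem Xs_height [NeZero k] [Fintype α] (pi : α → ZMod k) (x : α) (τ : Bool → Bool → Bool)
    (hA : ∀ s s2, HasHeight 0 ({w | run pi x τ s w = some s2} : Language α))
    (s : ZMod k × Bool) : HasHeight 0 (Xs pi x τ s) := by
  classical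
  refine (HasHeight.iUnion ((Finset.univ : Finset ((ZMod k × Bool) × α)).filter
    (fun i => cut pi x τ i.1 i.2 = true))
    (fun i => runL pi x τ s i.1 * {[i.2]})
    (fun i _ => (hA s i.1).mul (HasHeight.char i.2))).congr (fun w => ?_)
  change (∃ u s2 y, w = u ++ [y] ∧ run pi x τ s u = some s2 ∧ cut pi x τ s2 y = true) ↔
    ∃ i ∈ (Finset.univ : Finset ((ZMod k × Bool) × α)).filter
      (fun i => cut pi x τ i.1 i.2 = true),
      w ∈ runL pi x τ s i.1 * {[i.2]}
  constructor
  · rintro ⟨u, s2, y, rfl, h1, h2⟩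
    refine ⟨(s2, y), Finset.mem_filter.2 ⟨Finset.mem_univ _, h2⟩, ?_⟩
    rw [Language.mem_mul]
    exact ⟨u, h1, [y], rfl, rfl⟩
  · rintro ⟨i, hi, h⟩
    rw [Language.mem_mul] at h
    obtain ⟨u, hu, v, hv, rfl⟩ := h
    have hv' : v = [i.2] := hv
    subst hv'
    exact ⟨u, i.1, i.2, rfl, hu, (Finset.mem_filter.1 hi).2⟩

theorem T_height [NeZero k] (pi : α → ZMod k) (x : α) (τ : Bool → Bool → Bool)
    (hA : ∀ s s2, HasHeight 0 ({w | run pi x τ s w = some s2} : Language α))
    (s : ZMod k × Bool) : HasHeight 0 (lev (seg pi x τ s) 0) := by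
  refine (HasHeight.iUnion (Finset.univ : Finset (ZMod k × Bool))
    (fun i => ({w | run pi x τ s w = some i} : Language α)) (fun i _ => hA s i)).congr
    (fun w => ?_)
  rw [mem_lev, seg_zero]
  change _ ↔ ∃ i ∈ (Finset.univ : Finset (ZMod k × Bool)), run pi x τ s w = some i
  simp

theorem seg_height [NeZero k] [Fintype α] (pi : α → ZMod k) (x : α) (τ : Bool → Bool → Bool)
    (hA : ∀ s s2, HasHeight 0 ({w | run pi x τ s w = some s2} : Language α))
    (s : ZMod k × Bool) (m r : ℕ) (hm : 0 < m) :
    HasHeight 1 ({w | seg pi x τ s w % m = r} : Language α) := by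
  have h0 : ∀ r, HasHeight 1 ({w | seg pi x τ (0, false) w % m = r} : Language α) := by
    intro r
    exact general (Xs pi x τ (0, false)) (lev (seg pi x τ (0, false)) 0)
      (Xs_height pi x τ hA _) (T_height pi x τ hA _) (seg pi x τ (0, false))
      (fun w => (mem_lev _ _ _).symm) (fun j w => seg_succ pi x τ j w _) m r hm
  have h1 : HasHeight 1 (levQ (seg pi x τ (0, false)) (fun z => (1 + z) % m = r)) := by
    refine (meas (seg pi x τ (0, false)) m hm h0 (fun z => (1 + z) % m) r).congr (fun w => ?_)
    rw [mem_levQ]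
    change _ ↔ (1 + seg pi x τ (0, false) w % m) % m = r
    rw [Nat.add_mod_mod]
  have h2 : HasHeight 1 ({w | w ∈ lev (seg pi x τ s) 0 ∧ 0 % m = r} : Language α) := by
    by_cases hr : 0 % m = r
    · refine ((T_height pi x τ hA s).mono zero_le_one).congr (fun w => ?_)
      change (w ∈ lev (seg pi x τ s) 0 ∧ 0 % m = r) ↔ w ∈ lev (seg pi x τ s) 0
      exact and_iff_left hr
    · refine HasHeight.zero.congr (fun w => ?_)
      change (w ∈ lev (seg pi x τ s) 0 ∧ 0 % m = r) ↔ w ∈ (0 : Language α)
      constructor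
      · rintro ⟨_, h⟩; exact absurd h hr
      · intro h; exact absurd h (Language.notMem_zero w)
  refine (h2.add (((Xs_height pi x τ hA s).mono zero_le_one).mul h1)).congr (fun w => ?_)
  change seg pi x τ s w % m = r ↔ ((w ∈ lev (seg pi x τ s) 0 ∧ 0 % m = r) ∨
    w ∈ Xs pi x τ s * levQ (seg pi x τ (0, false)) (fun z => (1 + z) % m = r))
  rcases hj : seg pi x τ s w with _ | j
  · constructor
    · intro h
      left
      exact ⟨hj, h⟩
    · rintro (h | h)
      · exact h.2
      · exfalso
        rw [mem_Xs_mul] at h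
        obtain ⟨u, s2, y, v, hw, e1, e2, _⟩ := h
        have : w ∈ Xs pi x τ s * lev (seg pi x τ (0, false)) (seg pi x τ (0, false) v) := by
          rw [mem_Xs_mul]
          exact ⟨u, s2, y, v, hw, e1, e2, rfl⟩
        rw [← seg_succ] at this
        omega
  · constructor
    · intro h
      right
      have h3 := (seg_succ pi x τ j w s).1 hj
      rw [mem_Xs_mul] at h3 ⊢
      obtain ⟨u, s2, y, v, hw, e1, e2, hv⟩ := h3
      refine ⟨u, s2, y, v, hw, e1, e2, ?_⟩
      rw [mem_lev] at hv
      rw [mem_levQ, hv, add_comm]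
      exact h
    · rintro (h | h)
      · exfalso
        have h3 : seg pi x τ s w = 0 := h.1
        omega
      · rw [mem_Xs_mul] at h
        obtain ⟨u, s2, y, v, hw, e1, e2, hv⟩ := h
        have h4 : w ∈ Xs pi x τ s * lev (seg pi x τ (0, false)) (seg pi x τ (0, false) v) := by
          rw [mem_Xs_mul]
          exact ⟨u, s2, y, v, hw, e1, e2, rfl⟩
        rw [← seg_succ] at h4
        rw [mem_levQ] at hv
        rw [← hj, h4, add_comm]
        exact hv

end Vale.Agent.P329
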