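import Vale.Agent.P329.PhiLang
import Vale.Agent.P329.SegH
import Vale.Agent.P329.Ident
import Vale.Agent.P329.DeadH

namespace Vale.Agent.P329

theorem inv_height {α ι : Type} [Finite ι] (F : ι → List α → ℕ) (B : ℕ)
    (hB : ∀ i w, F i w < B) (hF : ∀ i r, HasHeight 1 ({w | F i w = r} : Language α))
    (L : Language α) (hL : ∀ w w2, (∀ i, F i w = F i w2) → w ∈ L → w2 ∈ L) :
    HasHeight 1 L := by
  classical
  have : Fintype ι := Fintype.ofFinite ι
  have h1 : ∀ v : ι → Fin B, HasHeight 1 ({w | ∀ i ∈ (Finset.univ : Finset ι),
      w ∈ ({w | F i w = (v i : ℕ)} : Language α)} : Language α) := fun v =>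
    HasHeight.iInter _ _ (fun i _ => hF i _)
  have hU := HasHeight.iUnion (n := 1)
    (Finset.univ.filter (fun v : ι → Fin B => ∃ w0, w0 ∈ L ∧ ∀ i, F i w0 = (v i : ℕ))) _
    (fun v _ => h1 v)
  refine hU.congr (fun w => ?_)
  change w ∈ L ↔ ∃ v ∈ Finset.univ.filter
    (fun v : ι → Fin B => ∃ w0, w0 ∈ L ∧ ∀ i, F i w0 = (v i : ℕ)),
      ∀ i ∈ (Finset.univ : Finset ι), F i w = (v i : ℕ)
  constructor
  · intro h
    exact ⟨fun i => ⟨F i w, hB i w⟩, Finset.mem_filter.mpr ⟨Finset.mem_univ _, w, h, fun i => rfl⟩,
      fun i _ => rfl⟩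
  · rintro ⟨v, hv, h⟩
    obtain ⟨_, w0, hw0, h0⟩ := Finset.mem_filter.mp hv
    exact hL w0 w (fun i => (h0 i).trans (h i (Finset.mem_univ i)).symm) hw0

theorem Phi_eq_Ph {k : ℕ} (s : ZMod k × Bool) : Phi s = Ph s := rfl

theorem Ph_lt {k : ℕ} (s : ZMod k × Bool) : Ph s < 2 := by
  unfold Ph
  split_ifs <;> omega

theorem main4_aux {G α : Type} [Group G] [Finite G] [Fintype α] [DecidableEq α]
    (N : Subgroup G) [N.Normal]
    (hN : ∀ x ∈ N, ∀ y ∈ N, x * y = y * x) (p : ℕ) [Fact p.Prime] (h : G) (pi : α → ZMod p)
    (hk : h ^ p ∈ N) (φ : α → G) (hφ : ∀ a, φ a * (h ^ (pi a).val)⁻¹ ∈ N) (S : Set G) :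
    HasHeight 1 ({w | (w.map φ).prod ∈ S} : Language α) := by
  have hp : 0 < p := (Fact.out : p.Prime).pos
  obtain ⟨M, hM⟩ : ∃ M, M = Nat.card G := ⟨_, rfl⟩
  have hM0 : 0 < M := by rw [hM]; exact Nat.card_pos
  have hMp : 0 < M * p := Nat.mul_pos hM0 hp
  let F : (α × ZMod p × Fin 4) ⊕ Unit → List α → ℕ := fun i w =>
    match i with
    | Sum.inl (x, q, j) =>
      if pi x = 0 then
        (if j = 0 then seg pi x (fun _ _ => true) (q, false) w % M
          else if j = 1 then seg pi x (fun b _ => !b) (q, false) w % M else 0)
      else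
        (if j = 0 then seg pi x (fun b l => !(b && !l)) (q, false) w % (M * p)
          else if j = 1 then seg pi x (fun b l => !(!b && l)) (q, false) w % (M * p)
          else if j = 2 then Ph (w.foldl (stp pi x) (q, false))
          else w.count x % (M * p))
    | Sum.inr _ => ((w.map pi).sum).val
  have hMle : M ≤ M * p := Nat.le_mul_of_pos_right M hp
  have hple : p ≤ M * p := Nat.le_mul_of_pos_left p hM0
  refine inv_height F (M * p + 2) ?_ ?_ _ ?_
  · rintro (⟨x, q, j⟩ | u) w
    · simp only [F]
      have a1 := Nat.mod_lt (seg pi x (fun _ _ => true) (q, false) w) hM0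
      have a2 := Nat.mod_lt (seg pi x (fun b _ => !b) (q, false) w) hM0
      have a3 := Nat.mod_lt (seg pi x (fun b l => !(b && !l)) (q, false) w) hMp
      have a4 := Nat.mod_lt (seg pi x (fun b l => !(!b && l)) (q, false) w) hMp
      have a5 := Ph_lt (w.foldl (stp pi x) (q, false))
      have a6 := Nat.mod_lt (w.count x) hMp
      split_ifs <;> omega
    · simp only [F]
      have := ZMod.val_lt (w.map pi).sum
      omega
  · rintro (⟨x, q, j⟩ | u) r
    · simp only [F]
      by_cases hx : pi x = 0
      · simp only [if_pos hx]
        by_cases h0 : j = 0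
        · simp only [if_pos h0]
          exact seg_height pi x _ (run_height_all) (q, false) M r hM0
        · simp only [if_neg h0]
          by_cases h1 : j = 1
          · simp only [if_pos h1]
            exact seg_height pi x _ (run_height_nu hx) (q, false) M r hM0
          · simp only [if_neg h1]
            exact const_height (0 = r)
      · simp only [if_neg hx]
        by_cases h0 : j = 0
        · simp only [if_pos h0]
          exact seg_height pi x _ (run_height_alpha) (q, false) (M * p) r hMp
        · simp only [if_neg h0]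
          by_cases h1 : j = 1
          · simp only [if_pos h1]
            exact seg_height pi x _ (run_height_beta) (q, false) (M * p) r hMp
          · simp only [if_neg h1]
            by_cases h2 : j = 2
            · simp only [if_pos h2]
              exact Ph_height pi x hx (run_height_all) q r
            · simp only [if_neg h2]
              exact count_part x (M * p) r hMp
    · simp only [F]
      by_cases hr : ∃ c : ZMod p, c.val = r
      · obtain ⟨c, rfl⟩ := hr
        refine (sum_heightP pi c).congr (fun w => ?_)
        change ((w.map pi).sum).val = c.val ↔ (w.map pi).sum = c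
        exact ⟨fun h => ZMod.val_injective p h, fun h => by rw [h]⟩
      · refine (HasHeight.zero (α := α)).congr (fun w => ?_)
        change ((w.map pi).sum).val = r ↔ w ∈ (0 : Language α)
        exact ⟨fun h => absurd ⟨_, h⟩ hr, fun h => absurd h (Language.notMem_zero w)⟩
  · intro w w2 hw hwS
    have e1 : (w.map pi).sum = (w2.map pi).sum := ZMod.val_injective p (hw (Sum.inr ()))
    have e2 : ∀ x : α, ∀ q : ZMod p, cnts pi x 0 q w % M = cnts pi x 0 q w2 % M := by
      intro x q
      by_cases hx : pi x = 0
      · apply det_zero pi x hx M w w2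
        · intro q
          have := hw (Sum.inl (x, q, 0))
          simpa only [F, if_pos hx, if_true] using this
        · intro q
          have := hw (Sum.inl (x, q, 1))
          simpa only [F, if_pos hx, if_neg (show ¬ (1 : Fin 4) = 0 by decide), if_true] using this
      · apply det_ne pi x hx M w w2
        · intro q
          have := hw (Sum.inl (x, q, 0))
          simpa only [F, if_neg hx, if_true] using this
        · intro q
          have := hw (Sum.inl (x, q, 1))
          simpa only [F, if_neg hx, if_neg (show ¬ (1 : Fin 4) = 0 by decide), if_true] using this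
        · intro q
          have h2 := hw (Sum.inl (x, q, 2))
          have h3 : Ph (w.foldl (stp pi x) (q, false)) = Ph (w2.foldl (stp pi x) (q, false)) := by
            simpa only [F, if_neg hx, if_neg (show ¬ (2 : Fin 4) = 0 by decide),
              if_neg (show ¬ (2 : Fin 4) = 1 by decide), if_true] using h2
          exact h3
        · have := hw (Sum.inl (x, 0, 3))
          simpa only [F, if_neg hx, if_neg (show ¬ (3 : Fin 4) = 0 by decide),
            if_neg (show ¬ (3 : Fin 4) = 1 by decide),
            if_neg (show ¬ (3 : Fin 4) = 2 by decide)] using this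
    have e3 : (w.map φ).prod = (w2.map φ).prod := by
      apply group_all N hN φ p h pi hk hφ w w2 e1
      intro a s
      rw [cnts_shift pi a s w 0, cnts_shift pi a s w2 0, ← hM]
      exact e2 a _
    change (w2.map φ).prod ∈ S
    rw [← e3]
    exact hwS

end Vale.Agent.P329
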