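import Vale.Agent.P329.Group
import Vale.Agent.P329.Count3

/-! # P329: languages recognized by a finite group with all letters but one in an abelian normal
subgroup -/

namespace Vale.Agent.P329

theorem const_height {α : Type} (p : Prop) : HasHeight 1 ({_w | p} : Language α) := by
  by_cases h : p
  · refine (HasHeight.univ (n := 1) (α := α)).congr (fun w => ?_)
    change p ↔ True
    simp [h]
  · refine (HasHeight.zero (n := 1) (α := α)).congr (fun w => ?_)
    change p ↔ w ∈ (0 : Language α)
    simp [h, Language.notMem_zero]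

theorem main {G α : Type} [Group G] [Finite G] [Finite α] (N : Subgroup G) [N.Normal]
    (hN : ∀ x ∈ N, ∀ y ∈ N, x * y = y * x) (φ : α → G) (b : α)
    (hφ : ∀ a, a ≠ b → φ a ∈ N) (S : Set G) :
    HasHeight 1 ({w | (w.map φ).prod ∈ S} : Language α) := by
  classical
  haveI : Fintype α := Fintype.ofFinite α
  have ho : 0 < orderOf (φ b) := orderOf_pos _
  obtain ⟨k, hkdef⟩ : ∃ k, k = 2 * orderOf (φ b) := ⟨_, rfl⟩
  have hk2 : 2 ≤ k := by omega
  have hk0 : 0 < k := by omega
  haveI : NeZero k := ⟨by omega⟩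
  have hk : φ b ^ k = 1 := by rw [hkdef, mul_comm, pow_mul, pow_orderOf_eq_one, one_pow]
  obtain ⟨m, hmdef⟩ : ∃ m, m = Nat.card G := ⟨_, rfl⟩
  have hm : 0 < m := by rw [hmdef]; exact Nat.card_pos
  let f : α → ZMod k → List α → ℕ := fun a t w => if a = b then 0 else cnt b a t w % m
  have hf : ∀ a t w, f a t w < m := by
    intro a t w
    by_cases ha : a = b
    · simp only [f, if_pos ha]; exact hm
    · simp only [f, if_neg ha]; exact Nat.mod_lt _ hm
  let sig : List α → Fin k × (α → ZMod k → Fin m) := fun w =>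
    (⟨w.count b % k, Nat.mod_lt _ hk0⟩, fun a t => ⟨f a t w, hf a t w⟩)
  have hpiece : ∀ i : Fin k × (α → ZMod k → Fin m),
      HasHeight 1 ({w | sig w = i} : Language α) := by
    intro i
    have h1 : HasHeight 1 ({w | ∀ q ∈ (Finset.univ : Finset (α × ZMod k)),
        w ∈ ({w | f q.1 q.2 w = (i.2 q.1 q.2 : ℕ)} : Language α)} : Language α) := by
      apply HasHeight.iInter
      rintro ⟨a, t⟩ _
      by_cases ha : a = b
      · refine (const_height (α := α) (0 = (i.2 a t : ℕ))).congr (fun w => ?_)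
        change f a t w = (i.2 a t : ℕ) ↔ 0 = (i.2 a t : ℕ)
        simp only [f, if_pos ha]
      · refine (lang_part hk2 a b ha t m (i.2 a t : ℕ) hm).congr (fun w => ?_)
        change f a t w = (i.2 a t : ℕ) ↔ cnt b a t w % m = (i.2 a t : ℕ)
        simp only [f, if_neg ha]
    refine ((count_part b k (i.1 : ℕ) hk0).inter h1).congr (fun w => ?_)
    change sig w = i ↔ (w.count b % k = (i.1 : ℕ) ∧
      ∀ q ∈ (Finset.univ : Finset (α × ZMod k)), f q.1 q.2 w = (i.2 q.1 q.2 : ℕ))
    constructor
    · rintro rfl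
      exact ⟨rfl, fun q _ => rfl⟩
    · rintro ⟨e1, e2⟩
      apply Prod.ext
      · exact Fin.ext e1
      · funext a t
        exact Fin.ext (e2 (a, t) (Finset.mem_univ _))
  have hU := HasHeight.iUnion (n := 1)
    (Finset.univ.filter (fun i => ∃ w, sig w = i ∧ (w.map φ).prod ∈ S))
    (fun i => ({w | sig w = i} : Language α)) (fun i _ => hpiece i)
  refine hU.congr (fun w => ?_)
  change (w.map φ).prod ∈ S ↔ ∃ i ∈ Finset.univ.filter
    (fun i => ∃ w, sig w = i ∧ (w.map φ).prod ∈ S), sig w = i
  constructor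
  · intro h
    exact ⟨sig w, Finset.mem_filter.mpr ⟨Finset.mem_univ _, w, rfl, h⟩, rfl⟩
  · rintro ⟨i, hi, hw⟩
    obtain ⟨_, w0, hw0, hS⟩ := Finset.mem_filter.mp hi
    have hs : sig w = sig w0 := hw.trans hw0.symm
    have e1 : w.count b % k = w0.count b % k := congrArg (fun i => (i.1 : ℕ)) hs
    have e2 : ∀ a t, f a t w = f a t w0 := fun a t => congrArg (fun i => (i.2 a t : ℕ)) hs
    have e3 : (w.map φ).prod = (w0.map φ).prod := by
      apply group_part N hN φ b hφ k hk w w0 e1
      intro a ha t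
      have := e2 a t
      simp only [f, if_neg ha] at this
      rw [← hmdef]
      exact this
    rw [e3]
    exact hS

end Vale.Agent.P329
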