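import Vale.Agent.P329.Seg
import Vale.Agent.P329.Final

/-! # P329: the state languages have height at most one -/

namespace Vale.Agent.P329.StH

open Vale.Agent.P329

theorem sum_height {α : Type} [Finite α] {k : ℕ} [NeZero k] (pi : α → ZMod k) (c : ZMod k) :
    HasHeight 1 ({w | (w.map pi).sum = c} : Language α) := by
  rcases isEmpty_or_nonempty α with h | ⟨⟨b⟩⟩
  · refine (const_height (α := α) (0 = c)).congr (fun w => ?_)
    have hw : w = [] := by
      cases w with
      | nil => rfl
      | cons a w => exact (h.false a).elim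
    subst hw
    change (([] : List α).map pi).sum = c ↔ 0 = c
    simp
  · haveI : Fintype (Multiplicative (ZMod k)) := inferInstanceAs (Fintype (ZMod k))
    have h1 := main (G := Multiplicative (ZMod k)) (α := α) ⊤ (fun x _ y _ => mul_comm x y)
      (fun a => Multiplicative.ofAdd (pi a)) b (fun a _ => Subgroup.mem_top _)
      {Multiplicative.ofAdd c}
    refine h1.congr (fun w => ?_)
    change (w.map pi).sum = c ↔ (w.map (fun a => Multiplicative.ofAdd (pi a))).prod =
      Multiplicative.ofAdd c
    have h2 : (w.map (fun a => Multiplicative.ofAdd (pi a))).prod =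
        Multiplicative.ofAdd (w.map pi).sum := by
      induction w with
      | nil => rfl
      | cons a w ih => rw [List.map_cons, List.prod_cons, ih, List.map_cons, List.sum_cons]; rfl
    rw [h2]
    exact Multiplicative.ofAdd.injective.eq_iff.symm

variable {α : Type} [DecidableEq α] {k : ℕ}

theorem foldl_fst (pi : α → ZMod k) (x : α) (w : List α) : ∀ s : ZMod k × Bool,
    (w.foldl (stp pi x) s).1 = s.1 + (w.map pi).sum := by
  induction w with
  | nil => intro s; simp
  | cons a w ih =>
    intro s
    rw [List.foldl_cons, ih, List.map_cons, List.sum_cons]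
    simp only [stp]
    ring

theorem stp_flag (pi : α → ZMod k) (x y : α) (f : Bool) :
    stp pi x (0, f) y = stp pi x (0, false) y := by
  simp [stp]

theorem cut_true (pi : α → ZMod k) (x y : α) (s : ZMod k × Bool) :
    cut pi x (fun _ _ => true) s y = true ↔ s.1 + pi y = 0 := by
  simp [cut]

theorem foldl_flag (pi : α → ZMod k) (x : α) (s1 s2 : ZMod k × Bool) (h1 : s1.1 = 0)
    (h2 : s2.1 ≠ 0) (w : List α) :
    w.foldl (stp pi x) s1 = s2 ↔ w.foldl (stp pi x) (0, false) = s2 := by
  obtain ⟨q, f⟩ := s1
  simp only at h1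
  subst h1
  cases w with
  | nil =>
    simp only [List.foldl_nil]
    constructor <;> (intro h; rw [← h] at h2; exact absurd rfl h2)
  | cons y w => rw [List.foldl_cons, List.foldl_cons, stp_flag]

theorem run_flag (pi : α → ZMod k) (x : α) (s1 s2 : ZMod k × Bool) (h1 : s1.1 = 0)
    (h2 : s2.1 ≠ 0) (w : List α) (h : run pi x (fun _ _ => true) s1 w = some s2) :
    run pi x (fun _ _ => true) (0, false) w = some s2 := by
  obtain ⟨q, f⟩ := s1
  simp only at h1
  subst h1
  cases w with
  | nil =>
    simp only [run, Option.some.injEq] at h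
    rw [← h] at h2
    exact absurd rfl h2
  | cons y w =>
    have e : cut pi x (fun _ _ => true) (0, f) y = cut pi x (fun _ _ => true) (0, false) y := by
      simp [cut]
    simp only [run] at h ⊢
    rw [e, stp_flag] at h
    exact h

theorem run_foldl (pi : α → ZMod k) (x : α) (τ : Bool → Bool → Bool) (w : List α) :
    ∀ s s2 : ZMod k × Bool, run pi x τ s w = some s2 → w.foldl (stp pi x) s = s2 := by
  induction w with
  | nil =>
    intro s s2 h
    simpa [run] using h
  | cons y w ih =>
    intro s s2 h
    simp only [run] at h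
    split_ifs at h
    exact ih _ _ h

theorem claim_one (pi : α → ZMod k) (x : α) (s2 : ZMod k × Bool) (h2 : s2.1 ≠ 0) (w : List α) :
    ∀ s : ZMod k × Bool, w.foldl (stp pi x) s = s2 ↔
      (run pi x (fun _ _ => true) s w = some s2 ∨
        ∃ u v, u ++ v = w ∧ s.1 + (u.map pi).sum = 0 ∧
          run pi x (fun _ _ => true) (0, false) v = some s2) := by
  induction w with
  | nil =>
    intro s
    constructor
    · intro h
      left
      simpa [run] using h
    · rintro (h | ⟨u, v, huv, _, h⟩)
      · simpa [run] using h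
      · obtain ⟨rfl, rfl⟩ := List.append_eq_nil_iff.1 huv
        simp only [run, Option.some.injEq] at h
        rw [← h] at h2
        exact absurd rfl h2
  | cons y w ih =>
    intro s
    rw [List.foldl_cons]
    constructor
    · intro h
      rcases (ih _).1 h with h | ⟨u, v, rfl, hu, hv⟩
      · by_cases hc : s.1 + pi y = 0
        · right
          exact ⟨[y], w, rfl, by simpa using hc, run_flag pi x (stp pi x s y) s2 hc h2 w h⟩
        · left
          simp only [run]
          rw [if_neg (by rw [cut_true]; exact hc)]
          exact h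
      · right
        refine ⟨y :: u, v, rfl, ?_, hv⟩
        rw [List.map_cons, List.sum_cons, ← add_assoc]
        exact hu
    · rintro (h | ⟨u, v, huv, hu, hv⟩)
      · exact run_foldl pi x _ (y :: w) s s2 h
      · rw [← List.foldl_cons, ← huv, List.foldl_append]
        rw [foldl_flag pi x _ s2 (by rw [foldl_fst]; exact hu) h2]
        exact run_foldl pi x _ v _ _ hv

/-- Words leading from `s` to `s2`. -/
def stL (pi : α → ZMod k) (x : α) (s s2 : ZMod k × Bool) : Language α :=
  {w | w.foldl (stp pi x) s = s2}

/-- Words with a given sum. -/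
def sumL (pi : α → ZMod k) (c : ZMod k) : Language α := {w | c + (w.map pi).sum = 0}

/-- Words leading from `s` to `s2` without a visit of `0`. -/
def runL (pi : α → ZMod k) (x : α) (s s2 : ZMod k × Bool) : Language α :=
  {w | run pi x (fun _ _ => true) s w = some s2}

theorem sumL_height [Finite α] [NeZero k] (pi : α → ZMod k) (c : ZMod k) :
    HasHeight 1 (sumL pi c) := by
  refine (sum_height pi (-c)).congr (fun w => ?_)
  change c + (w.map pi).sum = 0 ↔ (w.map pi).sum = -c
  constructor
  · intro h; linear_combination h
  · intro h; linear_combination h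

theorem state_height_ne [Finite α] [NeZero k] (pi : α → ZMod k) (x : α)
    (hA : ∀ s s2, HasHeight 0 (runL pi x s s2))
    (s s2 : ZMod k × Bool) (h2 : s2.1 ≠ 0) : HasHeight 1 (stL pi x s s2) := by
  have h1 := ((hA s s2).mono (Nat.zero_le 1)).add
    ((sumL_height pi s.1).mul ((hA (0, false) s2).mono (Nat.zero_le 1)))
  refine h1.congr (fun w => ?_)
  change w.foldl (stp pi x) s = s2 ↔ (run pi x (fun _ _ => true) s w = some s2 ∨
    w ∈ sumL pi s.1 * runL pi x (0, false) s2)
  rw [claim_one pi x s2 h2 w s, Language.mem_mul]
  refine or_congr Iff.rfl ?_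
  constructor
  · rintro ⟨u, v, huv, hu, hv⟩
    exact ⟨u, hu, v, hv, huv⟩
  · rintro ⟨u, hu, v, hv, huv⟩
    exact ⟨u, v, huv, hu, hv⟩

theorem state_height [Finite α] [NeZero k] (pi : α → ZMod k) (x : α)
    (hA : ∀ s s2, HasHeight 0 ({w | run pi x (fun _ _ => true) s w = some s2} : Language α))
    (s s2 : ZMod k × Bool) :
    HasHeight 1 ({w | w.foldl (stp pi x) s = s2} : Language α) := by
  classical
  haveI : Fintype α := Fintype.ofFinite α
  by_cases h2 : s2.1 ≠ 0
  · exact state_height_ne pi x hA s s2 h2
  have hA1 : HasHeight 1 ({w | w = [] ∧ s = s2} : Language α) := by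
    by_cases h : s = s2
    · refine (HasHeight.one (n := 1) (α := α)).congr (fun w => ?_)
      change (w = [] ∧ s = s2) ↔ w ∈ (1 : Language α)
      rw [Language.mem_one]
      simp [h]
    · refine (HasHeight.zero (n := 1) (α := α)).congr (fun w => ?_)
      change (w = [] ∧ s = s2) ↔ w ∈ (0 : Language α)
      simp [h, Language.notMem_zero]
  have hB : HasHeight 1 ({w | ∃ i ∈ (Finset.univ.filter
      (fun i : (ZMod k × Bool) × α => i.1.1 ≠ 0 ∧ stp pi x i.1 i.2 = s2)),
      w ∈ stL pi x s i.1 * ({[i.2]} : Language α)} : Language α) := by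
    apply HasHeight.iUnion
    intro i hi
    rw [Finset.mem_filter] at hi
    exact (state_height_ne pi x hA s i.1 hi.2.1).mul (HasHeight.char i.2)
  have hC : HasHeight 1 ({w | ∃ y ∈ (Finset.univ.filter
      (fun y : α => stp pi x (0, false) y = s2)),
      w ∈ sumL pi s.1 * ({[y]} : Language α)} : Language α) := by
    apply HasHeight.iUnion
    intro i _
    exact (sumL_height pi s.1).mul (HasHeight.char i)
  refine (hA1.add (hB.add hC)).congr (fun w => ?_)
  change w.foldl (stp pi x) s = s2 ↔ ((w = [] ∧ s = s2) ∨
    ((∃ i ∈ (Finset.univ.filter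
      (fun i : (ZMod k × Bool) × α => i.1.1 ≠ 0 ∧ stp pi x i.1 i.2 = s2)),
      w ∈ stL pi x s i.1 * ({[i.2]} : Language α)) ∨
    (∃ y ∈ (Finset.univ.filter (fun y : α => stp pi x (0, false) y = s2)),
      w ∈ sumL pi s.1 * ({[y]} : Language α))))
  constructor
  · intro h
    rcases List.eq_nil_or_concat w with rfl | ⟨u, y, rfl⟩
    · left
      exact ⟨rfl, h⟩
    · right
      rw [List.concat_eq_append, List.foldl_append, List.foldl_cons, List.foldl_nil] at h
      rw [List.concat_eq_append]
      by_cases h0 : (u.foldl (stp pi x) s).1 = 0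
      · right
        refine ⟨y, ?_, ?_⟩
        · rw [Finset.mem_filter]
          refine ⟨Finset.mem_univ _, ?_⟩
          rw [← h]
          rcases hq : u.foldl (stp pi x) s with ⟨q, f⟩
          rw [hq] at h0
          simp only at h0
          subst h0
          rw [stp_flag pi x y f]
        · rw [Language.mem_mul]
          refine ⟨u, ?_, [y], rfl, rfl⟩
          change s.1 + (u.map pi).sum = 0
          rw [← foldl_fst pi x]
          exact h0
      · left
        refine ⟨(u.foldl (stp pi x) s, y), ?_, ?_⟩
        · rw [Finset.mem_filter]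
          exact ⟨Finset.mem_univ _, h0, h⟩
        · rw [Language.mem_mul]
          exact ⟨u, rfl, [y], rfl, rfl⟩
  · rintro (⟨rfl, h⟩ | ⟨i, hi, h⟩ | ⟨y, hy, h⟩)
    · exact h
    · rw [Finset.mem_filter] at hi
      rw [Language.mem_mul] at h
      obtain ⟨u, hu, v, hv, rfl⟩ := h
      have hv' : v = [i.2] := hv
      have hu' : u.foldl (stp pi x) s = i.1 := hu
      subst hv'
      rw [List.foldl_append, hu', List.foldl_cons, List.foldl_nil]
      exact hi.2.2
    · rw [Finset.mem_filter] at hy
      rw [Language.mem_mul] at h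
      obtain ⟨u, hu, v, hv, rfl⟩ := h
      have hv' : v = [y] := hv
      have hu' : s.1 + (u.map pi).sum = 0 := hu
      subst hv'
      rw [List.foldl_append, List.foldl_cons, List.foldl_nil]
      rw [← foldl_fst pi x] at hu'
      rw [← hy.2]
      rcases hq : u.foldl (stp pi x) s with ⟨q, f⟩
      rw [hq] at hu'
      simp only at hu'
      subst hu'
      rw [stp_flag]

end Vale.Agent.P329.StH
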