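import Vale.Agent.P329.Ident
import Vale.Agent.P329.SegH
import Vale.Agent.P329.DeadH
import Vale.Agent.P329.StateH1

/-!
# P329: languages recognized by a finite group with an abelian normal subgroup of prime index
-/

namespace Vale.Agent.P329

open StH

theorem good_det {α ι : Type} [Finite ι] (f : ι → List α → ℕ) (B : ℕ)
    (hB : ∀ i w, f i w < B) (hf : ∀ i r, HasHeight 1 ({w | f i w = r} : Language α))
    (P : List α → Prop) (hP : ∀ w w2, (∀ i, f i w = f i w2) → P w → P w2) :
    HasHeight 1 ({w | P w} : Language α) := by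
  classical
  have := Fintype.ofFinite ι
  have hU := HasHeight.iUnion (n := 1) (α := α)
    (Finset.univ.filter (fun g : ι → Fin B => ∃ w, (∀ i, f i w = (g i : ℕ)) ∧ P w))
    (fun g => ({w | ∀ i ∈ (Finset.univ : Finset ι),
      w ∈ ({w | f i w = (g i : ℕ)} : Language α)} : Language α))
    (fun g _ => HasHeight.iInter _ _ (fun i _ => hf i (g i : ℕ)))
  refine hU.congr (fun w => ?_)
  change P w ↔ ∃ g ∈ Finset.univ.filter
    (fun g : ι → Fin B => ∃ w, (∀ i, f i w = (g i : ℕ)) ∧ P w),
    ∀ i ∈ (Finset.univ : Finset ι), f i w = (g i : ℕ)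
  constructor
  · intro h
    exact ⟨fun i => ⟨f i w, hB i w⟩, Finset.mem_filter.mpr ⟨Finset.mem_univ _, w,
      fun i => rfl, h⟩, fun i _ => rfl⟩
  · rintro ⟨g, hg, hw⟩
    obtain ⟨_, w0, hw0, hS⟩ := Finset.mem_filter.mp hg
    exact hP w0 w (fun i => (hw0 i).trans (hw i (Finset.mem_univ i)).symm) hS

theorem cnts_height {p : ℕ} [Fact p.Prime] {α : Type} [Finite α] [DecidableEq α]
    (pi : α → ZMod p) (x : α) (N : ℕ) (hN : 0 < N) (s t : ZMod p) (r : ℕ) :
    HasHeight 1 ({w | cnts pi x s t w % N = r} : Language α) := by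
  have := Fintype.ofFinite α
  have hp : p.Prime := Fact.out
  have hNp : 0 < N * p := Nat.mul_pos hN hp.pos
  by_cases hx : pi x = 0
  · refine good_det (ι := ZMod p × Bool) (fun i w => if i.2 = true then
      seg pi x (fun _ _ => true) (i.1, false) w % N else
      seg pi x (fun b _ => !b) (i.1, false) w % N) N ?_ ?_ _ ?_
    · rintro ⟨q, b⟩ w
      cases b
      · exact Nat.mod_lt _ hN
      · exact Nat.mod_lt _ hN
    · rintro ⟨q, b⟩ r
      cases b
      · exact seg_height pi x _ (fun s s2 => run_height_nu hx s s2) (q, false) N r hN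
      · exact seg_height pi x _ (fun s s2 => run_height_all s s2) (q, false) N r hN
    · intro w w2 h hw
      rw [cnts_shift] at hw ⊢
      rw [← hw]
      exact (det_zero pi x hx N w w2 (fun q => by simpa using h (q, true))
        (fun q => by simpa using h (q, false)) (t - s)).symm
  · refine good_det (ι := ZMod p × Fin 4) (fun i w =>
      if i.2 = 0 then seg pi x (fun b l => !(b && !l)) (i.1, false) w % (N * p) else
      if i.2 = 1 then seg pi x (fun b l => !(!b && l)) (i.1, false) w % (N * p) else
      if i.2 = 2 then Phi (w.foldl (stp pi x) (i.1, false)) else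
      w.count x % (N * p)) (N * p + 2) ?_ ?_ _ ?_
    · rintro ⟨q, j⟩ w
      have h1 : ∀ a, a % (N * p) < N * p + 2 := fun a =>
        lt_of_lt_of_le (Nat.mod_lt _ hNp) (Nat.le_add_right _ _)
      have h2 : Phi (w.foldl (stp pi x) (q, false)) < N * p + 2 := by
        unfold Phi
        split <;> omega
      simp only
      split
      · exact h1 _
      · split
        · exact h1 _
        · split
          · exact h2
          · exact h1 _
    · rintro ⟨q, j⟩ r
      fin_cases j
      · exact seg_height pi x _ (fun s s2 => run_height_alpha s s2) (q, false) (N * p) r hNp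
      · exact seg_height pi x _ (fun s s2 => run_height_beta s s2) (q, false) (N * p) r hNp
      · have hU := HasHeight.iUnion (n := 1) (α := α)
          ((Finset.univ : Finset (ZMod p × Bool)).filter (fun s2 => Phi s2 = r))
          (fun s2 => ({w | w.foldl (stp pi x) (q, false) = s2} : Language α))
          (fun s2 _ => state_height pi x (fun s s2 => run_height_all s s2) (q, false) s2)
        refine hU.congr (fun w => ?_)
        change Phi (w.foldl (stp pi x) (q, false)) = r ↔ ∃ s2 ∈
          (Finset.univ : Finset (ZMod p × Bool)).filter (fun s2 => Phi s2 = r),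
          w.foldl (stp pi x) (q, false) = s2
        constructor
        · intro h
          exact ⟨_, Finset.mem_filter.mpr ⟨Finset.mem_univ _, h⟩, rfl⟩
        · rintro ⟨s2, hs2, rfl⟩
          exact (Finset.mem_filter.mp hs2).2
      · exact count_part x (N * p) r hNp
    · intro w w2 h hw
      rw [cnts_shift] at hw ⊢
      rw [← hw]
      exact (det_ne pi x hx N w w2 (fun q => by simpa using h (q, 0))
        (fun q => by simpa using h (q, 1)) (fun q => by simpa using h (q, 2))
        (by simpa using h (0, 3)) (t - s)).symm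

theorem all_main {G α : Type} [Group G] [Finite G] [Finite α] (N : Subgroup G) [N.Normal]
    (hN : ∀ x ∈ N, ∀ y ∈ N, x * y = y * x) (hp : N.index.Prime) (φ : α → G) (S : Set G) :
    HasHeight 1 ({w | (w.map φ).prod ∈ S} : Language α) := by
  classical
  have := Fintype.ofFinite α
  obtain ⟨p, hpdef⟩ : ∃ p, p = N.index := ⟨_, rfl⟩
  rw [← hpdef] at hp
  haveI : Fact p.Prime := ⟨hp⟩
  have hcard : Nat.card (G ⧸ N) = p := by rw [hpdef]; rfl
  haveI : IsCyclic (G ⧸ N) := isCyclic_of_prime_card hcard
  obtain ⟨g0, hg0⟩ := IsCyclic.exists_generator (α := G ⧸ N)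
  obtain ⟨h, rfl⟩ := QuotientGroup.mk_surjective g0
  have hpow : ((h : G ⧸ N)) ^ p = 1 := by rw [← hcard]; exact pow_card_eq_one'
  have hk : h ^ p ∈ N := by
    rw [← QuotientGroup.eq_one_iff, QuotientGroup.mk_pow]
    exact hpow
  have hex : ∀ a : α, ∃ n : ZMod p, φ a * (h ^ n.val)⁻¹ ∈ N := by
    intro a
    have h1 : ((φ a : G) : G ⧸ N) ∈ Submonoid.powers ((h : G ⧸ N)) := by
      rw [mem_powers_iff_mem_zpowers]
      exact hg0 _
    obtain ⟨n, hn⟩ := h1
    refine ⟨(n : ZMod p), ?_⟩
    rw [← QuotientGroup.eq_one_iff, QuotientGroup.mk_mul, QuotientGroup.mk_inv,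
      QuotientGroup.mk_pow, mul_inv_eq_one, ZMod.val_natCast, ← pow_eq_pow_mod _ hpow]
    exact hn.symm
  choose pi hpi using hex
  have hM : 0 < Nat.card G := Nat.card_pos
  refine good_det (ι := (α × ZMod p) ⊕ Unit) (fun i w => match i with
    | Sum.inl a => cnts pi a.1 a.2 0 w % Nat.card G
    | Sum.inr _ => ((w.map pi).sum).val) (Nat.card G + p) ?_ ?_ _ ?_
  · rintro (⟨a, s⟩ | u) w
    · exact lt_of_lt_of_le (Nat.mod_lt _ hM) (Nat.le_add_right _ _)
    · exact lt_of_lt_of_le (ZMod.val_lt _) (Nat.le_add_left _ _)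
  · rintro (⟨a, s⟩ | u) r
    · exact cnts_height pi a (Nat.card G) hM s 0 r
    · by_cases hr : r < p
      · refine (sum_height pi ((r : ℕ) : ZMod p)).congr (fun w => ?_)
        change ((w.map pi).sum).val = r ↔ (w.map pi).sum = ((r : ℕ) : ZMod p)
        constructor
        · intro h
          rw [← h, ZMod.natCast_zmod_val]
        · intro h
          rw [h, ZMod.val_natCast, Nat.mod_eq_of_lt hr]
      · refine (HasHeight.zero (n := 1) (α := α)).congr (fun w => ?_)
        change ((w.map pi).sum).val = r ↔ w ∈ (0 : Language α)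
        constructor
        · intro h
          exact absurd (h ▸ ZMod.val_lt _) hr
        · intro h
          exact absurd h (Language.notMem_zero w)
  · intro w w2 hww hS
    have e : (w.map φ).prod = (w2.map φ).prod := by
      apply group_all N hN φ p h pi hk hpi w w2
      · exact ZMod.val_injective p (hww (Sum.inr ()))
      · intro a s
        exact hww (Sum.inl (a, s))
    rw [← e]
    exact hS

theorem main_prime {G α : Type} [Group G] [Finite G] [Finite α] (p : ℕ) [Fact p.Prime]
    (N : Subgroup G) [N.Normal] (hN : ∀ x ∈ N, ∀ y ∈ N, x * y = y * x) (hp : N.index = p)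
    (φ : α → G) (S : Set G) :
    HasHeight 1 ({w | (w.map φ).prod ∈ S} : Language α) :=
  all_main N hN (by rw [hp]; exact Fact.out) φ S

end Vale.Agent.P329
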