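import Vale.Agent.P329.GroupAll

/-! # P329: averaging over functionals -/

namespace Vale.Agent.P329

/-- Number of occurrences of `x` at state `s`, states in an additive group. -/
def cntE {α E : Type} [DecidableEq α] [AddCommGroup E] [DecidableEq E] (pi : α → E) (x : α)
    (s : E) : E → List α → ℕ
  | _, [] => 0
  | t, c :: w => (if c = x ∧ t = s then 1 else 0) + cntE pi x s (t + pi c) w

variable {α E : Type} [DecidableEq α] [AddCommGroup E] [DecidableEq E] [Fintype E]
  {p : ℕ} [Fact p.Prime] [Module (ZMod p) E]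

/-- counts of the image states are sums over fibres -/
theorem cnts_eq_sum (pi : α → E) (x : α) (l : E →ₗ[ZMod p] ZMod p) (c : ZMod p) (w : List α) :
    ∀ t : E, cnts (fun a => l (pi a)) x c (l t) w =
      ∑ s : E, if l s = c then cntE pi x s t w else 0 := by
  induction w with
  | nil => intro t; simp [cnts, cntE]
  | cons y w ih =>
    intro t
    simp only [cnts, cntE]
    rw [← map_add, ih (t + pi y)]
    have e : ∀ s : E, (if l s = c then (if y = x ∧ t = s then 1 else 0) +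
        cntE pi x s (t + pi y) w else 0) =
        (if l s = c then (if y = x ∧ t = s then 1 else 0) else 0) +
          (if l s = c then cntE pi x s (t + pi y) w else 0) := by
      intro s; split_ifs <;> simp
    rw [Finset.sum_congr rfl (fun s _ => e s), Finset.sum_add_distrib]
    congr 1
    rw [Finset.sum_eq_single t]
    · by_cases h1 : y = x
      · simp [h1]
      · simp [h1]
    · intro s _ hs
      have : ¬ (y = x ∧ t = s) := fun h => hs h.2.symm
      rw [if_neg this]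
      simp
    · intro h; exact absurd (Finset.mem_univ t) h

theorem exists_fun (v : E) (hv : v ≠ 0) : ∃ l : E →ₗ[ZMod p] ZMod p, l v = 1 := by
  have h : ¬ ∀ l : Module.Dual (ZMod p) E, l v = 0 := fun h =>
    hv ((Module.forall_dual_apply_eq_zero_iff (ZMod p) v).1 h)
  push Not at h
  obtain ⟨l, hl⟩ := h
  refine ⟨(l v)⁻¹ • l, ?_⟩
  rw [LinearMap.smul_apply, smul_eq_mul, inv_mul_cancel₀ hl]

theorem card_fib [Fintype (E →ₗ[ZMod p] ZMod p)] (v : E) (hv : v ≠ 0) :
    p * (Finset.univ.filter (fun l : E →ₗ[ZMod p] ZMod p => l v = 0)).card =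
      Fintype.card (E →ₗ[ZMod p] ZMod p) := by
  obtain ⟨l0, h0⟩ := exists_fun (p := p) v hv
  have h1 : ∀ c : ZMod p, (Finset.univ.filter (fun l : E →ₗ[ZMod p] ZMod p => l v = c)).card =
      (Finset.univ.filter (fun l : E →ₗ[ZMod p] ZMod p => l v = 0)).card := by
    intro c
    refine Finset.card_nbij' (fun l => l - c • l0) (fun l => l + c • l0) ?_ ?_ ?_ ?_
    · intro l hl
      simp only [Finset.coe_filter, Finset.mem_univ, true_and, Set.mem_setOf_eq] at hl ⊢
      simp [hl, h0]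
    · intro l hl
      simp only [Finset.coe_filter, Finset.mem_univ, true_and, Set.mem_setOf_eq] at hl ⊢
      simp [hl, h0]
    · intro l _; simp
    · intro l _; simp
  have h2 := Finset.card_eq_sum_card_fiberwise (s := (Finset.univ : Finset (E →ₗ[ZMod p] ZMod p)))
    (t := (Finset.univ : Finset (ZMod p))) (f := fun l => l v) (fun _ _ => Finset.mem_univ _)
  rw [Finset.card_univ] at h2
  rw [h2, Finset.sum_congr rfl (fun c _ => h1 c), Finset.sum_const, Finset.card_univ, ZMod.card,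
    smul_eq_mul]

theorem avg_id [Fintype (E →ₗ[ZMod p] ZMod p)] (pi : α → E) (x : α) (s : E) (w : List α) :
    p * ∑ l : E →ₗ[ZMod p] ZMod p, cnts (fun a => l (pi a)) x (l s) 0 w +
      Fintype.card (E →ₗ[ZMod p] ZMod p) * cntE pi x s 0 w =
      p * (Fintype.card (E →ₗ[ZMod p] ZMod p) * cntE pi x s 0 w) +
      Fintype.card (E →ₗ[ZMod p] ZMod p) *
        cnts (fun a => (0 : E →ₗ[ZMod p] ZMod p) (pi a)) x 0 0 w := by
  set D := Fintype.card (E →ₗ[ZMod p] ZMod p) with hD
  have h1 : ∀ l : E →ₗ[ZMod p] ZMod p, cnts (fun a => l (pi a)) x (l s) 0 w =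
      ∑ s' : E, if l s' = l s then cntE pi x s' 0 w else 0 := by
    intro l
    have := cnts_eq_sum pi x l (l s) w 0
    rwa [map_zero] at this
  have h0 : cnts (fun a => (0 : E →ₗ[ZMod p] ZMod p) (pi a)) x 0 0 w =
      ∑ s' : E, cntE pi x s' 0 w := by
    have := cnts_eq_sum pi x (0 : E →ₗ[ZMod p] ZMod p) 0 w 0
    rw [map_zero] at this
    rw [this]
    simp
  rw [Finset.sum_congr rfl (fun l _ => h1 l), Finset.sum_comm, h0, Finset.mul_sum,
    Finset.mul_sum, ← Finset.add_sum_erase _ _ (Finset.mem_univ s),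
    ← Finset.add_sum_erase (Finset.univ : Finset E) (fun i => D * cntE pi x i 0 w)
      (Finset.mem_univ s)]
  have h2 : ∀ s' ∈ (Finset.univ : Finset E).erase s,
      p * ∑ l : E →ₗ[ZMod p] ZMod p, (if l s' = l s then cntE pi x s' 0 w else 0) =
      D * cntE pi x s' 0 w := by
    intro s' hs'
    have hne : s' - s ≠ 0 := sub_ne_zero.2 (Finset.ne_of_mem_erase hs')
    rw [← Finset.sum_filter, Finset.sum_const, smul_eq_mul, ← mul_assoc, hD,
      ← card_fib (p := p) (s' - s) hne]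
    congr 3
    ext l
    simp [sub_eq_zero]
  rw [Finset.sum_congr rfl h2]
  have h3 : (∑ l : E →ₗ[ZMod p] ZMod p, (if l s = l s then cntE pi x s 0 w else 0)) =
      D * cntE pi x s 0 w := by
    simp [hD]
  rw [h3]
  ring

theorem avgE [Fintype (E →ₗ[ZMod p] ZMod p)] (pi : α → E) (x : α) (s : E) (w w2 : List α) (N : ℕ)
    (h : ∀ (l : E →ₗ[ZMod p] ZMod p) (c : ZMod p),
      cnts (fun a => l (pi a)) x c 0 w %
        (N * ((p - 1) * Fintype.card (E →ₗ[ZMod p] ZMod p))) =
      cnts (fun a => l (pi a)) x c 0 w2 %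
        (N * ((p - 1) * Fintype.card (E →ₗ[ZMod p] ZMod p)))) :
    cntE pi x s 0 w % N = cntE pi x s 0 w2 % N := by
  have hp := (Fact.out : p.Prime).two_le
  set D := Fintype.card (E →ₗ[ZMod p] ZMod p) with hD
  have hD0 : 0 < D := Fintype.card_pos
  have hcast : (((N * ((p - 1) * D) : ℕ)) : ℤ) = N * (((p : ℤ) - 1) * D) := by
    push_cast [Nat.cast_sub (by omega : 1 ≤ p)]
    ring
  have h' : ∀ (l : E →ₗ[ZMod p] ZMod p) (c : ZMod p), ((N : ℤ) * (((p : ℤ) - 1) * D)) ∣
      (cnts (fun a => l (pi a)) x c 0 w2 : ℤ) - (cnts (fun a => l (pi a)) x c 0 w : ℤ) := by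
    intro l c
    rw [← hcast]
    exact Nat.modEq_iff_dvd.1 (h l c)
  have i1 := avg_id (p := p) pi x s w
  have i2 := avg_id (p := p) pi x s w2
  rw [← hD] at i1 i2
  have j1 : (p : ℤ) * ∑ l : E →ₗ[ZMod p] ZMod p, (cnts (fun a => l (pi a)) x (l s) 0 w : ℤ) +
      D * cntE pi x s 0 w = p * (D * cntE pi x s 0 w) +
      D * cnts (fun a => (0 : E →ₗ[ZMod p] ZMod p) (pi a)) x 0 0 w := by exact_mod_cast i1
  have j2 : (p : ℤ) * ∑ l : E →ₗ[ZMod p] ZMod p, (cnts (fun a => l (pi a)) x (l s) 0 w2 : ℤ) +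
      D * cntE pi x s 0 w2 = p * (D * cntE pi x s 0 w2) +
      D * cnts (fun a => (0 : E →ₗ[ZMod p] ZMod p) (pi a)) x 0 0 w2 := by exact_mod_cast i2
  have k1 : ((N : ℤ) * (((p : ℤ) - 1) * D)) ∣
      ∑ l : E →ₗ[ZMod p] ZMod p, ((cnts (fun a => l (pi a)) x (l s) 0 w2 : ℤ) -
        (cnts (fun a => l (pi a)) x (l s) 0 w : ℤ)) :=
    Finset.dvd_sum (fun l _ => h' l (l s))
  rw [Finset.sum_sub_distrib] at k1
  have k2 := h' 0 0
  have k3 : ((N : ℤ) * (((p : ℤ) - 1) * D)) ∣
      (((p : ℤ) - 1) * D) * ((cntE pi x s 0 w2 : ℤ) - cntE pi x s 0 w) := by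
    have := (k1.mul_left (p : ℤ)).sub (k2.mul_left (D : ℤ))
    refine this.trans (dvd_of_eq ?_)
    linear_combination j2 - j1
  have hne : (((p : ℤ) - 1) * D) ≠ 0 := by
    have h1 : (0 : ℤ) < (p : ℤ) - 1 := by
      have : (2 : ℤ) ≤ p := by exact_mod_cast hp
      linarith
    have h2 : (0 : ℤ) < D := by exact_mod_cast hD0
    positivity
  rw [mul_comm (N : ℤ)] at k3
  have k4 := Int.dvd_of_mul_dvd_mul_left hne k3
  exact (Nat.modEq_iff_dvd.2 k4)

end Vale.Agent.P329
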