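import Vale.Agent.P329.Final

/-! # P329: inverse images under letter-to-letter maps, and the second form of the result -/

namespace Vale.Agent.P329

/-- Inverse image of a language under a letter-to-letter map. -/
def pullL {α β : Type} (σ : α → β) (L : Language β) : Language α := {w | w.map σ ∈ L}

theorem mem_pullL {α β : Type} (σ : α → β) (L : Language β) (w : List α) :
    w ∈ pullL σ L ↔ w.map σ ∈ L := Iff.rfl

theorem pullL_mul {α β : Type} (σ : α → β) (L M : Language β) :
    pullL σ (L * M) = pullL σ L * pullL σ M := by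
  ext w
  rw [mem_pullL, Language.mem_mul, Language.mem_mul]
  constructor
  · rintro ⟨u, hu, v, hv, h⟩
    obtain ⟨u', v', rfl, rfl, rfl⟩ := List.map_eq_append_iff.mp h.symm
    exact ⟨u', hu, v', hv, rfl⟩
  · rintro ⟨u, hu, v, hv, rfl⟩
    exact ⟨u.map σ, hu, v.map σ, hv, by rw [List.map_append]⟩

theorem pullL_one {α β : Type} (σ : α → β) : pullL σ (1 : Language β) = 1 := by
  ext w
  rw [mem_pullL, Language.mem_one, Language.mem_one, List.map_eq_nil_iff]

theorem pullL_pow {α β : Type} (σ : α → β) (L : Language β) (n : ℕ) :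
    pullL σ (L ^ n) = pullL σ L ^ n := by
  induction n with
  | zero => rw [pow_zero, pow_zero, pullL_one]
  | succ n ih => rw [pow_succ, pow_succ, pullL_mul, ih]

theorem pullL_star {α β : Type} (σ : α → β) (L : Language β) :
    pullL σ (KStar.kstar L) = KStar.kstar (pullL σ L) := by
  ext w
  rw [mem_pullL, Language.kstar_eq_iSup_pow, Language.kstar_eq_iSup_pow, Language.mem_iSup,
    Language.mem_iSup]
  constructor
  · rintro ⟨i, hi⟩
    exact ⟨i, by rw [← pullL_pow]; exact hi⟩
  · rintro ⟨i, hi⟩
    exact ⟨i, by rw [← pullL_pow] at hi; exact hi⟩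

theorem pull_aux {α β : Type} [Finite α] (σ : α → β) (E : GRE β) :
    HasHeight E.sh (pullL σ E.lang) := by
  classical
  haveI : Fintype α := Fintype.ofFinite α
  induction E with
  | zero =>
    refine (HasHeight.zero (α := α)).congr (fun w => ?_)
    rw [mem_pullL]
    exact ⟨fun h => absurd h (Language.notMem_zero _), fun h => absurd h (Language.notMem_zero _)⟩
  | one =>
    change HasHeight 0 (pullL σ 1)
    rw [pullL_one]
    exact HasHeight.one
  | char b =>
    have h := HasHeight.iUnion (n := 0) (Finset.univ.filter (fun a => σ a = b))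
      (fun a => ({[a]} : Language α)) (fun a _ => HasHeight.char a)
    refine h.congr (fun w => ?_)
    change w.map σ = [b] ↔ ∃ a ∈ Finset.univ.filter (fun a => σ a = b), w = [a]
    constructor
    · intro hw
      obtain ⟨a, rfl, ha⟩ := List.map_eq_singleton_iff.mp hw
      exact ⟨a, Finset.mem_filter.mpr ⟨Finset.mem_univ _, ha⟩, rfl⟩
    · rintro ⟨a, ha, rfl⟩
      rw [List.map_singleton, (Finset.mem_filter.mp ha).2]
  | plus P Q hP hQ =>
    refine ((hP.mono (le_max_left _ _)).add (hQ.mono (le_max_right _ _))).congr (fun w => ?_)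
    rfl
  | comp P Q hP hQ =>
    change HasHeight (max P.sh Q.sh) (pullL σ (P.lang * Q.lang))
    rw [pullL_mul]
    exact (hP.mono (le_max_left _ _)).mul (hQ.mono (le_max_right _ _))
  | neg P hP =>
    exact hP.compl
  | star P hP =>
    change HasHeight (P.sh + 1) (pullL σ (KStar.kstar P.lang))
    rw [pullL_star]
    exact hP.star

theorem HasHeight.pull {α β : Type} [Finite α] (σ : α → β) {n : ℕ} {L : Language β}
    (hL : HasHeight n L) : HasHeight n (pullL σ L) := by
  obtain ⟨E, hE, rfl⟩ := hL
  exact (pull_aux σ E).mono hE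

theorem main2 {G α : Type} [Group G] [Finite G] [Finite α] (N : Subgroup G) [N.Normal]
    (hN : ∀ x ∈ N, ∀ y ∈ N, x * y = y * x) (φ : α → G) (g : G)
    (hφ : ∀ a, φ a ∈ N ∨ φ a = g) (S : Set G) :
    HasHeight 1 ({w | (w.map φ).prod ∈ S} : Language α) := by
  classical
  let σ : α → Option α := fun a => if φ a ∈ N then some a else none
  let ψ : Option α → G := fun o => o.elim g (fun a => if φ a ∈ N then φ a else 1)
  have h := main N hN ψ none (fun o ho => by
    rcases o with _ | a
    · exact absurd rfl ho
    · by_cases ha : φ a ∈ N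
      · simp only [ψ, Option.elim, if_pos ha]; exact ha
      · simp only [ψ, Option.elim, if_neg ha]; exact N.one_mem) S
  refine (h.pull σ).congr (fun w => ?_)
  change (w.map φ).prod ∈ S ↔ ((w.map σ).map ψ).prod ∈ S
  have e : (w.map σ).map ψ = w.map φ := by
    rw [List.map_map]
    apply List.map_congr_left
    intro a _
    by_cases ha : φ a ∈ N
    · simp [σ, ψ, ha]
    · have h1 : σ a = none := if_neg ha
      rw [Function.comp_apply, h1]
      exact ((hφ a).resolve_left ha).symm
  rw [e]

end Vale.Agent.P329
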