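import Vale.Agent.P329.Seg
import Vale.Agent.P329.GroupAll
import Vale.Agent.P329.Final2

namespace Vale.Agent.P329

/-- The correction at the end of a word. -/
def Ph {k : ℕ} (s : ZMod k × Bool) : ℕ := if s.1 ≠ 0 ∧ s.2 = true then 1 else 0

theorem Ph_eq_one {k : ℕ} (s : ZMod k × Bool) : Ph s = 1 ↔ (s.1 ≠ 0 ∧ s.2 = true) := by
  unfold Ph
  split_ifs with h
  · simp [h]
  · simp [h]

variable {α : Type} [DecidableEq α] {k : ℕ}

theorem foldl_fst (pi : α → ZMod k) (x : α) (w : List α) : ∀ s : ZMod k × Bool,
    (w.foldl (stp pi x) s).1 = s.1 + (w.map pi).sum := by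
  induction w with
  | nil => intro s; simp
  | cons y w ih =>
    intro s
    rw [List.foldl_cons, ih, List.map_cons, List.sum_cons]
    change s.1 + pi y + (w.map pi).sum = _
    rw [add_assoc]

theorem run_all_spec (pi : α → ZMod k) (x : α) (v : List α) : ∀ s s2 : ZMod k × Bool,
    s.1 ≠ 0 → run pi x (fun _ _ => true) s v = some s2 →
    v.foldl (stp pi x) s = s2 ∧ s2.1 ≠ 0 := by
  induction v with
  | nil =>
    intro s s2 h0 h
    have e : s = s2 := by simpa [run] using h
    subst e
    exact ⟨rfl, h0⟩
  | cons y v ih =>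
    intro s s2 h0 h
    have e : run pi x (fun _ _ => true) s (y :: v) =
      if cut pi x (fun _ _ => true) s y = true then none
      else run pi x (fun _ _ => true) (stp pi x s y) v := rfl
    rw [e] at h
    by_cases hc : cut pi x (fun _ _ => true) s y = true
    · rw [if_pos hc] at h
      exact absurd h (by simp)
    · rw [if_neg hc] at h
      have h1 : (stp pi x s y).1 ≠ 0 := by
        intro h2
        apply hc
        have h3 : s.1 + pi y = 0 := h2
        simp [cut, h3]
      exact ih _ _ h1 h

theorem Ph_spec (pi : α → ZMod k) (x : α) (w : List α) : ∀ s : ZMod k × Bool,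
    Ph (w.foldl (stp pi x) s) = 1 →
    ((s.1 ≠ 0 ∧ s.2 = true ∧ run pi x (fun _ _ => true) s w = some (w.foldl (stp pi x) s)) ∨
      ∃ u v, ∃ r : ZMod k, w = u ++ [x] ++ v ∧ s.1 + (u.map pi).sum = 0 ∧
        run pi x (fun _ _ => true) (pi x, true) v = some (r, true)) := by
  induction w with
  | nil =>
    intro s h
    left
    rw [Ph_eq_one] at h
    exact ⟨h.1, h.2, rfl⟩
  | cons y w ih =>
    intro s h
    rw [List.foldl_cons] at h
    rcases ih _ h with ⟨h1, h2, h3⟩ | ⟨u, v, r, h1, h2, h3⟩
    · by_cases hs : s.1 = 0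
      · right
        have h4 : (stp pi x s y).2 = decide (y = x) := by simp [stp, hs]
        rw [h4] at h2
        have hyx : y = x := of_decide_eq_true h2
        subst hyx
        have h5 : stp pi y s y = (pi y, true) := by simp [stp, hs]
        rw [h5] at h3 h
        refine ⟨[], w, (w.foldl (stp pi y) (pi y, true)).1, by simp, by simpa using hs, ?_⟩
        rw [h3]
        have h6 := ((Ph_eq_one _).mp h).2
        congr 1
        exact Prod.ext rfl h6
      · left
        have h4 : (stp pi x s y).2 = s.2 := by simp [stp, hs]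
        rw [h4] at h2
        refine ⟨hs, h2, ?_⟩
        have e : run pi x (fun _ _ => true) s (y :: w) =
          if cut pi x (fun _ _ => true) s y = true then none
          else run pi x (fun _ _ => true) (stp pi x s y) w := rfl
        have hc : ¬ cut pi x (fun _ _ => true) s y = true := by
          intro hc
          apply h1
          have : s.1 + pi y = 0 := by simpa [cut] using hc
          exact this
        rw [e, if_neg hc, h3]
        rfl
    · right
      refine ⟨y :: u, v, r, by rw [h1]; simp, ?_, h3⟩
      have h4 : (stp pi x s y).1 = s.1 + pi y := rfl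
      rw [h4] at h2
      rw [List.map_cons, List.sum_cons, ← add_assoc]
      exact h2

theorem Ph_iff (pi : α → ZMod k) (x : α) (hx : pi x ≠ 0) (q : ZMod k) (w : List α) :
    Ph (w.foldl (stp pi x) (q, false)) = 1 ↔
      ∃ u v, ∃ r : ZMod k, w = u ++ [x] ++ v ∧ q + (u.map pi).sum = 0 ∧
        run pi x (fun _ _ => true) (pi x, true) v = some (r, true) := by
  constructor
  · intro h
    rcases Ph_spec pi x w _ h with ⟨_, h2, _⟩ | h
    · exact absurd h2 (by simp)
    · exact h
  · rintro ⟨u, v, r, rfl, h2, h3⟩
    obtain ⟨h4, h5⟩ := run_all_spec pi x v (pi x, true) (r, true) hx h3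
    have h6 : (u ++ [x] ++ v).foldl (stp pi x) (q, false) = (r, true) := by
      rw [List.foldl_append, List.foldl_append]
      have h7 : (u.foldl (stp pi x) (q, false)).1 = 0 := by
        rw [foldl_fst]; exact h2
      have h8 : [x].foldl (stp pi x) (u.foldl (stp pi x) (q, false)) = (pi x, true) := by
        simp [stp, h7]
      rw [h8, h4]
    rw [h6, Ph_eq_one]
    exact ⟨h5, rfl⟩

/-- Words with given weight. -/
def sumLP (pi : α → ZMod k) (c : ZMod k) : Language α := {w | (w.map pi).sum = c}

/-- Words with a given run. -/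
def runLP (pi : α → ZMod k) (x : α) (s s2 : ZMod k × Bool) : Language α :=
  {w | run pi x (fun _ _ => true) s w = some s2}

/-- Sums of weights. -/
theorem sum_heightP [Fintype α] [NeZero k] (pi : α → ZMod k) (c : ZMod k) :
    HasHeight 1 (sumLP pi c) := by
  classical
  have h := main2 (G := Multiplicative (ZMod k)) (α := α) ⊤ (fun x _ y _ => mul_comm x y)
    (fun a => Multiplicative.ofAdd (pi a)) 1 (fun a => Or.inl trivial)
    {Multiplicative.ofAdd c}
  refine h.congr (fun w => ?_)
  change (w.map pi).sum = c ↔
    (w.map (fun a => Multiplicative.ofAdd (pi a))).prod = Multiplicative.ofAdd c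
  have e : (w.map (fun a => Multiplicative.ofAdd (pi a))).prod =
      Multiplicative.ofAdd (w.map pi).sum := by
    induction w with
    | nil => simp
    | cons y w ih => rw [List.map_cons, List.prod_cons, ih, List.map_cons, List.sum_cons]; rfl
  rw [e]
  exact Iff.rfl

/-- The language of the end correction. -/
theorem Ph_height [Fintype α] [NeZero k] (pi : α → ZMod k) (x : α) (hx : pi x ≠ 0)
    (hA : ∀ s s2 : ZMod k × Bool,
      HasHeight 0 ({w | run pi x (fun _ _ => true) s w = some s2} : Language α))
    (q : ZMod k) (c : ℕ) :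
    HasHeight 1 ({w | Ph (w.foldl (stp pi x) (q, false)) = c} : Language α) := by
  classical
  have h1 : HasHeight 1 ({w | Ph (w.foldl (stp pi x) (q, false)) = 1} : Language α) := by
    have h2 := HasHeight.iUnion (n := 1) (Finset.univ : Finset (ZMod k))
      (fun r => (sumLP pi (-q) * ({[x]} : Language α)) * runLP pi x (pi x, true) (r, true))
      (fun r _ => (((sum_heightP pi (-q)).mul (HasHeight.char x)).mul
        (HasHeight.mono zero_le_one (hA (pi x, true) (r, true)))))
    refine h2.congr (fun w => ?_)
    change Ph (w.foldl (stp pi x) (q, false)) = 1 ↔ _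
    rw [Ph_iff pi x hx]
    constructor
    · rintro ⟨u, v, r, rfl, h3, h4⟩
      refine ⟨r, Finset.mem_univ _, ?_⟩
      rw [Language.mem_mul]
      refine ⟨u ++ [x], ?_, v, h4, rfl⟩
      rw [Language.mem_mul]
      exact ⟨u, (eq_neg_of_add_eq_zero_right h3), [x], rfl, rfl⟩
    · rintro ⟨r, _, h3⟩
      rw [Language.mem_mul] at h3
      obtain ⟨a, ha, v, hv, rfl⟩ := h3
      rw [Language.mem_mul] at ha
      obtain ⟨u, hu, b, hb, rfl⟩ := ha
      have hb' : b = [x] := hb
      subst hb'
      have hu' : (u.map pi).sum = -q := hu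
      exact ⟨u, v, r, rfl, by rw [hu']; simp, hv⟩
  by_cases hc1 : c = 1
  · rw [hc1]; exact h1
  by_cases hc0 : c = 0
  · refine h1.compl.congr (fun w => ?_)
    change Ph (w.foldl (stp pi x) (q, false)) = c ↔
      ¬ Ph (w.foldl (stp pi x) (q, false)) = 1
    rw [hc0]
    unfold Ph
    split_ifs <;> simp
  · refine (HasHeight.zero (α := α)).congr (fun w => ?_)
    change Ph (w.foldl (stp pi x) (q, false)) = c ↔ w ∈ (0 : Language α)
    constructor
    · intro h
      exfalso
      unfold Ph at h
      split_ifs at h <;> omega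
    · intro h
      exact absurd h (Language.notMem_zero w)

end Vale.Agent.P329
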