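import Vale.Agent.P329.DeadH
import Vale.Agent.P329.SegH
import Vale.Agent.P329.Ident
import Vale.Agent.P329.PhiLang

namespace Vale.Agent.P329

/-- Complement. -/
def notL {α : Type} (L : Language α) : Language α := {w | w ∉ L}

/-- Sign of a language. -/
def sgL {α ι : Type} [DecidableEq ι] (P : ι → Language α) (T : Finset ι) (i : ι) : Language α :=
  if i ∈ T then P i else notL (P i)

theorem of_sig {α ι : Type} [Finite ι] (P : ι → Language α) (hP : ∀ i, HasHeight 1 (P i))
    (L : Language α) (h : ∀ w w2, (∀ i, w ∈ P i ↔ w2 ∈ P i) → w ∈ L → w2 ∈ L) :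
    HasHeight 1 L := by
  classical
  haveI : Fintype ι := Fintype.ofFinite ι
  have h1 : ∀ T : Finset ι, HasHeight 1 ({w | ∀ i ∈ (Finset.univ : Finset ι),
      w ∈ sgL P T i} : Language α) := by
    intro T
    apply HasHeight.iInter
    intro i _
    unfold sgL
    by_cases hi : i ∈ T
    · rw [if_pos hi]; exact hP i
    · rw [if_neg hi]; exact (hP i).compl
  have h2 := HasHeight.iUnion (n := 1)
    ((Finset.univ : Finset (Finset ι)).filter (fun T => ∃ w ∈ L, ∀ i, w ∈ P i ↔ i ∈ T))
    (fun T => ({w | ∀ i ∈ (Finset.univ : Finset ι), w ∈ sgL P T i} : Language α))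
    (fun T _ => h1 T)
  refine h2.congr (fun w => ?_)
  constructor
  · intro hw
    refine ⟨Finset.univ.filter (fun i => w ∈ P i), Finset.mem_filter.2 ⟨Finset.mem_univ _,
      w, hw, fun i => by simp⟩, ?_⟩
    intro i _
    unfold sgL
    by_cases hi : w ∈ P i
    · rw [if_pos (by simp [hi])]; exact hi
    · rw [if_neg (by simp [hi])]; exact hi
  · rintro ⟨T, hT, hw⟩
    obtain ⟨_, w0, hw0, h0⟩ := Finset.mem_filter.1 hT
    refine h w0 w (fun i => ?_) hw0
    have h3 := hw i (Finset.mem_univ _)
    unfold sgL at h3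
    by_cases hi : i ∈ T
    · rw [if_pos hi] at h3
      exact ⟨fun _ => h3, fun _ => (h0 i).2 hi⟩
    · rw [if_neg hi] at h3
      exact ⟨fun h4 => absurd ((h0 i).1 h4) hi, fun h4 => absurd h4 h3⟩

theorem mod_eq {α : Type} (F : List α → ℕ) (m : ℕ) (hm : 0 < m) (w w2 : List α)
    (h : ∀ r : Fin m, F w % m = r ↔ F w2 % m = r) : F w % m = F w2 % m :=
  ((h ⟨F w % m, Nat.mod_lt _ hm⟩).1 rfl).symm

theorem cnts_height {α : Type} [Finite α] [DecidableEq α] {p : ℕ} [Fact p.Prime]
    (pi : α → ZMod p) (x : α) (s : ZMod p) (c r : ℕ) (hc0 : 0 < c) :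
    HasHeight 1 ({w | cnts pi x s 0 w % c = r} : Language α) := by
  classical
  haveI : Fintype α := Fintype.ofFinite α
  have hp : Fact p.Prime := inferInstance
  haveI : NeZero p := ⟨hp.out.ne_zero⟩
  by_cases h0 : pi x = 0
  · let P : (ZMod p × Fin c) ⊕ (ZMod p × Fin c) → Language α := fun i =>
      match i with
      | .inl i => {w | seg pi x (fun _ _ => true) (i.1, false) w % c = i.2}
      | .inr i => {w | seg pi x (fun b _ => !b) (i.1, false) w % c = i.2}
    refine of_sig P ?_ _ ?_
    · rintro (i | i)
      · exact seg_height pi x _ (fun s s2 => run_height_all s s2) _ c _ hc0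
      · exact seg_height pi x _ (fun s s2 => run_height_nu h0 s s2) _ c _ hc0
    · intro w w2 hw hwS
      have e : cnts pi x s 0 w % c = cnts pi x s 0 w2 % c := by
        rw [cnts_shift, cnts_shift (w := w2)]
        refine det_zero pi x h0 c w w2 (fun q => ?_) (fun q => ?_) _
        · exact mod_eq (fun w => seg pi x (fun _ _ => true) (q, false) w) c hc0 w w2
            (fun r => hw (.inl (q, r)))
        · exact mod_eq (fun w => seg pi x (fun b _ => !b) (q, false) w) c hc0 w w2
            (fun r => hw (.inr (q, r)))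
      exact e.symm.trans hwS
  · obtain ⟨m, hm⟩ : ∃ m, m = c * p := ⟨_, rfl⟩
    have hm0 : 0 < m := by rw [hm]; exact Nat.mul_pos hc0 hp.out.pos
    let P : (ZMod p × Fin m) ⊕ (ZMod p × Fin m) ⊕ ZMod p ⊕ Fin m → Language α := fun i =>
      match i with
      | .inl i => {w | seg pi x (fun b l => !(b && !l)) (i.1, false) w % m = i.2}
      | .inr (.inl i) => {w | seg pi x (fun b l => !(!b && l)) (i.1, false) w % m = i.2}
      | .inr (.inr (.inl i)) => {w | Ph (w.foldl (stp pi x) (i, false)) = 1}
      | .inr (.inr (.inr i)) => {w | w.count x % m = i}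
    refine of_sig P ?_ _ ?_
    · rintro (i | i | i | i)
      · exact seg_height pi x _ (fun s s2 => run_height_alpha s s2) _ m _ hm0
      · exact seg_height pi x _ (fun s s2 => run_height_beta s s2) _ m _ hm0
      · exact Ph_height pi x h0 (fun s s2 => run_height_all s s2) i 1
      · exact count_part x m _ hm0
    · intro w w2 hw hwS
      have e : cnts pi x s 0 w % c = cnts pi x s 0 w2 % c := by
        rw [cnts_shift, cnts_shift (w := w2)]
        refine det_ne pi x h0 c w w2 (fun q => ?_) (fun q => ?_) (fun q => ?_) ?_ _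
        · rw [← hm]
          exact mod_eq (fun w => seg pi x (fun b l => !(b && !l)) (q, false) w) m hm0 w w2
            (fun r => hw (.inl (q, r)))
        · rw [← hm]
          exact mod_eq (fun w => seg pi x (fun b l => !(!b && l)) (q, false) w) m hm0 w w2
            (fun r => hw (.inr (.inl (q, r))))
        · have h2 : Ph (w.foldl (stp pi x) (q, false)) = 1 ↔
              Ph (w2.foldl (stp pi x) (q, false)) = 1 := hw (.inr (.inr (.inl q)))
          have e : ∀ s : ZMod p × Bool, Phi s = Ph s := fun s => rfl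
          rw [e, e]
          have h01 : ∀ s : ZMod p × Bool, Ph s = 0 ∨ Ph s = 1 := by
            intro s; unfold Ph; split_ifs <;> simp
          rcases h01 (w.foldl (stp pi x) (q, false)) with h3 | h3 <;>
          rcases h01 (w2.foldl (stp pi x) (q, false)) with h4 | h4
          · rw [h3, h4]
          · rw [h3] at h2; exact absurd (h2.2 h4) (by simp)
          · rw [h4] at h2; exact absurd (h2.1 h3) (by simp)
          · rw [h3, h4]
        · rw [← hm]
          exact mod_eq (fun w => w.count x) m hm0 w w2
            (fun r => hw (.inr (.inr (.inr r))))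
      exact e.symm.trans hwS

end Vale.Agent.P329
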