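import Vale.Agent.P329.Lang

namespace Vale.Agent.P329

variable {α : Type}

/-- The words on which `f` takes the value `j`. -/
def lev (f : List α → ℕ) (j : ℕ) : Language α := {v | f v = j}

theorem mem_lev (f : List α → ℕ) (j : ℕ) (w : List α) : w ∈ lev f j ↔ f w = j := Iff.rfl

/-- General counting lemma. -/
theorem general (X T : Language α) (hX : HasHeight 0 X) (hT : HasHeight 0 T)
    (f : List α → ℕ) (h0 : ∀ w, f w = 0 ↔ w ∈ T)
    (h1 : ∀ j w, f w = j + 1 ↔ w ∈ X * lev f j) (m r : ℕ) (hm : 0 < m) :
    HasHeight 1 ({w | f w % m = r} : Language α) := by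
  have key : ∀ j w, f w = j ↔ w ∈ X ^ j * T := by
    intro j
    induction j with
    | zero => intro w; rw [pow_zero, one_mul]; exact h0 w
    | succ j ih =>
      intro w
      rw [h1, pow_succ', mul_assoc]
      have : lev f j = X ^ j * T := by
        ext v
        exact ih v
      rw [this]
  by_cases hr : r < m
  · have h2 : HasHeight 1 (X ^ r * KStar.kstar (X ^ m) * T) :=
      (((hX.mono zero_le_one).pow r).mul (hX.pow m).star).mul (hT.mono zero_le_one)
    refine h2.congr (fun w => ?_)
    change f w % m = r ↔ w ∈ X ^ r * KStar.kstar (X ^ m) * T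
    rw [Language.kstar_eq_iSup_pow, Language.mul_iSup, Language.iSup_mul, Language.mem_iSup]
    constructor
    · intro h
      refine ⟨f w / m, ?_⟩
      rw [← pow_mul, ← pow_add, ← key, ← h]
      exact (Nat.mod_add_div (f w) m).symm
    · rintro ⟨i, hi⟩
      rw [← pow_mul, ← pow_add, ← key] at hi
      rw [hi, Nat.add_mul_mod_self_left, Nat.mod_eq_of_lt hr]
  · refine HasHeight.zero.congr (fun w => ?_)
    change f w % m = r ↔ w ∈ (0 : Language α)
    constructor
    · intro h
      exact absurd (h ▸ Nat.mod_lt _ hm) hr
    · intro h
      exact absurd h (Language.notMem_zero w)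

theorem count_part [DecidableEq α] (b : α) (m r : ℕ) (hm : 0 < m) :
    HasHeight 1 ({w | w.count b % m = r} : Language α) := by
  apply general (avoid {b} * {[b]}) (avoid {b})
    ((avoid_height _).mul (HasHeight.char b)) (avoid_height _) (fun w => w.count b)
  · intro w
    rw [mem_avoid]
    simp only [Finset.mem_singleton]
    rw [List.count_eq_zero]
    constructor
    · rintro h c hc rfl
      exact h hc
    · intro h hb
      exact h b hb rfl
  · intro j w
    have := skip {b} (lev (fun w => w.count b) (j + 1))
      (fun _ => lev (fun w => w.count b) j) ?_ ?_ w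
    · rw [← mem_lev (fun w => w.count b), this]
      constructor
      · rintro (⟨_, h⟩ | ⟨c, hc, h⟩)
        · exfalso
          change ([] : List α).count b = j + 1 at h
          simp at h
        · rw [Finset.mem_singleton] at hc
          subst hc
          exact h
      · intro h
        exact Or.inr ⟨b, Finset.mem_singleton_self b, h⟩
    · intro c hc w
      change (c :: w).count b = j + 1 ↔ w.count b = j + 1
      rw [List.count_cons_of_ne (by rintro rfl; exact hc (Finset.mem_singleton_self _))]
    · intro c hc w
      rw [Finset.mem_singleton] at hc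
      subst hc
      change (c :: w).count c = j + 1 ↔ w.count c = j
      rw [List.count_cons_self]
      omega
  · exact hm

end Vale.Agent.P329
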