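import Vale.Agent.P329.Count

namespace Vale.Agent.P329

variable {α : Type}

/-- Number of items completed. -/
def itm [DecidableEq α] {k : ℕ} (b a : α) : ZMod k → List α → ℕ
  | _, [] => 0
  | t, c :: w => if c = b then (if t + 1 = 0 then 1 else 0) + itm b a (t + 1) w
      else (if c = a ∧ t = 0 then 1 else 0) + itm b a t w

theorem itm_eq [DecidableEq α] {k : ℕ} [NeZero k] (b a : α) (w : List α) :
    ∀ t : ZMod k, itm b a t w = cnt b a t w + (t.val + w.count b) / k := by
  have hk : 0 < k := Nat.pos_of_ne_zero (NeZero.ne k)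
  induction w with
  | nil =>
    intro t
    simp only [itm, cnt, List.count_nil, add_zero]
    rw [Nat.div_eq_of_lt (ZMod.val_lt t)]
  | cons c w ih =>
    intro t
    by_cases hc : c = b
    · subst hc
      simp only [itm, cnt, if_true, List.count_cons_self]
      rw [ih (t + 1)]
      by_cases ht : t + 1 = 0
      · rw [if_pos ht, ht, ZMod.val_zero]
        have hv : t.val + 1 = k := by
          have h1 : t.val < k := ZMod.val_lt t
          have h2 : ((t.val + 1 : ℕ) : ZMod k) = 0 := by
            push_cast
            rw [ZMod.natCast_zmod_val]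
            exact ht
          rw [ZMod.natCast_eq_zero_iff] at h2
          have := Nat.le_of_dvd (by omega) h2
          omega
        have e : t.val + (w.count c + 1) = k + (0 + w.count c) := by omega
        rw [e, Nat.add_div_left _ hk]
        omega
      · rw [if_neg ht]
        have hv : (t + 1).val = t.val + 1 := by
          have h1 : t.val < k := ZMod.val_lt t
          have h3 : t.val + 1 ≠ k := by
            intro h
            apply ht
            have h2 : ((t.val + 1 : ℕ) : ZMod k) = 0 := by rw [h]; simp
            push_cast at h2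
            rwa [ZMod.natCast_zmod_val] at h2
          have h4 : ((t.val + 1 : ℕ) : ZMod k) = t + 1 := by
            push_cast
            rw [ZMod.natCast_zmod_val]
          rw [← h4, ZMod.val_natCast, Nat.mod_eq_of_lt (by omega)]
        rw [hv]
        have e : t.val + (w.count c + 1) = t.val + 1 + w.count c := by omega
        rw [e]
        omega
    · simp only [itm, cnt, if_neg hc, List.count_cons_of_ne (fun h => hc h)]
      rw [ih t]
      omega

variable [DecidableEq α] {k : ℕ} [NeZero k]

/-- A block without `b`, followed by `b`. -/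
def blk (b : α) : Language α := avoid {b} * {[b]}

theorem blk_height (b : α) : HasHeight 0 (blk b) := (avoid_height _).mul (HasHeight.char b)

theorem neg_ne_zero' {s : ℕ} (h1 : 1 ≤ s) (h2 : s < k) : (-(s : ZMod k)) ≠ 0 := by
  intro h
  rw [neg_eq_zero, ZMod.natCast_eq_zero_iff] at h
  have := Nat.le_of_dvd (by omega) h
  omega

theorem itm_skip (b a : α) (t : ZMod k) (ht : t ≠ 0) (c : α) (hc : c ∉ ({b} : Finset α))
    (w : List α) : itm b a t (c :: w) = itm b a t w := by
  have hc' : c ≠ b := by
    rintro rfl
    exact hc (Finset.mem_singleton_self _)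
  simp [itm, hc', ht]

/-- Words on which `Q (f w)` holds. -/
def levQ (f : List α → ℕ) (Q : ℕ → Prop) : Language α := {v | Q (f v)}

omit [DecidableEq α] in
theorem mem_levQ (f : List α → ℕ) (Q : ℕ → Prop) (w : List α) : w ∈ levQ f Q ↔ Q (f w) := Iff.rfl

/-- General form of the skip lemma at a nonzero state. -/
theorem state_skip (b a : α) (t : ZMod k) (ht : t ≠ 0) (Q : ℕ → Prop) (w : List α) :
    Q (itm b a t w) ↔ ((w ∈ avoid {b} ∧ Q 0) ∨
      w ∈ blk b * levQ (fun v => (if t + 1 = 0 then 1 else 0) + itm b a (t + 1) v) Q) := by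
  have := skip {b} (levQ (itm b a t) Q)
    (fun _ => levQ (fun v => (if t + 1 = 0 then 1 else 0) + itm b a (t + 1) v) Q) ?_ ?_ w
  · rw [← mem_levQ (itm b a t) Q, this]
    constructor
    · rintro (⟨h1, h2⟩ | ⟨c, hc, h⟩)
      · left; exact ⟨h1, h2⟩
      · rw [Finset.mem_singleton] at hc
        subst hc
        right; exact h
    · rintro (⟨h1, h2⟩ | h)
      · left; exact ⟨h1, h2⟩
      · right; exact ⟨b, Finset.mem_singleton_self b, h⟩
  · intro c hc w
    rw [mem_levQ, mem_levQ, itm_skip b a t ht c hc w]
  · intro c hc w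
    rw [Finset.mem_singleton] at hc
    subst hc
    rw [mem_levQ, mem_levQ]
    simp only [itm, if_true]

theorem neg_succ_add (s : ℕ) : (-((s + 1 : ℕ) : ZMod k)) + 1 = -(s : ZMod k) := by
  push_cast; ring

theorem lev_succ (b a : α) (s : ℕ) (hs : s + 1 < k) (j : ℕ) (w : List α) :
    itm b a (-((s + 1 : ℕ) : ZMod k)) w = j + 1 ↔
      w ∈ blk b ^ (s + 1) * lev (itm b a (0 : ZMod k)) j := by
  induction s generalizing w with
  | zero =>
    rw [state_skip b a _ (neg_ne_zero' (by omega) hs) (fun x => x = j + 1)]
    rw [neg_succ_add]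
    simp only [Nat.cast_zero, neg_zero, if_true, zero_add, pow_one]
    have e : levQ (fun v => 1 + itm b a (0 : ZMod k) v) (fun x => x = j + 1) =
        lev (itm b a (0 : ZMod k)) j := by
      ext v
      rw [mem_levQ, mem_lev]
      omega
    rw [e]
    constructor
    · rintro (⟨_, h⟩ | h)
      · omega
      · exact h
    · intro h; right; exact h
  | succ s ih =>
    rw [state_skip b a _ (neg_ne_zero' (by omega) hs) (fun x => x = j + 1)]
    rw [neg_succ_add]
    rw [if_neg (neg_ne_zero' (by omega) (by omega))]
    have e : levQ (fun v => 0 + itm b a (-((s + 1 : ℕ) : ZMod k)) v) (fun x => x = j + 1) =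
        blk b ^ (s + 1) * lev (itm b a (0 : ZMod k)) j := by
      ext v
      rw [mem_levQ, zero_add]
      exact ih (by omega) v
    rw [e, pow_succ' _ (s + 1), mul_assoc]
    constructor
    · rintro (⟨_, h⟩ | h)
      · omega
      · exact h
    · intro h; right; exact h

theorem lev_zero_height (b a : α) (s : ℕ) (hs : s + 1 < k) :
    HasHeight 0 (lev (itm b a (-((s + 1 : ℕ) : ZMod k))) 0) := by
  induction s with
  | zero =>
    refine (avoid_height {b}).congr (fun w => ?_)
    rw [mem_lev, state_skip b a _ (neg_ne_zero' (by omega) hs) (fun x => x = 0)]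
    rw [neg_succ_add]
    simp only [Nat.cast_zero, neg_zero, if_true, and_true]
    constructor
    · rintro (h | h)
      · exact h
      · rw [Language.mem_mul] at h
        obtain ⟨_, _, y, hy, _⟩ := h
        rw [mem_levQ] at hy
        omega
    · intro h; left; exact h
  | succ s ih =>
    refine ((avoid_height {b}).add ((blk_height b).mul (ih (by omega)))).congr (fun w => ?_)
    rw [mem_lev, state_skip b a _ (neg_ne_zero' (by omega) hs) (fun x => x = 0)]
    rw [neg_succ_add]
    rw [if_neg (neg_ne_zero' (by omega) (by omega))]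
    have e : levQ (fun v => 0 + itm b a (-((s + 1 : ℕ) : ZMod k)) v) (fun x => x = 0) =
        lev (itm b a (-((s + 1 : ℕ) : ZMod k))) 0 := by
      ext v
      rw [mem_levQ, zero_add, mem_lev]
    rw [e, Language.mem_add]
    simp

/-- The skip lemma at state zero. -/
theorem zero_skip (hk : 2 ≤ k) (b a : α) (hab : a ≠ b) (Q : ℕ → Prop) (w : List α) :
    Q (itm b a (0 : ZMod k) w) ↔ ((w ∈ avoid {a, b} ∧ Q 0) ∨
      w ∈ avoid {a, b} * {[a]} * levQ (fun v => 1 + itm b a (0 : ZMod k) v) Q ∨
      w ∈ avoid {a, b} * {[b]} * levQ (fun v => itm b a (1 : ZMod k) v) Q) := by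
  have h10 : (1 : ZMod k) ≠ 0 := by
    have : Fact (1 < k) := ⟨by omega⟩
    exact one_ne_zero
  have := skip {a, b} (levQ (itm b a (0 : ZMod k)) Q)
    (fun c => if c = a then levQ (fun v => 1 + itm b a (0 : ZMod k) v) Q
      else levQ (fun v => itm b a (1 : ZMod k) v) Q) ?_ ?_ w
  · rw [← mem_levQ (itm b a (0 : ZMod k)) Q, this]
    constructor
    · rintro (⟨h1, h2⟩ | ⟨c, hc, h⟩)
      · left; exact ⟨h1, h2⟩
      · right
        rw [Finset.mem_insert, Finset.mem_singleton] at hc
        rcases hc with rfl | rfl
        · left; rwa [if_pos rfl] at h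
        · right; rwa [if_neg (Ne.symm hab)] at h
    · rintro (⟨h1, h2⟩ | h | h)
      · left; exact ⟨h1, h2⟩
      · right; refine ⟨a, by simp, ?_⟩; rw [if_pos rfl]; exact h
      · right; refine ⟨b, by simp, ?_⟩; rw [if_neg (Ne.symm hab)]; exact h
  · intro c hc w
    rw [mem_levQ, mem_levQ]
    have h1 : c ≠ a := by rintro rfl; exact hc (by simp)
    have h2 : c ≠ b := by rintro rfl; exact hc (by simp)
    simp [itm, h1, h2]
  · intro c hc w
    rw [Finset.mem_insert, Finset.mem_singleton] at hc
    rcases hc with rfl | rfl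
    · rw [if_pos rfl, mem_levQ, mem_levQ]
      simp [itm, hab]
    · rw [if_neg (Ne.symm hab), mem_levQ, mem_levQ]
      simp [itm, h10]

theorem one_eq (hk : 2 ≤ k) : (1 : ZMod k) = -(((k - 2) + 1 : ℕ) : ZMod k) := by
  have : (((k - 2) + 1 : ℕ) : ZMod k) + 1 = 0 := by
    have h : (((k - 2) + 1 + 1 : ℕ) : ZMod k) = 0 := by
      have e : (k - 2) + 1 + 1 = k := by omega
      rw [e]; simp
    push_cast at h ⊢
    exact h
  exact (neg_eq_of_add_eq_zero_right this).symm

/-- The item language. -/
def X (k : ℕ) (b a : α) : Language α :=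
  avoid {a, b} * {[a]} + avoid {a, b} * {[b]} * blk b ^ ((k - 2) + 1)

theorem itm_zero_height (hk : 2 ≤ k) (b a : α) (hab : a ≠ b) (m r : ℕ) (hm : 0 < m) :
    HasHeight 1 ({w | itm b a (0 : ZMod k) w % m = r} : Language α) := by
  apply general (X k b a) (lev (itm b a (0 : ZMod k)) 0) _ _ (itm b a (0 : ZMod k)) _ _ m r hm
  · exact ((avoid_height _).mul (HasHeight.char a)).add
      (((avoid_height _).mul (HasHeight.char b)).mul ((blk_height b).pow _))
  · refine ((avoid_height {a, b}).add (((avoid_height {a, b}).mul (HasHeight.char b)).mul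
      (lev_zero_height (k := k) b a (k - 2) (by omega)))).congr (fun w => ?_)
    rw [mem_lev, zero_skip hk b a hab (fun x => x = 0), Language.mem_add]
    have e : levQ (fun v => itm b a (1 : ZMod k) v) (fun x => x = 0) =
        lev (itm b a (-(((k - 2) + 1 : ℕ) : ZMod k))) 0 := by
      ext v
      rw [mem_levQ, mem_lev, ← one_eq hk]
    rw [e]
    constructor
    · rintro (h | h | h)
      · left; exact h.1
      · rw [Language.mem_mul] at h
        obtain ⟨_, _, y, hy, _⟩ := h
        rw [mem_levQ] at hy
        omega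
      · right; exact h
    · rintro (h | h)
      · left; exact ⟨h, rfl⟩
      · right; right; exact h
  · intro w
    rw [mem_lev]
  · intro j w
    rw [zero_skip hk b a hab (fun x => x = j + 1), X, add_mul, Language.mem_add]
    have e1 : levQ (fun v => 1 + itm b a (0 : ZMod k) v) (fun x => x = j + 1) =
        lev (itm b a (0 : ZMod k)) j := by
      ext v
      rw [mem_levQ, mem_lev]
      omega
    have e2 : levQ (fun v => itm b a (1 : ZMod k) v) (fun x => x = j + 1) =
        blk b ^ ((k - 2) + 1) * lev (itm b a (0 : ZMod k)) j := by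
      ext v
      rw [mem_levQ, one_eq hk, lev_succ b a (k - 2) (by omega)]
    rw [e1, e2, ← mul_assoc]
    constructor
    · rintro (h | h | h)
      · omega
      · left; exact h
      · right; exact h
    · rintro (h | h)
      · right; left; exact h
      · right; right; exact h

end Vale.Agent.P329
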