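import Vale.Agent.P329.Lang

/-! # P329: counting a letter modulo `m` -/

namespace Vale.Agent.P329

variable {α : Type} [DecidableEq α]

/-- Words ending at their only occurrence of `b`. -/
def Xb (b : α) : Language α := avoid {b} * {[b]}

/-- Words with exactly `j` occurrences of `b`. -/
def Pb (b : α) (j : ℕ) : Language α := {w | w.count b = j}

theorem mem_Pb (b : α) (j : ℕ) (w : List α) : w ∈ Pb b j ↔ w.count b = j := Iff.rfl

theorem Pb_succ (b : α) (j : ℕ) : Pb b (j + 1) = Xb b * Pb b j := by
  ext w
  have h := skip ({b} : Finset α) (Pb b (j + 1)) (fun _ => Pb b j)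
    (by
      intro c hc w
      have hc' : c ≠ b := by simpa using hc
      rw [mem_Pb, mem_Pb, List.count_cons_of_ne hc'])
    (by
      intro c hc w
      have hc' : c = b := by simpa using hc
      subst hc'
      rw [mem_Pb, mem_Pb, List.count_cons_self]
      omega) w
  rw [h]
  constructor
  · rintro (h | ⟨c, hc, h⟩)
    · have := h.2
      rw [mem_Pb] at this
      simp at this
    · have hc' : c = b := by simpa using hc
      subst hc'
      exact h
  · intro h
    right
    exact ⟨b, by simp, h⟩

theorem Pb_add (b : α) (i j : ℕ) : Pb b (i + j) = (Xb b) ^ i * Pb b j := by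
  induction i with
  | zero => rw [zero_add, pow_zero, one_mul]
  | succ i ih =>
    have : i + 1 + j = (i + j) + 1 := by omega
    rw [this, Pb_succ, ih, pow_succ', mul_assoc]

theorem Pb_zero (b : α) : Pb b 0 = avoid {b} := by
  ext w
  rw [mem_Pb, mem_avoid, List.count_eq_zero]
  constructor
  · intro h c hc hcb
    have : c = b := by simpa using hcb
    subst this
    exact h hc
  · intro h hb
    exact h b hb (by simp)

theorem Xb_height (b : α) : HasHeight 0 (Xb b) := (avoid_height {b}).mul (HasHeight.char b)

theorem Pb_height (b : α) (j : ℕ) : HasHeight 0 (Pb b j) := by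
  have h := Pb_add b j 0
  rw [add_zero, Pb_zero] at h
  rw [h]
  exact ((Xb_height b).pow j).mul (avoid_height {b})

theorem count_part (b : α) (m r : ℕ) (hm : 0 < m) :
    HasHeight 1 ({w | w.count b % m = r} : Language α) := by
  by_cases hr : r < m
  · have h1 : HasHeight 1 (KStar.kstar ((Xb b) ^ m) * Pb b r) :=
      (((Xb_height b).pow m).star).mul ((Pb_height b r).mono (Nat.zero_le 1))
    refine h1.congr (fun w => ?_)
    change w.count b % m = r ↔ _
    constructor
    · intro hw
      have h2 : w ∈ Pb b (m * (w.count b / m) + r) := by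
        rw [mem_Pb, ← hw]
        exact (Nat.div_add_mod _ _).symm
      rw [Pb_add, pow_mul] at h2
      rw [Language.mem_mul] at h2 ⊢
      obtain ⟨x, hx, y, hy, rfl⟩ := h2
      refine ⟨x, ?_, y, hy, rfl⟩
      rw [Language.kstar_eq_iSup_pow, Language.mem_iSup]
      exact ⟨_, hx⟩
    · intro hw
      rw [Language.mem_mul] at hw
      obtain ⟨x, hx, y, hy, rfl⟩ := hw
      rw [Language.kstar_eq_iSup_pow, Language.mem_iSup] at hx
      obtain ⟨q, hx⟩ := hx
      have h2 : x ++ y ∈ Pb b (m * q + r) := by
        rw [Pb_add, pow_mul, Language.mem_mul]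
        exact ⟨x, hx, y, hy, rfl⟩
      rw [mem_Pb] at h2
      rw [h2, Nat.mul_add_mod, Nat.mod_eq_of_lt hr]
  · refine (HasHeight.zero (n := 1) (α := α)).congr (fun w => ?_)
    constructor
    · intro hw
      exact absurd (hw ▸ Nat.mod_lt _ hm : r < m) hr
    · intro hw
      exact absurd hw (Language.notMem_zero w)

end Vale.Agent.P329
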