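import Mathlib

namespace Vale.Agent.P329

theorem cyc {p : ℕ} [Fact p.Prime] (N : ℕ) (d : ZMod p → ℤ) (g : ZMod p) (hg : g ≠ 0)
    (h1 : ∀ q, ((N : ℤ) * p) ∣ d (q + g) - d q) (h2 : ((N : ℤ) * p) ∣ ∑ q, d q) (q : ZMod p) :
    (N : ℤ) ∣ d q := by
  have key : ∀ n : ℕ, ((N : ℤ) * p) ∣ d ((n : ZMod p) * g) - d 0 := by
    intro n
    induction n with
    | zero => simp
    | succ n ih =>
      have e : ((n + 1 : ℕ) : ZMod p) * g = (n : ZMod p) * g + g := by push_cast; ring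
      rw [e]
      have := dvd_add (h1 ((n : ZMod p) * g)) ih
      have e2 : d ((n : ZMod p) * g + g) - d ((n : ZMod p) * g) + (d ((n : ZMod p) * g) - d 0) =
          d ((n : ZMod p) * g + g) - d 0 := by ring
      rwa [e2] at this
  have key2 : ∀ q : ZMod p, ((N : ℤ) * p) ∣ d q - d 0 := by
    intro q
    have := key (q * g⁻¹).val
    rw [ZMod.natCast_zmod_val] at this
    rwa [mul_assoc, inv_mul_cancel₀ hg, mul_one] at this
  have hs : ((N : ℤ) * p) ∣ ∑ q : ZMod p, (d q - d 0) := Finset.dvd_sum (fun q _ => key2 q)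
  rw [Finset.sum_sub_distrib, Finset.sum_const, Finset.card_univ, ZMod.card, nsmul_eq_mul] at hs
  have h3 : ((N : ℤ) * p) ∣ (p : ℤ) * d 0 := by
    have := dvd_sub h2 hs
    rwa [sub_sub_cancel] at this
  have hp : (p : ℤ) ≠ 0 := by
    have := (Fact.out : p.Prime).pos
    positivity
  have h4 : (N : ℤ) ∣ d 0 := by
    rw [mul_comm] at h3
    exact (mul_dvd_mul_iff_left hp).1 h3
  have h5 : (N : ℤ) ∣ d q - d 0 := (dvd_mul_right _ _).trans (key2 q)
  have := dvd_add h5 h4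
  rwa [sub_add_cancel] at this

end Vale.Agent.P329
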