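import Mathlib

/-!
# P329: generalized regular expressions and generalized star height
-/

namespace Vale.Agent.P329

/-- Generalized regular expressions over the alphabet `α`. -/
inductive GRE (α : Type) : Type
  | zero : GRE α
  | one : GRE α
  | char : α → GRE α
  | plus : GRE α → GRE α → GRE α
  | comp : GRE α → GRE α → GRE α
  | neg : GRE α → GRE α
  | star : GRE α → GRE α

/-- The language denoted by an expression. -/
def GRE.lang {α : Type} : GRE α → Language α
  | .zero => 0
  | .one => 1
  | .char a => {[a]}
  | .plus P Q => P.lang + Q.lang
  | .comp P Q => P.lang * Q.lang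
  | .neg P => {w | w ∉ P.lang}
  | .star P => KStar.kstar P.lang

/-- Star height. -/
def GRE.sh {α : Type} : GRE α → ℕ
  | .zero => 0
  | .one => 0
  | .char _ => 0
  | .plus P Q => max P.sh Q.sh
  | .comp P Q => max P.sh Q.sh
  | .neg P => P.sh
  | .star P => P.sh + 1

/-- The language `L` is denoted by an expression of star height at most `n`. -/
def HasHeight {α : Type} (n : ℕ) (L : Language α) : Prop :=
  ∃ E : GRE α, E.sh ≤ n ∧ E.lang = L

/-- Number of occurrences of `a` at positions where the state is `0`; the state starts at `t` and
each occurrence of `b` adds one to it. -/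
def cnt {α : Type} [DecidableEq α] {k : ℕ} (b a : α) : ZMod k → List α → ℕ
  | _, [] => 0
  | t, c :: w => if c = b then cnt b a (t + 1) w
      else (if c = a ∧ t = 0 then 1 else 0) + cnt b a t w

end Vale.Agent.P329
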