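import Vale.Agent.P329.Final2

/-! # P329: the subdirect product form of the result -/

namespace Vale.Agent.P329

theorem main3 {ι G α : Type} [Finite ι] [Group G] [Finite G] [Finite α] (H : ι → Type)
    [∀ i, Group (H i)] [∀ i, Finite (H i)] (f : ∀ i, G →* H i)
    (hf : ∀ x : G, (∀ i, f i x = 1) → x = 1) (N : ∀ i, Subgroup (H i)) [∀ i, (N i).Normal]
    (hN : ∀ i, ∀ x ∈ N i, ∀ y ∈ N i, x * y = y * x) (φ : α → G) (g : ∀ i, H i)
    (hφ : ∀ i a, f i (φ a) ∈ N i ∨ f i (φ a) = g i) (S : Set G) :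
    HasHeight 1 ({w | (w.map φ).prod ∈ S} : Language α) := by
  classical
  have : Fintype G := Fintype.ofFinite G
  have : Fintype ι := Fintype.ofFinite ι
  have hm : ∀ (i : ι) (w : List α), f i (w.map φ).prod = (w.map (fun a => f i (φ a))).prod := by
    intro i w
    rw [map_list_prod, List.map_map]
    rfl
  have hx : ∀ x : G, HasHeight 1 ({w | ∀ i ∈ (Finset.univ : Finset ι),
      w ∈ ({w | (w.map (fun a => f i (φ a))).prod ∈ ({f i x} : Set (H i))} : Language α)} :
        Language α) := fun x =>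
    HasHeight.iInter _ _ (fun i _ => main2 (N i) (hN i) (fun a => f i (φ a)) (g i)
      (fun a => hφ i a) {f i x})
  have hU := HasHeight.iUnion (n := 1) (Finset.univ.filter (fun x : G => x ∈ S)) _
    (fun x _ => hx x)
  refine hU.congr (fun w => ?_)
  change (w.map φ).prod ∈ S ↔ ∃ x ∈ Finset.univ.filter (fun x : G => x ∈ S),
    ∀ i ∈ (Finset.univ : Finset ι), (w.map (fun a => f i (φ a))).prod = f i x
  constructor
  · intro h
    exact ⟨_, Finset.mem_filter.mpr ⟨Finset.mem_univ _, h⟩, fun i _ => (hm i w).symm⟩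
  · rintro ⟨x, hxS, h⟩
    have e : (w.map φ).prod * x⁻¹ = 1 := by
      apply hf
      intro i
      rw [map_mul, map_inv, hm i w, h i (Finset.mem_univ i), mul_inv_cancel]
    have e2 : (w.map φ).prod = x := mul_inv_eq_one.mp e
    rw [e2]
    exact (Finset.mem_filter.mp hxS).2

end Vale.Agent.P329
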