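import Vale.Agent.P329.AvgE

/-! # P329: the group-theoretic part, all letters, general abelian quotient -/

namespace Vale.Agent.P329

theorem group_E {G α E : Type} [Group G] [Finite G] (N : Subgroup G)
    (hN : ∀ x ∈ N, ∀ y ∈ N, x * y = y * x) [Fintype α] [DecidableEq α]
    [AddCommGroup E] [Fintype E] [DecidableEq E] (φ : α → G)
    (t : E → G) (pi : α → E) (ht : ∀ s a, t s * φ a * (t (s + pi a))⁻¹ ∈ N) (w w2 : List α)
    (hb : (w.map pi).sum = (w2.map pi).sum)
    (hc : ∀ a, ∀ s : E, cntE pi a s 0 w % Nat.card G = cntE pi a s 0 w2 % Nat.card G) :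
    (w.map φ).prod = (w2.map φ).prod := by
  classical
  let _ : CommGroup N := { (inferInstance : Group N) with
    mul_comm := fun x y => Subtype.ext (hN x x.2 y y.2) }
  let c : E → α → N := fun s a => ⟨t s * φ a * (t (s + pi a))⁻¹, ht s a⟩
  let W : E → List α → N := fun u w => ∏ a : α, ∏ s : E, c s a ^ cntE pi a s u w
  have hWa : ∀ u x w, W u (x :: w) = c u x * W (u + pi x) w := by
    intro u x w
    have e1 : ∀ (a : α) (s : E), c s a ^ cntE pi a s u (x :: w) =
        (c s a ^ (if x = a ∧ u = s then 1 else 0)) * c s a ^ cntE pi a s (u + pi x) w := by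
      intro a s
      simp only [cntE, pow_add]
    show (∏ a : α, ∏ s : E, c s a ^ cntE pi a s u (x :: w)) = _
    simp only [e1, Finset.prod_mul_distrib]
    congr 1
    rw [Finset.prod_eq_single x]
    · rw [Finset.prod_eq_single u]
      · simp
      · intro s _ hs
        have : ¬ (u = s) := fun h0 => hs h0.symm
        simp [this]
      · intro h0
        exact absurd (Finset.mem_univ _) h0
    · intro a _ ha
      refine Finset.prod_eq_one fun s _ => ?_
      have : ¬ (x = a ∧ u = s) := fun h0 => ha h0.1.symm
      rw [if_neg this, pow_zero]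
    · intro h0
      exact absurd (Finset.mem_univ _) h0
  have key : ∀ (w : List α) (u : E), t u * (w.map φ).prod =
      (W u w : G) * t (u + (w.map pi).sum) := by
    intro w
    induction w with
    | nil =>
      intro u
      have : W u [] = 1 := by
        refine Finset.prod_eq_one fun a _ => Finset.prod_eq_one fun s _ => ?_
        simp [cntE]
      simp [this]
    | cons x w ih =>
      intro u
      rw [List.map_cons, List.prod_cons, hWa u x w, List.map_cons, List.sum_cons]
      have e2 : ((c u x : N) : G) = t u * φ x * (t (u + pi x))⁻¹ := rfl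
      have e3 : u + (pi x + (w.map pi).sum) = u + pi x + (w.map pi).sum := by
        rw [add_assoc]
      rw [Subgroup.coe_mul, e2, e3, mul_assoc (t u * φ x * (t (u + pi x))⁻¹),
        ← ih (u + pi x)]
      group
  have hW : W 0 w = W 0 w2 := by
    refine Finset.prod_congr rfl fun a _ => Finset.prod_congr rfl fun s _ => ?_
    have hcard : (c s a) ^ Nat.card G = 1 := by
      apply Subtype.ext
      rw [Subgroup.coe_pow]
      exact pow_card_eq_one'
    rw [pow_eq_pow_mod _ hcard, hc a, ← pow_eq_pow_mod _ hcard]
  have k1 := key w 0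
  have k2 := key w2 0
  rw [hW, hb] at k1
  exact mul_left_cancel (k1.trans k2.symm)

end Vale.Agent.P329
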