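import Vale.Agent.P329.AllMain
import Vale.Agent.P329.AvgE
import Vale.Agent.P329.GroupE

/-! # P329: languages recognized by abelian-by-(elementary abelian) finite groups -/

namespace Vale.Agent.P329

open StH

theorem main_E {G α E : Type} [Group G] [Finite G] [Finite α] [AddCommGroup E] [Finite E]
    {p : ℕ} [Fact p.Prime] [Module (ZMod p) E] (N : Subgroup G) [N.Normal]
    (hN : ∀ x ∈ N, ∀ y ∈ N, x * y = y * x) (q : G → E) (hq : ∀ g h, q (g * h) = q g + q h)
    (hsurj : Function.Surjective q) (hker : ∀ g, q g = 0 → g ∈ N) (φ : α → G) (S : Set G) :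
    HasHeight 1 ({w | (w.map φ).prod ∈ S} : Language α) := by
  classical
  have := Fintype.ofFinite α
  have := Fintype.ofFinite E
  haveI : Finite (E →ₗ[ZMod p] ZMod p) := DFunLike.finite _
  letI : Fintype (E →ₗ[ZMod p] ZMod p) := Fintype.ofFinite _
  have hp2 : 2 ≤ p := (Fact.out : p.Prime).two_le
  have hM : 0 < Nat.card G * ((p - 1) * Fintype.card (E →ₗ[ZMod p] ZMod p)) :=
    Nat.mul_pos Nat.card_pos (Nat.mul_pos (by omega) Fintype.card_pos)
  obtain ⟨M, hMdef⟩ : ∃ M, M = Nat.card G * ((p - 1) * Fintype.card (E →ₗ[ZMod p] ZMod p)) :=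
    ⟨_, rfl⟩
  rw [← hMdef] at hM
  have hq1 : q 1 = 0 := by
    have := hq 1 1
    rw [mul_one] at this
    simpa using this
  have hqi : ∀ g, q g⁻¹ = - q g := by
    intro g
    have := hq g⁻¹ g
    rw [inv_mul_cancel, hq1] at this
    exact eq_neg_of_add_eq_zero_left this.symm
  obtain ⟨t, ht⟩ := hsurj.hasRightInverse
  have hmem : ∀ (s : E) (a : α), t s * φ a * (t (s + q (φ a)))⁻¹ ∈ N := by
    intro s a
    apply hker
    rw [hq, hq, hqi, ht, ht]
    abel
  refine good_det (ι := (α × (E →ₗ[ZMod p] ZMod p) × ZMod p) ⊕ (E →ₗ[ZMod p] ZMod p))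
    (fun i w => match i with
    | Sum.inl a => cnts (fun b => a.2.1 (q (φ b))) a.1 a.2.2 0 w % M
    | Sum.inr l => ((w.map (fun b => l (q (φ b)))).sum).val) (M + p) ?_ ?_ _ ?_
  · rintro (⟨a, l, s⟩ | l) w
    · exact lt_of_lt_of_le (Nat.mod_lt _ hM) (Nat.le_add_right _ _)
    · exact lt_of_lt_of_le (ZMod.val_lt _) (Nat.le_add_left _ _)
  · rintro (⟨a, l, s⟩ | l) r
    · exact cnts_height (fun b => l (q (φ b))) a M hM s 0 r
    · by_cases hr : r < p
      · refine (sum_height (fun b => l (q (φ b))) ((r : ℕ) : ZMod p)).congr (fun w => ?_)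
        change ((w.map (fun b => l (q (φ b)))).sum).val = r ↔
          (w.map (fun b => l (q (φ b)))).sum = ((r : ℕ) : ZMod p)
        constructor
        · intro h
          rw [← h, ZMod.natCast_zmod_val]
        · intro h
          rw [h, ZMod.val_natCast, Nat.mod_eq_of_lt hr]
      · refine (HasHeight.zero (n := 1) (α := α)).congr (fun w => ?_)
        change ((w.map (fun b => l (q (φ b)))).sum).val = r ↔ w ∈ (0 : Language α)
        constructor
        · intro h
          exact absurd (h ▸ ZMod.val_lt _) hr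
        · intro h
          exact absurd h (Language.notMem_zero w)
  · intro w w2 hww hS
    have hl : ∀ (l : E →ₗ[ZMod p] ZMod p) (w : List α),
        l ((w.map (fun b => q (φ b))).sum) = (w.map (fun b => l (q (φ b)))).sum := by
      intro l w
      induction w with
      | nil => simp
      | cons x w ih => simp [ih]
    have e : (w.map φ).prod = (w2.map φ).prod := by
      apply group_E N hN φ t (fun b => q (φ b)) hmem w w2
      · rw [← sub_eq_zero, ← Module.forall_dual_apply_eq_zero_iff (ZMod p)]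
        intro l
        have h1 := hww (Sum.inr l)
        have h2 := ZMod.val_injective p h1
        rw [map_sub, hl l w, hl l w2, h2, sub_self]
      · intro a s
        apply avgE (p := p) (fun b => q (φ b)) a s w w2 (Nat.card G)
        intro l c
        rw [← hMdef]
        exact hww (Sum.inl (a, l, c))
    rw [← e]
    exact hS

theorem main_elem {G α : Type} [Group G] [Finite G] [Finite α] (p : ℕ) [Fact p.Prime]
    (N : Subgroup G) [N.Normal] (hN : ∀ x ∈ N, ∀ y ∈ N, x * y = y * x)
    (hc : ∀ g h : G, g * h * g⁻¹ * h⁻¹ ∈ N) (hpow : ∀ g : G, g ^ p ∈ N)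
    (φ : α → G) (S : Set G) :
    HasHeight 1 ({w | (w.map φ).prod ∈ S} : Language α) := by
  letI : CommGroup (G ⧸ N) := { (inferInstance : Group (G ⧸ N)) with
    mul_comm := by
      intro a b
      obtain ⟨g, rfl⟩ := QuotientGroup.mk_surjective a
      obtain ⟨h, rfl⟩ := QuotientGroup.mk_surjective b
      have h1 : ((g * h * g⁻¹ * h⁻¹ : G) : G ⧸ N) = 1 := (QuotientGroup.eq_one_iff _).mpr (hc g h)
      rw [QuotientGroup.mk_mul, QuotientGroup.mk_mul, QuotientGroup.mk_mul,
        QuotientGroup.mk_inv, QuotientGroup.mk_inv, mul_inv_eq_one, mul_inv_eq_iff_eq_mul] at h1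
      exact h1 }
  letI : Module (ZMod p) (Additive (G ⧸ N)) := AddCommGroup.zmodModule (by
    intro x
    obtain ⟨g, hg⟩ := QuotientGroup.mk_surjective (Additive.toMul x)
    have h1 : ((g ^ p : G) : G ⧸ N) = 1 := (QuotientGroup.eq_one_iff _).mpr (hpow g)
    rw [QuotientGroup.mk_pow, hg] at h1
    exact h1)
  haveI : Finite (Additive (G ⧸ N)) := inferInstanceAs (Finite (G ⧸ N))
  refine main_E (p := p) N hN (E := Additive (G ⧸ N))
    (fun g => Additive.ofMul ((g : G) : G ⧸ N)) ?_ ?_ ?_ φ S
  · intro g h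
    rfl
  · intro x
    obtain ⟨g, hg⟩ := QuotientGroup.mk_surjective (Additive.toMul x)
    exact ⟨g, hg⟩
  · intro g h
    exact (QuotientGroup.eq_one_iff _).mp h

end Vale.Agent.P329
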