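import Vale.Agent.P329.CntsH
import Vale.Agent.P329.AvgE

namespace Vale.Agent.P329

theorem group_E3 {G α E : Type} [Group G] [Finite G] (N : Subgroup G)
    (hN : ∀ x ∈ N, ∀ y ∈ N, x * y = y * x) [Fintype α] [DecidableEq α]
    [AddCommGroup E] [Fintype E] [DecidableEq E] (φ : α → G)
    (t : E → G) (pi : α → E) (ht : ∀ s a, t s * φ a * (t (s + pi a))⁻¹ ∈ N) (w w2 : List α)
    (hb : (w.map pi).sum = (w2.map pi).sum)
    (hc : ∀ a, ∀ s : E, cntE pi a s 0 w % Nat.card G = cntE pi a s 0 w2 % Nat.card G) :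
    (w.map φ).prod = (w2.map φ).prod := by
  classical
  let _ : CommGroup N := { (inferInstance : Group N) with
    mul_comm := fun x y => Subtype.ext (hN x x.2 y y.2) }
  let c : E → α → N := fun s a => ⟨t s * φ a * (t (s + pi a))⁻¹, ht s a⟩
  let W : E → List α → N := fun u w => ∏ a : α, ∏ s : E, c s a ^ cntE pi a s u w
  have hWa : ∀ u x w, W u (x :: w) = c u x * W (u + pi x) w := by
    intro u x w
    have e1 : ∀ (a : α) (s : E), c s a ^ cntE pi a s u (x :: w) =
        (c s a ^ (if x = a ∧ u = s then 1 else 0)) * c s a ^ cntE pi a s (u + pi x) w := by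
      intro a s
      simp only [cntE, pow_add]
    show (∏ a : α, ∏ s : E, c s a ^ cntE pi a s u (x :: w)) = _
    simp only [e1, Finset.prod_mul_distrib]
    congr 1
    rw [Finset.prod_eq_single x]
    · rw [Finset.prod_eq_single u]
      · simp
      · intro s _ hs
        have : ¬ (u = s) := fun h0 => hs h0.symm
        simp [this]
      · intro h0
        exact absurd (Finset.mem_univ _) h0
    · intro a _ ha
      refine Finset.prod_eq_one fun s _ => ?_
      have : ¬ (x = a ∧ u = s) := fun h0 => ha h0.1.symm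
      rw [if_neg this, pow_zero]
    · intro h0
      exact absurd (Finset.mem_univ _) h0
  have key : ∀ (w : List α) (u : E), t u * (w.map φ).prod =
      (W u w : G) * t (u + (w.map pi).sum) := by
    intro w
    induction w with
    | nil =>
      intro u
      have : W u [] = 1 := by
        refine Finset.prod_eq_one fun a _ => Finset.prod_eq_one fun s _ => ?_
        simp [cntE]
      simp [this]
    | cons x w ih =>
      intro u
      rw [List.map_cons, List.prod_cons, hWa u x w, List.map_cons, List.sum_cons]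
      have e2 : ((c u x : N) : G) = t u * φ x * (t (u + pi x))⁻¹ := rfl
      have e3 : u + (pi x + (w.map pi).sum) = u + pi x + (w.map pi).sum := by
        rw [add_assoc]
      rw [Subgroup.coe_mul, e2, e3, mul_assoc (t u * φ x * (t (u + pi x))⁻¹),
        ← ih (u + pi x)]
      group
  have hW : W 0 w = W 0 w2 := by
    refine Finset.prod_congr rfl fun a _ => Finset.prod_congr rfl fun s _ => ?_
    have hcard : (c s a) ^ Nat.card G = 1 := by
      apply Subtype.ext
      rw [Subgroup.coe_pow]
      exact pow_card_eq_one'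
    rw [pow_eq_pow_mod _ hcard, hc a, ← pow_eq_pow_mod _ hcard]
  have k1 := key w 0
  have k2 := key w2 0
  rw [hW, hb] at k1
  exact mul_left_cancel (k1.trans k2.symm)



theorem sum_heightE {α E : Type} [Finite α] [AddCommGroup E] [Finite E] (pi : α → E) (c : E) :
    HasHeight 1 ({w | (w.map pi).sum = c} : Language α) := by
  classical
  have h := main2 (G := Multiplicative E) (α := α) ⊤ (fun x _ y _ => mul_comm x y)
    (fun a => Multiplicative.ofAdd (pi a)) 1 (fun a => Or.inl trivial)
    {Multiplicative.ofAdd c}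
  refine h.congr (fun w => ?_)
  change (w.map pi).sum = c ↔
    (w.map (fun a => Multiplicative.ofAdd (pi a))).prod = Multiplicative.ofAdd c
  have e : (w.map (fun a => Multiplicative.ofAdd (pi a))).prod =
      Multiplicative.ofAdd (w.map pi).sum := by
    induction w with
    | nil => simp
    | cons y w ih => rw [List.map_cons, List.prod_cons, ih, List.map_cons, List.sum_cons]; rfl
  rw [e]
  exact Iff.rfl

theorem main_E {G α E : Type} [Group G] [Finite G] [Finite α] (p : ℕ) [Fact p.Prime]
    (N : Subgroup G) (hN : ∀ x ∈ N, ∀ y ∈ N, x * y = y * x) [AddCommGroup E] [Finite E]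
    [Module (ZMod p) E] (φ : α → G) (t : E → G) (pi : α → E)
    (ht : ∀ s a, t s * φ a * (t (s + pi a))⁻¹ ∈ N) (S : Set G) :
    HasHeight 1 ({w | (w.map φ).prod ∈ S} : Language α) := by
  classical
  haveI : Fintype α := Fintype.ofFinite α
  haveI : Fintype E := Fintype.ofFinite E
  haveI : Finite (E →ₗ[ZMod p] ZMod p) := DFunLike.finite _
  haveI : Fintype (E →ₗ[ZMod p] ZMod p) := Fintype.ofFinite _
  have hp : p.Prime := Fact.out
  obtain ⟨c, hc⟩ : ∃ c, c = Nat.card G := ⟨_, rfl⟩
  have hc0 : 0 < c := by rw [hc]; exact Nat.card_pos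
  obtain ⟨m, hm⟩ : ∃ m, m = c * ((p - 1) * Fintype.card (E →ₗ[ZMod p] ZMod p)) := ⟨_, rfl⟩
  have hm0 : 0 < m := by
    rw [hm]
    have := hp.two_le
    exact Nat.mul_pos hc0 (Nat.mul_pos (by omega) Fintype.card_pos)
  let P : (α × (E →ₗ[ZMod p] ZMod p) × ZMod p × Fin m) ⊕ E → Language α := fun i =>
    match i with
    | .inl i => {w | cnts (fun a => i.2.1 (pi a)) i.1 i.2.2.1 0 w % m = i.2.2.2}
    | .inr e => {w | (w.map pi).sum = e}
  haveI : NeZero p := ⟨hp.ne_zero⟩
  refine of_sig P ?_ _ ?_
  · rintro (i | i)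
    · exact cnts_height _ _ _ m _ hm0
    · exact sum_heightE pi i
  · intro w w2 hw hwS
    have hprod : (w.map φ).prod = (w2.map φ).prod := by
      refine group_E3 N hN φ t pi ht w w2 ?_ ?_
      · exact ((hw (.inr (w.map pi).sum)).1 rfl).symm
      · intro x s
        rw [← hc]
        apply avgE (p := p)
        intro l q
        rw [← hm]
        exact mod_eq (fun w => cnts (fun a => l (pi a)) x q 0 w) m hm0 w w2
          (fun r => hw (.inl (x, l, q, r)))
    show (w2.map φ).prod ∈ S
    rw [← hprod]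
    exact hwS

theorem main_elem3 {G α : Type} [Group G] [Finite G] [Finite α] (p : ℕ) [Fact p.Prime]
    (N : Subgroup G) [N.Normal] (hN : ∀ x ∈ N, ∀ y ∈ N, x * y = y * x)
    (hc : ∀ g h : G, g * h * g⁻¹ * h⁻¹ ∈ N) (hp : ∀ g : G, g ^ p ∈ N) (φ : α → G) (S : Set G) :
    HasHeight 1 ({w | (w.map φ).prod ∈ S} : Language α) := by
  classical
  letI : CommGroup (G ⧸ N) := { (inferInstance : Group (G ⧸ N)) with
    mul_comm := by
      intro a b
      obtain ⟨g, rfl⟩ := QuotientGroup.mk_surjective a
      obtain ⟨h, rfl⟩ := QuotientGroup.mk_surjective b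
      have h1 : ((g * h * g⁻¹ * h⁻¹ : G) : G ⧸ N) = 1 := (QuotientGroup.eq_one_iff _).2 (hc g h)
      rw [QuotientGroup.mk_mul, QuotientGroup.mk_mul, QuotientGroup.mk_mul,
        QuotientGroup.mk_inv, QuotientGroup.mk_inv, mul_inv_eq_one, mul_inv_eq_iff_eq_mul] at h1
      exact h1 }
  have hz : ∀ x : Additive (G ⧸ N), p • x = 0 := by
    intro x
    obtain ⟨g, hg⟩ := QuotientGroup.mk_surjective (Additive.toMul x)
    have h1 : ((g ^ p : G) : G ⧸ N) = 1 := (QuotientGroup.eq_one_iff _).2 (hp g)
    rw [QuotientGroup.mk_pow, hg] at h1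
    exact h1
  letI : Module (ZMod p) (Additive (G ⧸ N)) := AddCommGroup.zmodModule hz
  refine main_E (E := Additive (G ⧸ N)) p N hN φ (fun s => Quotient.out (Additive.toMul s))
    (fun a => Additive.ofMul ((φ a : G) : G ⧸ N)) ?_ S
  intro s a
  rw [← QuotientGroup.eq_one_iff, QuotientGroup.mk_mul, QuotientGroup.mk_mul,
    QuotientGroup.mk_inv, mul_inv_eq_one]
  have e1 : ∀ q : G ⧸ N, ((Quotient.out q : G) : G ⧸ N) = q := fun q => QuotientGroup.out_eq' q
  rw [e1, e1]
  rfl

end Vale.Agent.P329
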