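import Vale.Agent.P329.Defs

/-! # P329: the group-theoretic part -/

namespace Vale.Agent.P329

theorem group_part {G α : Type} [Group G] [Finite G] (N : Subgroup G) [N.Normal]
    (hN : ∀ x ∈ N, ∀ y ∈ N, x * y = y * x) [Fintype α] [DecidableEq α] (φ : α → G) (b : α)
    (hφ : ∀ a, a ≠ b → φ a ∈ N) (k : ℕ) [NeZero k] (hk : φ b ^ k = 1) (w w2 : List α)
    (hb : w.count b % k = w2.count b % k)
    (hc : ∀ a, a ≠ b → ∀ t : ZMod k, cnt b a t w % Nat.card G = cnt b a t w2 % Nat.card G) :
    (w.map φ).prod = (w2.map φ).prod := by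
  classical
  letI : CommGroup N := { (inferInstance : Group N) with
    mul_comm := fun x y => Subtype.ext (hN x x.2 y y.2) }
  set h : G := φ b with hh
  have hpow : ∀ t : ZMod k, h ^ (t + 1).val = h ^ t.val * h := by
    intro t
    rw [← pow_succ, ZMod.val_add, pow_eq_pow_mod (t.val + 1) hk]
    congr 1
    rcases Nat.lt_or_ge 1 k with h1 | h1
    · haveI : Fact (1 < k) := ⟨h1⟩
      rw [ZMod.val_one]
    · have : k = 1 := le_antisymm h1 (Nat.one_le_iff_ne_zero.mpr (NeZero.ne k))
      subst this
      simp [Nat.mod_one]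
  have hmem : ∀ (s : ZMod k) (a : α), a ≠ b → h ^ s.val * φ a * (h ^ s.val)⁻¹ ∈ N :=
    fun s a ha => ‹N.Normal›.conj_mem _ (hφ a ha) _
  let c : ZMod k → α → N := fun s a =>
    if ha : a ≠ b then ⟨h ^ s.val * φ a * (h ^ s.val)⁻¹, hmem s a ha⟩ else 1
  let W : ZMod k → List α → N := fun t w => ∏ a : α, ∏ s : ZMod k, c s a ^ cnt b a (t - s) w
  have hWb : ∀ t w, W t (b :: w) = W (t + 1) w := by
    intro t w
    refine Finset.prod_congr rfl fun a _ => Finset.prod_congr rfl fun s _ => ?_
    have : t + 1 - s = t - s + 1 := by ring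
    rw [this]
    simp [cnt]
  have hWa : ∀ t x w, x ≠ b → W t (x :: w) = c t x * W t w := by
    intro t x w hx
    have e1 : ∀ (a : α) (s : ZMod k), c s a ^ cnt b a (t - s) (x :: w) =
        (c s a ^ (if x = a ∧ t - s = 0 then 1 else 0)) * c s a ^ cnt b a (t - s) w := by
      intro a s
      simp only [cnt, if_neg hx, pow_add]
    show (∏ a : α, ∏ s : ZMod k, c s a ^ cnt b a (t - s) (x :: w)) = _
    simp only [e1, Finset.prod_mul_distrib]
    congr 1
    rw [Finset.prod_eq_single x]
    · rw [Finset.prod_eq_single t]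
      · simp
      · intro s _ hs
        have : ¬ (t - s = 0) := fun h0 => hs (sub_eq_zero.mp h0).symm
        simp [this]
      · intro h0
        exact absurd (Finset.mem_univ _) h0
    · intro a _ ha
      refine Finset.prod_eq_one fun s _ => ?_
      have : ¬ (x = a ∧ t - s = 0) := fun h0 => ha h0.1.symm
      rw [if_neg this, pow_zero]
    · intro h0
      exact absurd (Finset.mem_univ _) h0
  have key : ∀ (w : List α) (t : ZMod k), h ^ t.val * (w.map φ).prod =
      (W t w : G) * h ^ (t + (w.count b : ZMod k)).val := by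
    intro w
    induction w with
    | nil =>
      intro t
      have : W t [] = 1 := by
        refine Finset.prod_eq_one fun a _ => Finset.prod_eq_one fun s _ => ?_
        simp [cnt]
      simp [this]
    | cons x w ih =>
      intro t
      by_cases hx : x = b
      · subst hx
        rw [List.map_cons, List.prod_cons, ← mul_assoc, ← hh, ← hpow, ih, hWb]
        congr 3
        rw [List.count_cons_self]
        push_cast
        ring
      · rw [List.map_cons, List.prod_cons, hWa t x w hx, List.count_cons_of_ne hx]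
        have e2 : ((c t x : N) : G) = h ^ t.val * φ x * (h ^ t.val)⁻¹ := by
          simp only [c, dif_pos hx]
        rw [Subgroup.coe_mul, e2, mul_assoc (h ^ t.val * φ x * (h ^ t.val)⁻¹), ← ih t]
        group
  have hW : W 0 w = W 0 w2 := by
    refine Finset.prod_congr rfl fun a _ => Finset.prod_congr rfl fun s _ => ?_
    by_cases ha : a ≠ b
    · have hcard : (c s a) ^ Nat.card G = 1 := by
        apply Subtype.ext
        rw [Subgroup.coe_pow]
        exact pow_card_eq_one'
      rw [pow_eq_pow_mod _ hcard, hc a ha, ← pow_eq_pow_mod _ hcard]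
    · have : c s a = 1 := by simp only [c, dif_neg ha]
      rw [this, one_pow, one_pow]
  have k1 := key w 0
  have k2 := key w2 0
  have hcount : ((w.count b : ℕ) : ZMod k) = ((w2.count b : ℕ) : ZMod k) :=
    (ZMod.natCast_eq_natCast_iff' _ _ _).mpr hb
  rw [ZMod.val_zero, pow_zero, one_mul] at k1 k2
  rw [k1, k2, hW, hcount]

end Vale.Agent.P329
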