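import Vale.Agent.P329.Defs

namespace Vale.Agent.P329

variable {α : Type}

theorem HasHeight.mono {n m : ℕ} (h : n ≤ m) {L : Language α} (H : HasHeight n L) :
    HasHeight m L := by
  obtain ⟨E, hE, hL⟩ := H
  exact ⟨E, hE.trans h, hL⟩

theorem HasHeight.congr {n : ℕ} {L M : Language α} (hL : HasHeight n L)
    (h : ∀ w, w ∈ M ↔ w ∈ L) : HasHeight n M := by
  have : M = L := by
    ext w
    exact h w
  rw [this]
  exact hL

theorem HasHeight.zero {n : ℕ} : HasHeight n (0 : Language α) := ⟨.zero, Nat.zero_le _, rfl⟩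

theorem HasHeight.one {n : ℕ} : HasHeight n (1 : Language α) := ⟨.one, Nat.zero_le _, rfl⟩

theorem HasHeight.char {n : ℕ} (a : α) : HasHeight n ({[a]} : Language α) :=
  ⟨.char a, Nat.zero_le _, rfl⟩

theorem HasHeight.add {n : ℕ} {L M : Language α} (hL : HasHeight n L) (hM : HasHeight n M) :
    HasHeight n (L + M) := by
  obtain ⟨E, hE, rfl⟩ := hL
  obtain ⟨F, hF, rfl⟩ := hM
  exact ⟨.plus E F, max_le hE hF, rfl⟩

theorem HasHeight.mul {n : ℕ} {L M : Language α} (hL : HasHeight n L) (hM : HasHeight n M) :
    HasHeight n (L * M) := by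
  obtain ⟨E, hE, rfl⟩ := hL
  obtain ⟨F, hF, rfl⟩ := hM
  exact ⟨.comp E F, max_le hE hF, rfl⟩

theorem HasHeight.compl {n : ℕ} {L : Language α} (hL : HasHeight n L) :
    HasHeight n ({w | w ∉ L} : Language α) := by
  obtain ⟨E, hE, rfl⟩ := hL
  exact ⟨.neg E, hE, rfl⟩

theorem HasHeight.inter {n : ℕ} {L M : Language α} (hL : HasHeight n L) (hM : HasHeight n M) :
    HasHeight n ({w | w ∈ L ∧ w ∈ M} : Language α) := by
  refine (hL.compl.add hM.compl).compl.congr (fun w => ?_)
  change (w ∈ L ∧ w ∈ M) ↔ ¬ (w ∉ L ∨ w ∉ M)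
  tauto

theorem HasHeight.star {n : ℕ} {L : Language α} (hL : HasHeight n L) :
    HasHeight (n + 1) (KStar.kstar L) := by
  obtain ⟨E, hE, rfl⟩ := hL
  exact ⟨.star E, Nat.succ_le_succ hE, rfl⟩

theorem HasHeight.pow {n : ℕ} {L : Language α} (hL : HasHeight n L) (j : ℕ) :
    HasHeight n (L ^ j) := by
  induction j with
  | zero => rw [pow_zero]; exact HasHeight.one
  | succ j ih => rw [pow_succ]; exact ih.mul hL

/-- All words. -/
def full : Language α := {w | True}

theorem HasHeight.univ {n : ℕ} : HasHeight n (full : Language α) := by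
  refine (HasHeight.zero (n := n) (α := α)).compl.congr (fun w => ?_)
  change True ↔ w ∉ (0 : Language α)
  simp [Language.notMem_zero]

/-- Finite unions. -/
theorem HasHeight.iUnion {n : ℕ} {ι : Type} (s : Finset ι) (L : ι → Language α)
    (h : ∀ i ∈ s, HasHeight n (L i)) : HasHeight n ({w | ∃ i ∈ s, w ∈ L i} : Language α) := by
  classical
  induction s using Finset.induction_on with
  | empty =>
    refine (HasHeight.zero (n := n) (α := α)).congr (fun w => ?_)
    change (∃ i ∈ (∅ : Finset ι), w ∈ L i) ↔ w ∈ (0 : Language α)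
    simp [Language.notMem_zero]
  | insert i s hi ih =>
    have h1 := (h i (Finset.mem_insert_self i s)).add
      (ih (fun j hj => h j (Finset.mem_insert_of_mem hj)))
    refine h1.congr (fun w => ?_)
    change (∃ j ∈ insert i s, w ∈ L j) ↔ (w ∈ L i ∨ ∃ j ∈ s, w ∈ L j)
    simp

/-- Finite intersections. -/
theorem HasHeight.iInter {n : ℕ} {ι : Type} (s : Finset ι) (L : ι → Language α)
    (h : ∀ i ∈ s, HasHeight n (L i)) : HasHeight n ({w | ∀ i ∈ s, w ∈ L i} : Language α) := by
  have h1 := (HasHeight.iUnion s (fun i => ({w | w ∉ L i} : Language α))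
    (fun i hi => (h i hi).compl)).compl
  refine h1.congr (fun w => ?_)
  change (∀ i ∈ s, w ∈ L i) ↔ ¬ ∃ i ∈ s, w ∉ L i
  push Not
  rfl

/-- Words without letters in `T`. -/
def avoid (T : Finset α) : Language α := {w | ∀ c ∈ w, c ∉ T}

theorem mem_avoid (T : Finset α) (w : List α) : w ∈ avoid T ↔ ∀ c ∈ w, c ∉ T := Iff.rfl

theorem avoid_height (T : Finset α) : HasHeight 0 (avoid T) := by
  have h1 : HasHeight 0 ({w | ∃ c ∈ T, w ∈ full * ({[c]} : Language α) * full} :
      Language α) :=
    HasHeight.iUnion T _ (fun c _ => (HasHeight.univ.mul (HasHeight.char c)).mul HasHeight.univ)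
  refine h1.compl.congr (fun w => ?_)
  change (∀ c ∈ w, c ∉ T) ↔ ¬ ∃ c ∈ T, w ∈ full * ({[c]} : Language α) * full
  push Not
  constructor
  · rintro h c hc hw
    rw [Language.mem_mul] at hw
    obtain ⟨x, hx, y, _, rfl⟩ := hw
    rw [Language.mem_mul] at hx
    obtain ⟨u, _, v, hv, rfl⟩ := hx
    have hv' : v = [c] := hv
    subst hv'
    exact h c (by simp) hc
  · intro h c hc hcT
    apply h c hcT
    obtain ⟨u, v, rfl⟩ := List.append_of_mem hc
    rw [Language.mem_mul]
    refine ⟨u ++ [c], ?_, v, trivial, by simp⟩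
    rw [Language.mem_mul]
    exact ⟨u, trivial, [c], rfl, rfl⟩

/-- The skip lemma. -/
theorem skip (T : Finset α) (P : Language α) (P' : α → Language α)
    (h1 : ∀ c, c ∉ T → ∀ w, c :: w ∈ P ↔ w ∈ P)
    (h2 : ∀ c, c ∈ T → ∀ w, c :: w ∈ P ↔ w ∈ P' c) (w : List α) :
    w ∈ P ↔ ((w ∈ avoid T ∧ [] ∈ P) ∨ ∃ c ∈ T, w ∈ avoid T * {[c]} * P' c) := by
  classical
  induction w with
  | nil =>
    constructor
    · intro h
      left
      exact ⟨by simp [mem_avoid], h⟩
    · rintro (h | ⟨c, hc, h⟩)
      · exact h.2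
      · rw [Language.mem_mul] at h
        obtain ⟨x, hx, y, _, hxy⟩ := h
        rw [Language.mem_mul] at hx
        obtain ⟨u, _, v, hv, rfl⟩ := hx
        have hv' : v = [c] := hv
        subst hv'
        simp at hxy
  | cons d w ih =>
    by_cases hd : d ∈ T
    · rw [h2 d hd]
      constructor
      · intro h
        right
        refine ⟨d, hd, ?_⟩
        rw [Language.mem_mul]
        refine ⟨[d], ?_, w, h, rfl⟩
        rw [Language.mem_mul]
        exact ⟨[], by simp [mem_avoid], [d], rfl, rfl⟩
      · rintro (h | ⟨c, hc, h⟩)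
        · exact absurd hd (h.1 d (by simp))
        · rw [Language.mem_mul] at h
          obtain ⟨x, hx, y, hy, hxy⟩ := h
          rw [Language.mem_mul] at hx
          obtain ⟨u, hu, v, hv, rfl⟩ := hx
          have hv' : v = [c] := hv
          subst hv'
          cases u with
          | nil =>
            simp at hxy
            obtain ⟨rfl, rfl⟩ := hxy
            exact hy
          | cons e u =>
            simp at hxy
            obtain ⟨rfl, _⟩ := hxy
            exact absurd hd (hu e (by simp))
    · rw [h1 d hd, ih]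
      constructor
      · rintro (h | ⟨c, hc, h⟩)
        · left
          refine ⟨?_, h.2⟩
          intro c hc
          rcases List.mem_cons.1 hc with rfl | hc
          · exact hd
          · exact h.1 c hc
        · right
          refine ⟨c, hc, ?_⟩
          rw [Language.mem_mul] at h ⊢
          obtain ⟨x, hx, y, hy, rfl⟩ := h
          rw [Language.mem_mul] at hx
          obtain ⟨u, hu, v, hv, rfl⟩ := hx
          refine ⟨d :: (u ++ v), ?_, y, hy, by simp⟩
          rw [Language.mem_mul]
          refine ⟨d :: u, ?_, v, hv, rfl⟩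
          intro e he
          rcases List.mem_cons.1 he with rfl | he
          · exact hd
          · exact hu e he
      · rintro (h | ⟨c, hc, h⟩)
        · left
          exact ⟨fun c hc => h.1 c (List.mem_cons_of_mem _ hc), h.2⟩
        · right
          refine ⟨c, hc, ?_⟩
          rw [Language.mem_mul] at h ⊢
          obtain ⟨x, hx, y, hy, hxy⟩ := h
          rw [Language.mem_mul] at hx
          obtain ⟨u, hu, v, hv, rfl⟩ := hx
          have hv' : v = [c] := hv
          subst hv'
          cases u with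
          | nil =>
            simp at hxy
            exact absurd (hxy.1 ▸ hc) hd
          | cons e u =>
            simp at hxy
            obtain ⟨rfl, rfl⟩ := hxy
            refine ⟨u ++ [c], ?_, y, hy, by simp⟩
            rw [Language.mem_mul]
            exact ⟨u, fun f hf => hu f (List.mem_cons_of_mem _ hf), [c], rfl, rfl⟩

end Vale.Agent.P329
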