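import Mathlib

namespace Vale.Agent.P329

theorem quot_data {G α : Type} [Group G] [Finite G] (N : Subgroup G) [N.Normal] (p : ℕ)
    [hp : Fact p.Prime] (hidx : N.index = p) (φ : α → G) :
    ∃ (h : G) (pi : α → ZMod p), h ^ p ∈ N ∧ ∀ a, φ a * (h ^ (pi a).val)⁻¹ ∈ N := by
  have hcard : Nat.card (G ⧸ N) = p := hidx
  haveI : IsCyclic (G ⧸ N) := isCyclic_of_prime_card hcard
  obtain ⟨g, hg⟩ := IsCyclic.exists_monoid_generator (α := G ⧸ N)
  obtain ⟨h, rfl⟩ := QuotientGroup.mk_surjective g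
  have hgp : ((h : G ⧸ N)) ^ p = 1 := by
    rw [← hcard]; exact pow_card_eq_one'
  have hex : ∀ a, ∃ n : ℕ, ((h : G ⧸ N)) ^ n = (φ a : G ⧸ N) := fun a => hg (φ a : G ⧸ N)
  choose n hn using hex
  refine ⟨h, fun a => (n a : ZMod p), ?_, ?_⟩
  · rw [← QuotientGroup.eq_one_iff, QuotientGroup.mk_pow]
    exact hgp
  · intro a
    rw [← QuotientGroup.eq_one_iff, QuotientGroup.mk_mul, QuotientGroup.mk_inv,
      QuotientGroup.mk_pow, mul_inv_eq_one, ZMod.val_natCast, ← pow_eq_pow_mod _ hgp, hn]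

end Vale.Agent.P329
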