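import Vale.Agent.P329.Defs

/-!
# P329: finite aperiodic monoids recognise star-free languages (local divisor proof)
-/

namespace Vale.Agent.P329

/-- Star-free languages. -/
inductive SF {α : Type} : Set (List α) → Prop
  | empty : SF ∅
  | eps : SF {[]}
  | char (a : α) : SF {[a]}
  | union {K L : Set (List α)} : SF K → SF L → SF (K ∪ L)
  | compl {K : Set (List α)} : SF K → SF Kᶜ
  | cat {K L : Set (List α)} : SF K → SF L → SF {w | ∃ u ∈ K, ∃ v ∈ L, u ++ v = w}

theorem SF.univ {α : Type} : SF (Set.univ : Set (List α)) := by
  simpa using (SF.empty (α := α)).compl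

theorem SF.inter {α : Type} {K L : Set (List α)} (hK : SF K) (hL : SF L) : SF (K ∩ L) := by
  have := (hK.compl.union hL.compl).compl
  rwa [Set.compl_union, compl_compl, compl_compl] at this

theorem SF.iUnion {α : Type} {ι : Type*} [Finite ι] {K : ι → Set (List α)}
    (h : ∀ i, SF (K i)) : SF (⋃ i, K i) := by
  classical
  cases nonempty_fintype ι
  have : ∀ s : Finset ι, SF (⋃ i ∈ s, K i) := by
    intro s
    induction s using Finset.induction_on with
    | empty => simpa using SF.empty
    | insert a s ha ih => rw [Finset.set_biUnion_insert]; exact (h a).union ih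
  simpa using this Finset.univ

theorem SF.letters {α : Type} [Finite α] (B : Set α) : SF {w : List α | ∀ a ∈ w, a ∈ B} := by
  have h : SF (⋃ a : (Bᶜ : Set α), {w : List α | ∃ u ∈ {w : List α |
      ∃ u ∈ (Set.univ : Set (List α)), ∃ v ∈ ({[a.1]} : Set (List α)), u ++ v = w},
      ∃ v ∈ (Set.univ : Set (List α)), u ++ v = w}) :=
    SF.iUnion fun a => (SF.univ.cat (SF.char a.1)).cat SF.univ
  have h2 := h.compl
  convert h2 using 1
  ext w
  constructor
  · intro hw hh
    obtain ⟨a, hh⟩ := Set.mem_iUnion.1 hh
    obtain ⟨u, ⟨u', _, v', hv', rfl⟩, v, _, rfl⟩ := hh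
    have hv2 : v' = [a.1] := hv'
    subst hv2
    exact a.2 (hw a.1 (by simp))
  · intro hw a ha
    by_contra hb
    obtain ⟨s, t, rfl⟩ := List.append_of_mem ha
    exact hw (Set.mem_iUnion.2
      ⟨⟨a, hb⟩, s ++ [a], ⟨s, trivial, [a], rfl, rfl⟩, t, trivial, by simp⟩)

/-- Aperiodic monoids. -/
def Aper (M : Type) [Monoid M] : Prop := ∀ x : M, ∃ n : ℕ, x ^ n = x ^ (n + 1)

/-- The local divisor of `M` at `c`. -/
def LD {M : Type} [Monoid M] (c : M) : Type :=
  {x : M // (∃ a, c * a = x) ∧ (∃ b, b * c = x)}

section LDs
variable {M : Type} [Monoid M] {c : M}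

/-- Right part. -/
noncomputable def LD.r (x : LD c) : M := x.2.1.choose
theorem LD.r_spec (x : LD c) : c * x.r = x.1 := x.2.1.choose_spec
/-- Left part. -/
noncomputable def LD.l (x : LD c) : M := x.2.2.choose
theorem LD.l_spec (x : LD c) : x.l * c = x.1 := x.2.2.choose_spec

noncomputable instance : Mul (LD c) :=
  ⟨fun x y => ⟨x.1 * y.r, ⟨x.r * y.r, by rw [← mul_assoc, LD.r_spec]⟩,
    ⟨x.l * y.l, by rw [mul_assoc, LD.l_spec, ← y.r_spec, ← mul_assoc, LD.l_spec]⟩⟩⟩

theorem LD.mul_def (x y : LD c) : (x * y).1 = x.1 * y.r := rfl

theorem LD.mul_val (x y : LD c) (a : M) (h : y.1 = c * a) : (x * y).1 = x.1 * a := by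
  rw [LD.mul_def, ← x.l_spec, mul_assoc, mul_assoc, y.r_spec, h]

instance : One (LD c) := ⟨⟨c, ⟨1, mul_one c⟩, ⟨1, one_mul c⟩⟩⟩

theorem LD.one_val : (1 : LD c).1 = c := rfl

noncomputable instance : Monoid (LD c) where
  mul_assoc x y z := by
    apply Subtype.ext
    rw [LD.mul_def, LD.mul_def, LD.mul_val x (y * z) (y.r * z.r)
      (by rw [LD.mul_def, ← mul_assoc, y.r_spec]), mul_assoc]
  one_mul x := by
    apply Subtype.ext
    rw [LD.mul_def, LD.one_val, x.r_spec]
  mul_one x := by
    apply Subtype.ext
    rw [LD.mul_val x 1 1 (by rw [LD.one_val, mul_one]), mul_one]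

instance [Finite M] : Finite (LD c) := inferInstanceAs (Finite {x : M // _})

/-- The element `c m c` of the local divisor. -/
def LD.of (c m : M) : LD c := ⟨c * m * c, ⟨m * c, by rw [mul_assoc]⟩, ⟨c * m, rfl⟩⟩

theorem LD.prod_of (t : List M) : (t.map (LD.of c)).prod.1 = c * (t.map (· * c)).prod := by
  induction t with
  | nil => simp [LD.one_val]
  | cons m t ih =>
    rw [List.map_cons, List.prod_cons, List.map_cons, List.prod_cons, LD.mul_val _ _ _ ih]
    simp only [LD.of, mul_assoc]

theorem LD.pow_val (x : LD c) (k : ℕ) : (x ^ k).1 = c * x.r ^ k := by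
  induction k with
  | zero => simp [LD.one_val]
  | succ k ih => rw [pow_succ, LD.mul_def, ih, pow_succ, mul_assoc]

theorem LD.aper (h : Aper M) : Aper (LD c) := by
  intro x
  obtain ⟨n, hn⟩ := h x.r
  exact ⟨n, Subtype.ext (by rw [LD.pow_val, LD.pow_val, hn])⟩

theorem LD.card_lt [Finite M] (h : Aper M) (hc : c ≠ 1) : Nat.card (LD c) < Nat.card M := by
  refine Finite.card_subtype_lt (x := (1 : M)) ?_
  rintro ⟨⟨a, ha⟩, -⟩
  have hk : ∀ k : ℕ, c ^ k * a ^ k = 1 := by
    intro k
    induction k with
    | zero => simp
    | succ k ih => rw [pow_succ, pow_succ', mul_assoc, ← mul_assoc c a, ha, one_mul, ih]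
  obtain ⟨n, hn⟩ := h c
  apply hc
  calc c = c * (c ^ n * a ^ n) := by rw [hk, mul_one]
    _ = c ^ (n + 1) * a ^ n := by rw [pow_succ', mul_assoc]
    _ = 1 := by rw [← hn, hk]

end LDs

section Subst
variable {α : Type} {M : Type} [Monoid M] (B : Set α) (c : α) (f : α → M)

/-- Words `v₁ c v₂ c ... v_k c` with `v_i` over `B` and values in `K`. -/
def Sb (K : Set (List M)) : Set (List α) :=
  {w | ∃ vs : List (List α), (∀ v ∈ vs, ∀ a ∈ v, a ∈ B) ∧ (vs.map (· ++ [c])).flatten = w ∧
    vs.map (fun v => (v.map f).prod) ∈ K}

variable {B c f}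

theorem app_inj (c : α) : ∀ v u x y : List α, c ∉ v → c ∉ u → v ++ c :: x = u ++ c :: y →
    v = u ∧ x = y := by
  intro v
  induction v with
  | nil =>
    intro u x y _ hu h
    cases u with
    | nil => simpa using h
    | cons b u =>
      simp only [List.nil_append, List.cons_append, List.cons.injEq] at h
      exact absurd (by simp [h.1]) hu
  | cons a v ih =>
    intro u x y hv hu h
    cases u with
    | nil =>
      simp only [List.nil_append, List.cons_append, List.cons.injEq] at h
      exact absurd (by simp [h.1]) hv
    | cons b u =>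
      simp only [List.cons_append, List.cons.injEq] at h
      obtain ⟨e1, e2⟩ := ih u x y (fun hh => hv (by simp [hh])) (fun hh => hu (by simp [hh])) h.2
      exact ⟨by rw [h.1, e1], e2⟩

theorem flat_inj (hc : c ∉ B) : ∀ vs us : List (List α), (∀ v ∈ vs, ∀ a ∈ v, a ∈ B) →
    (∀ v ∈ us, ∀ a ∈ v, a ∈ B) →
    (vs.map (· ++ [c])).flatten = (us.map (· ++ [c])).flatten → vs = us := by
  intro vs
  induction vs with
  | nil =>
    intro us _ _ h
    cases us with
    | nil => rfl
    | cons u us => simp at h
  | cons v vs ih =>
    intro us hv hu h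
    cases us with
    | nil => simp at h
    | cons u us =>
      simp only [List.map_cons, List.flatten_cons, List.append_assoc, List.singleton_append] at h
      have h1 : c ∉ v := fun hh => hc (hv v (by simp) c hh)
      have h2 : c ∉ u := fun hh => hc (hu u (by simp) c hh)
      obtain ⟨e1, e2⟩ := app_inj c _ _ _ _ h1 h2 h
      rw [e1, ih us (fun x hx => hv x (by simp [hx])) (fun x hx => hu x (by simp [hx])) e2]

theorem dec_exists (B' : Set α) (hB : ∀ a ∈ B', a ≠ c → a ∈ B) : ∀ w : List α,
    (∀ a ∈ w, a ∈ B') → ∃ (vs : List (List α)) (v : List α), (∀ v ∈ vs, ∀ a ∈ v, a ∈ B) ∧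
      (∀ a ∈ v, a ∈ B) ∧ (vs.map (· ++ [c])).flatten ++ v = w := by
  intro w
  induction w with
  | nil => intro _; exact ⟨[], [], by simp, by simp, by simp⟩
  | cons a w ih =>
    intro hw
    obtain ⟨vs, v, h1, h2, h3⟩ := ih (fun x hx => hw x (by simp [hx]))
    by_cases hac : a = c
    · refine ⟨[] :: vs, v, ?_, h2, ?_⟩
      · intro u hu
        rcases List.mem_cons.1 hu with rfl | hu
        · simp
        · exact h1 u hu
      · simp [hac, h3]
    · have ha : a ∈ B := hB a (hw a (by simp)) hac
      cases vs with
      | nil =>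
        refine ⟨[], a :: v, by simp, ?_, ?_⟩
        · intro x hx
          rcases List.mem_cons.1 hx with rfl | hx
          · exact ha
          · exact h2 x hx
        · simpa using h3
      | cons u us =>
        refine ⟨(a :: u) :: us, v, ?_, h2, ?_⟩
        · intro x hx
          rcases List.mem_cons.1 hx with rfl | hx
          · intro y hy
            rcases List.mem_cons.1 hy with rfl | hy
            · exact ha
            · exact h1 u (by simp) y hy
          · exact h1 x (by simp [hx])
        · simp only [List.map_cons, List.flatten_cons, List.append_assoc, List.cons_append,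
            List.cons.injEq, true_and] at h3 ⊢
          exact h3

/-- The substitution lemma. -/
theorem SF.subst [Finite α] (hc : c ∉ B)
    (hL : ∀ m : M, SF {w : List α | (∀ a ∈ w, a ∈ B) ∧ (w.map f).prod = m})
    {K : Set (List M)} (hK : SF K) : SF (Sb B c f K) := by
  have hW : SF (Sb B c f Set.univ) := by
    have h1 := SF.eps.union ((SF.letters (insert c B)).cat (SF.char c))
    convert h1 using 1
    ext w
    constructor
    · rintro ⟨vs, hv, rfl, -⟩
      rcases List.eq_nil_or_concat vs with rfl | ⟨us, u, rfl⟩
      · left; simp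
      · right
        refine ⟨(us.map (· ++ [c])).flatten ++ u, ?_, [c], rfl, by simp⟩
        intro a ha
        rcases List.mem_append.1 ha with ha | ha
        · obtain ⟨l, hl, hal⟩ := List.mem_flatten.1 ha
          obtain ⟨v, hv1, rfl⟩ := List.mem_map.1 hl
          rcases List.mem_append.1 hal with h | h
          · exact Set.mem_insert_of_mem _ (hv v (by simp [hv1]) a h)
          · left; simpa using h
        · exact Set.mem_insert_of_mem _ (hv u (by simp) a ha)
    · rintro (h | ⟨u, hu, v, hv, rfl⟩)
      · have : w = [] := h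
        subst this
        exact ⟨[], by simp, by simp, trivial⟩
      · have hv2 : v = [c] := hv
        subst hv2
        obtain ⟨vs, v, h1, h2, h3⟩ := dec_exists (B := B) (c := c) (insert c B)
          (fun a ha hac => by
            rcases ha with ha | ha
            · exact absurd ha hac
            · exact ha) u hu
        refine ⟨vs ++ [v], ?_, ?_, trivial⟩
        · intro x hx
          rcases List.mem_append.1 hx with hx | hx
          · exact h1 x hx
          · rw [List.mem_singleton.1 hx]; exact h2
        · rw [← h3]; simp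
  induction hK with
  | empty =>
    have : Sb B c f (∅ : Set (List M)) = ∅ := by
      ext w
      constructor
      · rintro ⟨vs, _, _, h⟩; exact h
      · intro h; exact absurd h (Set.notMem_empty w)
    rw [this]; exact SF.empty
  | eps =>
    have : Sb B c f ({[]} : Set (List M)) = {[]} := by
      ext w
      constructor
      · rintro ⟨vs, _, rfl, h⟩
        have h2 : vs.map (fun v => (v.map f).prod) = [] := h
        rw [List.map_eq_nil_iff.1 h2]; simp
      · intro h
        have : w = [] := h
        subst this
        exact ⟨[], by simp, by simp, by simp⟩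
    rw [this]; exact SF.eps
  | char m =>
    have h1 := (hL m).cat (SF.char c)
    convert h1 using 1
    ext w
    constructor
    · rintro ⟨vs, hv, rfl, h⟩
      have h2 : vs.map (fun v => (v.map f).prod) = [m] := h
      obtain ⟨v, rfl, hvm⟩ := List.map_eq_singleton_iff.1 h2
      exact ⟨v, ⟨hv v (by simp), hvm⟩, [c], rfl, by simp⟩
    · rintro ⟨u, ⟨hu, hum⟩, v, hv, rfl⟩
      have hv2 : v = [c] := hv
      subst hv2
      exact ⟨[u], by simpa using hu, by simp, by simp [hum]⟩
  | union h1 h2 ih1 ih2 =>
    convert ih1.union ih2 using 1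
    ext w
    constructor
    · rintro ⟨vs, hv, hw, h | h⟩
      · exact Or.inl ⟨vs, hv, hw, h⟩
      · exact Or.inr ⟨vs, hv, hw, h⟩
    · rintro (⟨vs, hv, hw, h⟩ | ⟨vs, hv, hw, h⟩)
      · exact ⟨vs, hv, hw, Or.inl h⟩
      · exact ⟨vs, hv, hw, Or.inr h⟩
  | compl h1 ih1 =>
    convert hW.inter ih1.compl using 1
    ext w
    constructor
    · rintro ⟨vs, hv, hw, h⟩
      refine ⟨⟨vs, hv, hw, trivial⟩, ?_⟩
      rintro ⟨us, hu, hw2, h2⟩
      have := flat_inj hc vs us hv hu (hw.trans hw2.symm)
      subst this
      exact h h2
    · rintro ⟨⟨vs, hv, hw, -⟩, h⟩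
      exact ⟨vs, hv, hw, fun h2 => h ⟨vs, hv, hw, h2⟩⟩
  | cat h1 h2 ih1 ih2 =>
    convert ih1.cat ih2 using 1
    ext w
    constructor
    · rintro ⟨vs, hv, rfl, x, hx, y, hy, hxy⟩
      obtain ⟨us, ts, rfl, rfl, rfl⟩ := List.map_eq_append_iff.1 hxy.symm
      exact ⟨_, ⟨us, fun v h => hv v (by simp [h]), rfl, hx⟩, _,
        ⟨ts, fun v h => hv v (by simp [h]), rfl, hy⟩, by simp⟩
    · rintro ⟨u, ⟨us, hu, rfl, hx⟩, v, ⟨ts, hv, rfl, hy⟩, rfl⟩
      refine ⟨us ++ ts, ?_, by simp, _, hx, _, hy, by simp⟩
      intro x hx
      rcases List.mem_append.1 hx with h | h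
      · exact hu x h
      · exact hv x h

end Subst

theorem schutz_aux : ∀ n : ℕ, ∀ (M : Type) [Monoid M] [Finite M], Nat.card M ≤ n → Aper M →
    ∀ (α : Type) [Finite α] (f : α → M) (p : M), SF {w : List α | (w.map f).prod = p} := by
  classical
  intro n
  induction n with
  | zero =>
    intro M _ _ h
    have : 0 < Nat.card M := Nat.card_pos
    omega
  | succ n ih =>
    intro M _ _ hM hA α _ f
    have key : ∀ (B : Finset α) (p : M),
        SF {w : List α | (∀ a ∈ w, a ∈ B) ∧ (w.map f).prod = p} := by
      intro B
      induction B using Finset.strongInduction with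
      | H B ihB =>
        intro p
        by_cases hB : ∀ a ∈ B, f a = 1
        · have h1 : ∀ w : List α, (∀ a ∈ w, a ∈ B) → (w.map f).prod = 1 := by
            intro w hw
            apply List.prod_eq_one
            intro x hx
            obtain ⟨a, ha, rfl⟩ := List.mem_map.1 hx
            exact hB a (hw a ha)
          by_cases hp : p = 1
          · convert SF.letters (B : Set α) using 1
            ext w
            constructor
            · rintro ⟨h, _⟩; exact h
            · intro h; exact ⟨h, by rw [hp]; exact h1 w h⟩
          · convert SF.empty (α := α) using 1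
            ext w
            constructor
            · rintro ⟨h, h2⟩; exact absurd (h2.symm.trans (h1 w h)) hp
            · intro h; exact absurd h (Set.notMem_empty w)
        · push Not at hB
          obtain ⟨c, hcB, hc⟩ := hB
          have ihB' := ihB (B.erase c) (Finset.erase_ssubset hcB)
          have hS : ∀ q : LD (f c), SF (Sb ((B.erase c : Finset α) : Set α) c f
              {t : List M | (t.map (LD.of (f c))).prod = q}) := by
            intro q
            refine SF.subst (by simp) (fun m => ?_) ?_
            · exact ihB' m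
            · exact ih (LD (f c)) (by have := LD.card_lt hA hc; omega) (LD.aper hA) M _ q
          have hU := (ihB' p).union (SF.iUnion (ι := {x : M × LD (f c) × M //
            x.1 * x.2.1.1 * x.2.2 = p}) fun x => ((ihB' x.1.1).cat
              ((SF.char c).cat (hS x.1.2.1))).cat (ihB' x.1.2.2))
          convert hU using 1
          ext w
          constructor
          · rintro ⟨hw, hwp⟩
            obtain ⟨vs, v, h1, h2, h3⟩ := dec_exists (B := ((B.erase c : Finset α) : Set α))
              (c := c) (B : Set α) (fun a ha hac => by simp [hac]; exact ha) w hw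
            cases vs with
            | nil =>
              left
              have : v = w := by simpa using h3
              subst this
              exact ⟨h2, hwp⟩
            | cons u us =>
              right
              have hq := LD.prod_of (c := f c) (us.map (fun v => (v.map f).prod))
              refine Set.mem_iUnion.2 ⟨⟨((u.map f).prod,
                ((us.map (fun v => (v.map f).prod)).map (LD.of (f c))).prod,
                (v.map f).prod), ?_⟩, ?_⟩
              · simp only
                rw [hq, ← hwp, ← h3]
                simp [List.map_flatten, List.prod_flatten, List.map_map, Function.comp_def,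
                  mul_assoc]
              · refine ⟨u ++ (c :: (us.map (· ++ [c])).flatten), ⟨u, ⟨h1 u (by simp), rfl⟩,
                  _, ⟨[c], rfl, _, ⟨us, fun x hx => h1 x (by simp [hx]), rfl, rfl⟩, rfl⟩, rfl⟩,
                  v, ⟨h2, rfl⟩, ?_⟩
                rw [← h3]; simp
          · rintro (⟨h1, h2⟩ | h)
            · exact ⟨fun a ha => Finset.mem_of_mem_erase (h1 a ha), h2⟩
            · obtain ⟨⟨⟨p1, q, p3⟩, hx⟩, h⟩ := Set.mem_iUnion.1 h
              obtain ⟨_, ⟨u, ⟨hu, hup⟩, _, ⟨cc, hcc, _, ⟨us, hus, rfl, hq⟩, rfl⟩, rfl⟩, v,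
                ⟨hv, hvp⟩, rfl⟩ := h
              have hcc2 : cc = [c] := hcc
              subst hcc2
              simp only at hx hup hvp
              have hq2 : ((us.map (fun v => (v.map f).prod)).map (LD.of (f c))).prod = q := hq
              have hq3 := LD.prod_of (c := f c) (us.map (fun v => (v.map f).prod))
              rw [hq2] at hq3
              refine ⟨?_, ?_⟩
              · intro a ha
                simp only [List.mem_append, List.mem_flatten, List.mem_map,
                  List.mem_singleton] at ha
                rcases ha with (ha | ha | ⟨l, ⟨x, hx1, rfl⟩, hal⟩) | ha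
                · exact Finset.mem_of_mem_erase (hu a ha)
                · rw [ha]; exact hcB
                · rcases List.mem_append.1 hal with h | h
                  · exact Finset.mem_of_mem_erase (hus x hx1 a h)
                  · rw [List.mem_singleton.1 h]; exact hcB
                · exact Finset.mem_of_mem_erase (hv a ha)
              · rw [← hx, ← hup, ← hvp, hq3]
                simp [List.map_flatten, List.prod_flatten, List.map_map, Function.comp_def,
                  mul_assoc]
    cases nonempty_fintype α
    intro p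
    convert key Finset.univ p using 1
    ext w
    simp

/-- **Schützenberger**: finite aperiodic monoids recognise star-free languages. -/
theorem schutz {M : Type} [Monoid M] [Finite M] (hA : Aper M) {α : Type} [Finite α]
    (f : α → M) (p : M) : SF {w : List α | (w.map f).prod = p} :=
  schutz_aux (Nat.card M) M le_rfl hA α f p

end Vale.Agent.P329
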