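import Vale.Agent.P329.Seg
import Vale.Agent.P329.Lang
import Vale.Agent.P329.Schutz

/-! # P329: runs of an aperiodic partial automaton are star-free -/

namespace Vale.Agent.P329

theorem SF.height {α : Type} {K : Set (List α)} (h : SF K) :
    HasHeight 0 ({w | w ∈ K} : Language α) := by
  induction h with
  | empty =>
    refine (HasHeight.zero (n := 0) (α := α)).congr (fun w => ?_)
    change w ∈ (∅ : Set (List α)) ↔ w ∈ (0 : Language α)
    simp [Language.notMem_zero]
  | eps =>
    refine (HasHeight.one (n := 0) (α := α)).congr (fun w => ?_)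
    rw [Language.mem_one]
    exact Iff.rfl
  | char a =>
    refine (HasHeight.char (n := 0) a).congr (fun w => ?_)
    exact Iff.rfl
  | union _ _ h1 h2 =>
    refine (h1.add h2).congr (fun w => ?_)
    exact Iff.rfl
  | compl _ h1 =>
    refine h1.compl.congr (fun w => ?_)
    exact Iff.rfl
  | cat _ _ h1 h2 =>
    refine (h1.mul h2).congr (fun w => ?_)
    exact Language.mem_mul.symm

section RunMon

variable {α : Type} [DecidableEq α] {k : ℕ}

/-- One letter, on states or the dead state. -/
def exs (pi : α → ZMod k) (x : α) (τ : Bool → Bool → Bool) (y : α) :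
    Function.End (Option (ZMod k × Bool)) :=
  fun o => o.bind (fun s => if cut pi x τ s y = true then none else some (stp pi x s y))

/-- A word, on states or the dead state. -/
def wact (pi : α → ZMod k) (x : α) (τ : Bool → Bool → Bool) (w : List α) :
    Function.End (Option (ZMod k × Bool)) :=
  fun o => o.bind (fun s => run pi x τ s w)

theorem prod_exs (pi : α → ZMod k) (x : α) (τ : Bool → Bool → Bool) (w : List α) :
    (w.map (fun y => MulOpposite.op (exs pi x τ y))).prod = MulOpposite.op (wact pi x τ w) := by
  induction w with
  | nil =>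
    rw [List.map_nil, List.prod_nil]
    apply MulOpposite.unop_injective
    funext o
    cases o with
    | none => rfl
    | some s => rfl
  | cons y w ih =>
    rw [List.map_cons, List.prod_cons, ih, ← MulOpposite.op_mul]
    congr 1
    funext o
    change wact pi x τ w (exs pi x τ y o) = wact pi x τ (y :: w) o
    cases o with
    | none => rfl
    | some s =>
      change (if cut pi x τ s y = true then none else some (stp pi x s y)).bind
        (fun s => run pi x τ s w) = run pi x τ s (y :: w)
      rw [run]
      by_cases hc : cut pi x τ s y = true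
      · rw [if_pos hc, if_pos hc]
        rfl
      · rw [if_neg hc, if_neg hc]
        rfl

theorem run_height_of_aper [NeZero k] [Fintype α] (pi : α → ZMod k) (x : α)
    (τ : Bool → Bool → Bool)
    (h : ∀ u : List α, ∃ n, ∀ s, run pi x τ s (List.replicate n u).flatten =
      run pi x τ s (List.replicate (n + 1) u).flatten) (s s2 : ZMod k × Bool) :
    HasHeight 0 ({w | run pi x τ s w = some s2} : Language α) := by
  classical
  let f : α → (Function.End (Option (ZMod k × Bool)))ᵐᵒᵖ :=
    fun y => MulOpposite.op (exs pi x τ y)
  let M : Submonoid (Function.End (Option (ZMod k × Bool)))ᵐᵒᵖ :=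
    { carrier := {m | ∃ w : List α, m = (w.map f).prod}
      one_mem' := ⟨[], rfl⟩
      mul_mem' := by
        rintro a b ⟨u, rfl⟩ ⟨v, rfl⟩
        exact ⟨u ++ v, by rw [List.map_append, List.prod_append]⟩ }
  haveI : Finite (Function.End (Option (ZMod k × Bool))) :=
    inferInstanceAs (Finite (Option (ZMod k × Bool) → Option (ZMod k × Bool)))
  haveI : Finite (Function.End (Option (ZMod k × Bool)))ᵐᵒᵖ :=
    Finite.of_equiv _ MulOpposite.opEquiv
  have hpow : ∀ (u : List α) (n : ℕ), ((u.map f).prod) ^ n =
      ((List.replicate n u).flatten.map f).prod := by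
    intro u n
    induction n with
    | zero => simp
    | succ n ih =>
      rw [pow_succ', ih, List.replicate_succ, List.flatten_cons, List.map_append,
        List.prod_append]
  have hA : Aper M := by
    rintro ⟨m, u, rfl⟩
    obtain ⟨n, hn⟩ := h u
    refine ⟨n, ?_⟩
    apply Subtype.ext
    change ((u.map f).prod) ^ n = ((u.map f).prod) ^ (n + 1)
    rw [hpow, hpow, prod_exs, prod_exs]
    congr 1
    funext o
    cases o with
    | none => rfl
    | some s => exact hn s
  let g : α → M := fun y => ⟨f y, [y], by simp⟩
  have hg : ∀ w : List α, (((w.map g).prod : M) : (Function.End (Option (ZMod k × Bool)))ᵐᵒᵖ) =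
      MulOpposite.op (wact pi x τ w) := by
    intro w
    rw [← prod_exs, Submonoid.coe_list_prod, List.map_map]
    rfl
  have hS : SF (⋃ p : {p : M // (MulOpposite.unop (p : (Function.End
      (Option (ZMod k × Bool)))ᵐᵒᵖ)) (some s) = some s2},
      {w : List α | (w.map g).prod = p.1}) := SF.iUnion fun p => schutz hA g p.1
  refine hS.height.congr (fun w => ?_)
  change run pi x τ s w = some s2 ↔ w ∈ ⋃ p : {p : M // (MulOpposite.unop (p : (Function.End
      (Option (ZMod k × Bool)))ᵐᵒᵖ)) (some s) = some s2},
      {w : List α | (w.map g).prod = p.1}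
  rw [Set.mem_iUnion]
  constructor
  · intro hw
    refine ⟨⟨(w.map g).prod, ?_⟩, rfl⟩
    rw [hg]
    exact hw
  · rintro ⟨⟨p, hp⟩, hw⟩
    have hw' : (w.map g).prod = p := hw
    rw [← hw', hg] at hp
    exact hp

end RunMon

end Vale.Agent.P329
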