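import Vale.Agent.P329.Seg
import Vale.Agent.P329.Schutz
import Vale.Agent.P329.Lang

namespace Vale.Agent.P329

variable {α : Type}

theorem SF.hasHeight {K : Set (List α)} (h : SF K) : HasHeight 0 (K : Language α) := by
  induction h with
  | empty => exact HasHeight.zero
  | eps => exact HasHeight.one
  | char a => exact HasHeight.char a
  | union _ _ h1 h2 => exact (HasHeight.add h1 h2).congr (fun w => Iff.rfl)
  | compl _ h => exact (HasHeight.compl h).congr (fun w => Iff.rfl)
  | cat _ _ h1 h2 =>
    refine (HasHeight.mul h1 h2).congr (fun w => ?_)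
    exact (Language.mem_mul).symm

variable [DecidableEq α] {k : ℕ} {pi : α → ZMod k} {x : α} {τ : Bool → Bool → Bool}

theorem run_append (u v : List α) : ∀ s, run pi x τ s (u ++ v) =
    (run pi x τ s u).bind (fun s' => run pi x τ s' v) := by
  induction u with
  | nil => intro s; rfl
  | cons y u ih =>
    intro s
    simp only [List.cons_append, run]
    split_ifs
    · rfl
    · exact ih _

theorem run_fst (w : List α) : ∀ s s', run pi x τ s w = some s' →
    s'.1 = s.1 + (w.map pi).sum := by
  induction w with
  | nil => intro s s' h; simp only [run, Option.some.injEq] at h; simp [h]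
  | cons y w ih =>
    intro s s' h
    simp only [run] at h
    split_ifs at h
    rw [ih _ _ h]
    simp [stp, add_assoc]

theorem run_flag (w : List α) : ∀ (q : ZMod k) (b c : Bool) s1 s2, run pi x τ (q, b) w = some s1 →
    run pi x τ (q, c) w = some s2 → s1 = s2 ∨ (s1.2 = b ∧ s2.2 = c) := by
  induction w with
  | nil =>
    intro q b c s1 s2 h1 h2
    simp only [run, Option.some.injEq] at h1 h2
    right
    rw [← h1, ← h2]
    exact ⟨rfl, rfl⟩
  | cons y w ih =>
    intro q b c s1 s2 h1 h2
    simp only [run] at h1 h2
    split_ifs at h1 h2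
    by_cases hq : q = 0
    · left
      have e : stp pi x (q, b) y = stp pi x (q, c) y := by simp [stp, hq]
      rw [e, h2] at h1
      simpa using h1.symm
    · have e1 : stp pi x (q, b) y = (q + pi y, b) := by simp [stp, hq]
      have e2 : stp pi x (q, c) y = (q + pi y, c) := by simp [stp, hq]
      rw [e1] at h1
      rw [e2] at h2
      exact ih _ _ _ _ _ h1 h2

/-- Words acting as nothing after finitely many repetitions. -/
def Dead (pi : α → ZMod k) (x : α) (τ : Bool → Bool → Bool) : Prop :=
  ∀ u : List α, (u.map pi).sum ≠ 0 → ∃ n : ℕ, ∀ s, run pi x τ s (List.replicate n u).flatten = none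

/-- Transition monoid. -/
def TM (pi : α → ZMod k) (x : α) (τ : Bool → Bool → Bool) : Type :=
  {F : ZMod k × Bool → Option (ZMod k × Bool) // ∃ w, F = fun s => run pi x τ s w}

instance : Mul (TM pi x τ) := ⟨fun F G => ⟨fun s => (F.1 s).bind G.1, by
  obtain ⟨u, hu⟩ := F.2
  obtain ⟨v, hv⟩ := G.2
  exact ⟨u ++ v, by funext s; rw [hu, hv, run_append]⟩⟩⟩

instance : One (TM pi x τ) := ⟨⟨fun s => some s, [], rfl⟩⟩

theorem TM.mul_val (F G : TM pi x τ) (s) : (F * G).1 s = (F.1 s).bind G.1 := rfl
theorem TM.one_val (s) : (1 : TM pi x τ).1 s = some s := rfl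

instance : Monoid (TM pi x τ) where
  mul_assoc F G H := by
    apply Subtype.ext; funext s
    simp only [TM.mul_val]
    cases F.1 s <;> rfl
  one_mul F := by
    apply Subtype.ext; funext s
    simp [TM.mul_val, TM.one_val]
  mul_one F := by
    apply Subtype.ext; funext s
    simp only [TM.mul_val]
    cases F.1 s <;> rfl

instance [NeZero k] : Finite (TM pi x τ) :=
  inferInstanceAs (Finite {F : ZMod k × Bool → Option (ZMod k × Bool) // _})

theorem TM.pow_val (u : List α) (F : TM pi x τ) (hF : F.1 = fun s => run pi x τ s u) (n : ℕ) (s) :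
    (F ^ n).1 s = run pi x τ s (List.replicate n u).flatten := by
  induction n generalizing s with
  | zero => rfl
  | succ n ih =>
    rw [pow_succ', TM.mul_val, List.replicate_succ, List.flatten_cons, run_append, hF]
    congr 1
    funext s'
    exact ih s'

theorem TM.aper (hD : Dead pi x τ) : Aper (TM pi x τ) := by
  intro F
  obtain ⟨u, hu⟩ := F.2
  by_cases h : (u.map pi).sum = 0
  · refine ⟨2, ?_⟩
    apply Subtype.ext; funext s
    rw [pow_succ F 2, TM.mul_val, pow_two, TM.mul_val]
    cases h1 : F.1 s with
    | none => rfl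
    | some s1 =>
      simp only [Option.bind_some]
      cases h2 : F.1 s1 with
      | none => rfl
      | some s2 =>
        simp only [Option.bind_some]
        rw [hu] at h1 h2
        have e1 : s1.1 = s.1 := by rw [run_fst u _ _ h1, h, add_zero]
        have e2 : s2.1 = s1.1 := by rw [run_fst u _ _ h2, h, add_zero]
        have h2' := h2
        have : s2 = s1 := by
          obtain ⟨q, b⟩ := s
          obtain ⟨q1, c⟩ := s1
          simp only at e1
          subst e1
          rcases run_flag u _ _ _ _ _ h1 h2 with h3 | ⟨h3, h4⟩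
          · exact h3.symm
          · exact Prod.ext e2 h4
        rw [this, hu]
        rw [this] at h2
        exact h2.symm
  · obtain ⟨n, hn⟩ := hD u h
    refine ⟨n, ?_⟩
    apply Subtype.ext; funext s
    rw [pow_succ, TM.mul_val, TM.pow_val u F hu, hn]
    rfl

theorem run_sf [NeZero k] [Finite α] (hD : Dead pi x τ) (s s2 : ZMod k × Bool) :
    SF {w : List α | run pi x τ s w = some s2} := by
  have hA := TM.aper hD
  let f : α → TM pi x τ := fun y => ⟨fun s => run pi x τ s [y], [y], rfl⟩
  have hf : ∀ w : List α, ∀ s, ((w.map f).prod).1 s = run pi x τ s w := by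
    intro w
    induction w with
    | nil => intro s; rfl
    | cons y w ih =>
      intro s
      rw [List.map_cons, List.prod_cons, TM.mul_val]
      have : y :: w = [y] ++ w := rfl
      rw [this, run_append]
      congr 1
      funext s'
      exact ih s'
  have h := SF.iUnion (ι := {F : TM pi x τ // F.1 s = some s2})
    (K := fun F => {w : List α | (w.map f).prod = F.1}) (fun F => schutz hA f F.1)
  convert h using 1
  ext w
  constructor
  · intro hw
    exact Set.mem_iUnion.2 ⟨⟨(w.map f).prod, (hf w s).trans hw⟩, rfl⟩
  · intro hw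
    obtain ⟨⟨F, hF⟩, hw⟩ := Set.mem_iUnion.1 hw
    have hw2 : (w.map f).prod = F := hw
    have := hf w s
    rw [hw2] at this
    exact this.symm.trans hF

end Vale.Agent.P329
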