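import Vale.Agent.P329.Defs

namespace Vale.Agent.P329

variable {α : Type} [DecidableEq α] {k : ℕ}

/-- One step: state in `ZMod k`, and whether the current segment (word between visits of `0`)
starts with `x`. -/
def stp (pi : α → ZMod k) (x : α) (s : ZMod k × Bool) (y : α) : ZMod k × Bool :=
  (s.1 + pi y, if s.1 = 0 then decide (y = x) else s.2)

/-- The step completes a segment of a type in `τ` (first letter is `x`, last letter is `x`). -/
def cut (pi : α → ZMod k) (x : α) (τ : Bool → Bool → Bool) (s : ZMod k × Bool) (y : α) : Bool :=
  decide (s.1 + pi y = 0) && τ (stp pi x s y).2 (decide (y = x))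

/-- Number of completed segments of a type in `τ`. -/
def seg (pi : α → ZMod k) (x : α) (τ : Bool → Bool → Bool) : ZMod k × Bool → List α → ℕ
  | _, [] => 0
  | s, y :: w => (if cut pi x τ s y = true then 1 else 0) + seg pi x τ (stp pi x s y) w

/-- Run without completing a segment of a type in `τ`. -/
def run (pi : α → ZMod k) (x : α) (τ : Bool → Bool → Bool) :
    ZMod k × Bool → List α → Option (ZMod k × Bool)
  | s, [] => some s
  | s, y :: w => if cut pi x τ s y = true then none else run pi x τ (stp pi x s y) w

end Vale.Agent.P329
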